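import Vale.Agent.P233.H825.RA2

/-! P233, RCDA, block G11 (helper825): lower semicontinuity of the Cheeger energy, and the
Cheeger energy is quadratic if the local Lipschitz constants satisfy the parallelogram
inequality. -/

set_option linter.all false

open MeasureTheory Filter Topology Set Metric
open scoped ENNReal NNReal

namespace Vale.Agent.P233.RA

/-! ### measurability of the local Lipschitz constant -/

section meas

variable {M : Type*} [MetricSpace M]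

theorem lsc_sup {F : M → ℝ} (hF : Continuous F) (r : ℝ) : LowerSemicontinuous fun x =>
    ⨆ y ∈ ball x r ∩ {x}ᶜ, ENNReal.ofReal (|F y - F x| / dist y x) := by
  intro x c hc
  change c < ⨆ y ∈ ball x r ∩ {x}ᶜ, ENNReal.ofReal (|F y - F x| / dist y x) at hc
  change ∀ᶠ x' in 𝓝 x, c < ⨆ y ∈ ball x' r ∩ {x'}ᶜ, ENNReal.ofReal (|F y - F x'| / dist y x')
  rw [lt_iSup_iff] at hc
  obtain ⟨y, hc⟩ := hc
  rw [lt_iSup_iff] at hc
  obtain ⟨hy, hc⟩ := hc
  have hyx : y ≠ x := hy.2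
  have h0 : dist y x ≠ 0 := (dist_pos.2 hyx).ne'
  have h1 : ContinuousAt (fun x' => ENNReal.ofReal (|F y - F x'| / dist y x')) x := by
    refine ENNReal.continuous_ofReal.continuousAt.comp ?_
    refine ContinuousAt.div ?_ ?_ h0
    · exact (continuous_const.sub hF).abs.continuousAt
    · exact (continuous_const.dist continuous_id).continuousAt
  have h2 : ∀ᶠ x' in 𝓝 x, c < ENNReal.ofReal (|F y - F x'| / dist y x') :=
    h1.eventually (lt_mem_nhds hc)
  have h3 : ∀ᶠ x' in 𝓝 x, dist y x' < r := by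
    have : Continuous fun x' => dist y x' := by fun_prop
    exact this.continuousAt.eventually (gt_mem_nhds hy.1)
  have h4 : ∀ᶠ x' in 𝓝 x, x' ≠ y := isOpen_ne.mem_nhds hyx.symm
  filter_upwards [h2, h3, h4] with x' e2 e3 e4
  refine lt_of_lt_of_le e2 ?_
  exact le_iSup₂_of_le y ⟨e3, fun h => e4 h.symm⟩ le_rfl

theorem lipAt_eq (F : M → ℝ) (x : M) : lipAt F x = ⨅ k : ℕ,
    ⨆ y ∈ ball x (1 / ((k : ℝ) + 1)) ∩ {x}ᶜ, ENNReal.ofReal (|F y - F x| / dist y x) := by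
  unfold lipAt
  rw [(nhdsWithin_hasBasis Metric.nhds_basis_ball_inv_nat_succ {x}ᶜ).limsup_eq_iInf_iSup]
  simp

variable [MeasurableSpace M] [BorelSpace M]

theorem measurable_lipAt {F : M → ℝ} (hF : Continuous F) : Measurable (lipAt F) := by
  have h : lipAt F = fun x => ⨅ k : ℕ, ⨆ y ∈ ball x (1 / ((k : ℝ) + 1)) ∩ {x}ᶜ,
      ENNReal.ofReal (|F y - F x| / dist y x) := by
    ext x; exact lipAt_eq F x
  rw [h]
  exact Measurable.iInf fun k => (lsc_sup hF _).measurable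

theorem measurable_lr {F : M → ℝ} (hF : Continuous F) : Measurable (lr F) :=
  (measurable_lipAt hF).ennreal_toReal

theorem IsLip.continuous {F : M → ℝ} (hF : Met.IsLip F) : Continuous F := by
  obtain ⟨K, hK⟩ := hF
  exact hK.continuous

end meas

/-! ### a Hilbert space lemma -/

theorem exists_min_seq {H : Type*} [NormedAddCommGroup H] [InnerProductSpace ℝ H]
    [CompleteSpace H] (A : ℕ → Set H)
    (hconv : ∀ N, ∀ x ∈ A N, ∀ y ∈ A N, (1 / 2 : ℝ) • (x + y) ∈ A N) (hanti : Antitone A)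
    {C : ℝ} (hC : ∀ N, ∀ ε > 0, ∃ x ∈ A N, ‖x‖ ^ 2 ≤ C + ε) :
    ∃ (x : ℕ → H) (z : H), (∀ N, x N ∈ A N) ∧ Tendsto x atTop (𝓝 z) ∧ ‖z‖ ^ 2 ≤ C := by
  set c : ℕ → ℝ := fun N => sInf ((fun x => ‖x‖ ^ 2) '' A N) with hc
  have hbdd : ∀ N, BddBelow ((fun x : H => ‖x‖ ^ 2) '' A N) := by
    intro N
    refine ⟨0, ?_⟩
    rintro _ ⟨x, -, rfl⟩
    positivity
  have hne : ∀ N, ((fun x : H => ‖x‖ ^ 2) '' A N).Nonempty := by
    intro N
    obtain ⟨x, hx, -⟩ := hC N 1 one_pos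
    exact ⟨_, x, hx, rfl⟩
  have hle : ∀ N, ∀ x ∈ A N, c N ≤ ‖x‖ ^ 2 := fun N x hx => csInf_le (hbdd N) ⟨x, hx, rfl⟩
  have hcC : ∀ N, c N ≤ C := by
    intro N
    refine le_of_forall_pos_le_add fun ε hε => ?_
    obtain ⟨x, hx, hx2⟩ := hC N ε hε
    exact (hle N x hx).trans hx2
  have hmono : Monotone c := by
    intro N N' hN
    exact csInf_le_csInf (hbdd N) (hne N') (image_mono (hanti hN))
  have hex : ∀ N : ℕ, ∃ x ∈ A N, ‖x‖ ^ 2 < c N + 1 / ((N : ℝ) + 1) := by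
    intro N
    have h1 : c N < c N + 1 / ((N : ℝ) + 1) := by
      have : (0 : ℝ) < 1 / ((N : ℝ) + 1) := by positivity
      linarith
    obtain ⟨_, ⟨x, hx, rfl⟩, h2⟩ := exists_lt_of_csInf_lt (hne N) h1
    exact ⟨x, hx, h2⟩
  choose x hxA hx using hex
  obtain ⟨cl, hcl⟩ : ∃ cl, Tendsto c atTop (𝓝 cl) :=
    ⟨_, tendsto_atTop_ciSup hmono ⟨C, by rintro _ ⟨N, rfl⟩; exact hcC N⟩⟩
  have hccl : ∀ N, c N ≤ cl := fun N => hmono.ge_of_tendsto hcl N
  have hclC : cl ≤ C := le_of_tendsto' hcl hcC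
  have hdist : ∀ k l N : ℕ, N ≤ k → N ≤ l →
      dist (x k) (x l) ≤ √(4 * (cl - c N) + 4 * (1 / ((N : ℝ) + 1))) := by
    intro k l N hk hl
    rw [dist_eq_norm]
    apply Real.le_sqrt_of_sq_le
    have h1 := hle N _ (hconv N _ (hanti hk (hxA k)) _ (hanti hl (hxA l)))
    rw [norm_smul, mul_pow] at h1
    have h2 := parallelogram_law_with_norm ℝ (x k) (x l)
    have h3 := hx k
    have h4 := hx l
    have h5 : (1 : ℝ) / ((k : ℝ) + 1) ≤ 1 / ((N : ℝ) + 1) := by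
      apply one_div_le_one_div_of_le (by positivity)
      have : (N : ℝ) ≤ k := by exact_mod_cast hk
      linarith
    have h6 : (1 : ℝ) / ((l : ℝ) + 1) ≤ 1 / ((N : ℝ) + 1) := by
      apply one_div_le_one_div_of_le (by positivity)
      have : (N : ℝ) ≤ l := by exact_mod_cast hl
      linarith
    have h7 := hccl k
    have h8 := hccl l
    have h9 : ‖(1 / 2 : ℝ)‖ ^ 2 = 1 / 4 := by
      rw [Real.norm_eq_abs, sq_abs]; norm_num
    rw [h9] at h1
    nlinarith [h1, h2, h3, h4, h5, h6, h7, h8]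
  have hlim : Tendsto (fun N : ℕ => √(4 * (cl - c N) + 4 * (1 / ((N : ℝ) + 1)))) atTop (𝓝 0) := by
    have h1 : Tendsto (fun N : ℕ => 4 * (cl - c N) + 4 * (1 / ((N : ℝ) + 1))) atTop
        (𝓝 (4 * (cl - cl) + 4 * 0)) :=
      ((tendsto_const_nhds.sub hcl).const_mul 4).add
        (tendsto_one_div_add_atTop_nhds_zero_nat.const_mul 4)
    have h2 := h1.sqrt
    simpa using h2
  have hcau : CauchySeq x := cauchySeq_of_le_tendsto_0 _ hdist hlim
  obtain ⟨z, hz⟩ := cauchySeq_tendsto_of_complete hcau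
  refine ⟨x, z, hxA, hz, ?_⟩
  have h1 : Tendsto (fun N => ‖x N‖ ^ 2) atTop (𝓝 (‖z‖ ^ 2)) := (hz.norm).pow 2
  have h2 : Tendsto (fun N : ℕ => c N + 1 / ((N : ℝ) + 1)) atTop (𝓝 (cl + 0)) :=
    hcl.add tendsto_one_div_add_atTop_nhds_zero_nat
  have h3 := le_of_tendsto_of_tendsto' h1 h2 (fun N => (hx N).le)
  linarith

/-! ### lower semicontinuity of the Cheeger energy -/

section lsc

variable {M : Type*} [MetricSpace M] [MeasurableSpace M] {m : Measure M}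

theorem norm_toLp_sq {P : M → ℝ} (hP : MemLp P 2 m) : ‖hP.toLp P‖ ^ 2 = ∫ x, P x ^ 2 ∂m := by
  rw [← real_inner_self_eq_norm_sq, MeasureTheory.L2.inner_def]
  refine integral_congr_ae ?_
  filter_upwards [hP.coeFn_toLp] with x hx
  simp [hx, sq]

theorem norm_Lp_sq (P : Lp ℝ 2 m) : ‖P‖ ^ 2 = ∫ x, P x ^ 2 ∂m := by
  rw [← real_inner_self_eq_norm_sq, MeasureTheory.L2.inner_def]
  refine integral_congr_ae ?_
  filter_upwards with x
  simp [sq]

variable [BorelSpace M]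

theorem mslope_lsc {f : M → ℝ} (hf : MemLp f 2 m) {C : ℝ}
    (h : ∀ ε > (0 : ℝ), ∃ U P : M → ℝ, Met.Good m U P ∧ eLpNorm (U - f) 2 m ≤ ENNReal.ofReal ε ∧
      ∫ x, P x ^ 2 ∂m ≤ C + ε) : Met.W12 m f ∧ Met.Q m f ≤ C := by
  set A : ℕ → Set (Lp ℝ 2 m) := fun N => {x | ∃ U P : M → ℝ, Met.Good m U P ∧
    eLpNorm (U - f) 2 m ≤ ENNReal.ofReal (1 / ((N : ℝ) + 1)) ∧ ⇑x =ᵐ[m] P} with hA
  have hanti : Antitone A := by
    intro N N' hN x hx
    obtain ⟨U, P, h1, h2, h3⟩ := hx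
    refine ⟨U, P, h1, h2.trans (ENNReal.ofReal_le_ofReal ?_), h3⟩
    apply one_div_le_one_div_of_le (by positivity)
    have : (N : ℝ) ≤ N' := by exact_mod_cast hN
    linarith
  have hconv : ∀ N, ∀ x ∈ A N, ∀ y ∈ A N, (1 / 2 : ℝ) • (x + y) ∈ A N := by
    intro N x hx y hy
    obtain ⟨U, P, h1, h2, h3⟩ := hx
    obtain ⟨U', P', h1', h2', h3'⟩ := hy
    refine ⟨_, _, (h1.add h1').const_mul (1 / 2), ?_, ?_⟩
    · have e : (fun x => (1 / 2 : ℝ) * (U + U') x) - f = (1 / 2 : ℝ) • ((U - f) + (U' - f)) := by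
        ext x
        simp only [Pi.sub_apply, Pi.add_apply, Pi.smul_apply, smul_eq_mul]
        ring
      rw [e, eLpNorm_const_smul]
      have h4 : eLpNorm ((U - f) + (U' - f)) 2 m ≤ ENNReal.ofReal (1 / ((N : ℝ) + 1)) +
          ENNReal.ofReal (1 / ((N : ℝ) + 1)) :=
        (eLpNorm_add_le (h1.2.1.1.sub hf.1) (h1'.2.1.1.sub hf.1) (by norm_num)).trans
          (add_le_add h2 h2')
      have h5 : ‖(1 / 2 : ℝ)‖ₑ = ENNReal.ofReal (1 / 2) := by
        rw [Real.enorm_eq_ofReal (by norm_num)]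
      rw [h5]
      calc ENNReal.ofReal (1 / 2) * eLpNorm ((U - f) + (U' - f)) 2 m
          ≤ ENNReal.ofReal (1 / 2) * (ENNReal.ofReal (1 / ((N : ℝ) + 1)) +
          ENNReal.ofReal (1 / ((N : ℝ) + 1))) := by gcongr
        _ = ENNReal.ofReal (1 / ((N : ℝ) + 1)) := by
          rw [← ENNReal.ofReal_add (by positivity) (by positivity),
            ← ENNReal.ofReal_mul (by norm_num)]
          congr 1; ring
    · filter_upwards [Lp.coeFn_smul (1 / 2 : ℝ) (x + y), Lp.coeFn_add x y, h3, h3']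
        with z e1 e2 e3 e4
      rw [e1, Pi.smul_apply, e2, Pi.add_apply, e3, e4]
      simp only [smul_eq_mul, Pi.add_apply]
      norm_num
  have hC : ∀ N, ∀ ε > 0, ∃ x ∈ A N, ‖x‖ ^ 2 ≤ C + ε := by
    intro N ε hε
    have hpos : (0 : ℝ) < min ε (1 / ((N : ℝ) + 1)) := lt_min hε (by positivity)
    obtain ⟨U, P, h1, h2, h3⟩ := h _ hpos
    refine ⟨h1.2.2.1.toLp P, ⟨U, P, h1, h2.trans (ENNReal.ofReal_le_ofReal (min_le_right _ _)),
      h1.2.2.1.coeFn_toLp⟩, ?_⟩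
    rw [norm_toLp_sq]
    linarith [min_le_left ε (1 / ((N : ℝ) + 1))]
  obtain ⟨x, z, hx, hz, hzC⟩ := exists_min_seq A hconv hanti hC
  choose U P h1 h2 h3 using hx
  have hR : Met.RSlope m f z := by
    refine ⟨hf, Lp.memLp z, U, P, h1, ?_, ?_⟩
    · have hlim : Tendsto (fun N : ℕ => ENNReal.ofReal (1 / ((N : ℝ) + 1))) atTop (𝓝 0) := by
        have := (ENNReal.continuous_ofReal.tendsto 0).comp
          tendsto_one_div_add_atTop_nhds_zero_nat
        simpa [Function.comp_def] using this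
      exact tendsto_of_tendsto_of_tendsto_of_le_of_le tendsto_const_nhds hlim
        (fun _ => zero_le) h2
    · have h4 := (Lp.tendsto_Lp_iff_tendsto_eLpNorm' x z).1 hz
      refine h4.congr fun N => ?_
      refine eLpNorm_congr_ae ?_
      filter_upwards [h3 N] with y hy
      simp [hy]
  refine ⟨⟨z, hR⟩, ?_⟩
  unfold Met.Q
  refine le_trans ?_ hzC
  rw [norm_Lp_sq]
  have hW : Met.W12 m f := ⟨z, hR⟩
  refine integral_mono_ae hW.memLp_mslope.integrable_sq (Lp.memLp z).integrable_sq ?_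
  filter_upwards [hR.mslope_le, hW.mslope_nonneg] with y h5 h6
  exact pow_le_pow_left₀ h6 h5 2

end lsc

/-! ### the Cheeger energy is quadratic -/

section quadratic

variable {M : Type*} [MetricSpace M] [MeasurableSpace M] [BorelSpace M] {m : Measure M}

theorem good_lr {U P V R : M → ℝ} (h1 : Met.Good m U P) (h2 : Met.Good m V R)
    (hq : ∀ᵐ x ∂m, lr (U + V) x ^ 2 + lr (U - V) x ^ 2 ≤ 2 * lr U x ^ 2 + 2 * lr V x ^ 2) :
    Met.Good m (U + V) (lr (U + V)) ∧ Met.Good m (U - V) (lr (U - V)) ∧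
      (∫ x, lr (U + V) x ^ 2 ∂m) + ∫ x, lr (U - V) x ^ 2 ∂m ≤
        2 * ∫ x, P x ^ 2 ∂m + 2 * ∫ x, R x ^ 2 ∂m := by
  have hadd : Met.IsLip (U + V) := h1.1.add h2.1
  have hsub : Met.IsLip (U - V) := by
    have := h1.1.add (h2.1.const_mul (-1))
    have e : U - V = U + fun x => (-1 : ℝ) * V x := by
      ext x; simp [sub_eq_add_neg]
    rw [e]; exact this
  have key : ∀ᵐ x ∂m, lr (U + V) x ^ 2 + lr (U - V) x ^ 2 ≤ 2 * P x ^ 2 + 2 * R x ^ 2 := by
    filter_upwards [hq, h1.lipBd, h2.lipBd] with x h3 h4 h5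
    have e1 := pow_le_pow_left₀ (lr_nonneg _ _) (lr_le h4.1 h4.2) 2
    have e2 := pow_le_pow_left₀ (lr_nonneg _ _) (lr_le h5.1 h5.2) 2
    linarith
  have i1 : Integrable (fun x => 2 * P x ^ 2 + 2 * R x ^ 2) m :=
    (h1.2.2.1.integrable_sq.const_mul 2).add (h2.2.2.1.integrable_sq.const_mul 2)
  have hbd : ∀ᵐ x ∂m, lr (U + V) x ^ 2 ≤ 2 * P x ^ 2 + 2 * R x ^ 2 ∧
      lr (U - V) x ^ 2 ≤ 2 * P x ^ 2 + 2 * R x ^ 2 := by
    filter_upwards [key] with x hx
    constructor <;> nlinarith [sq_nonneg (lr (U + V) x), sq_nonneg (lr (U - V) x)]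
  have a1 : AEStronglyMeasurable (lr (U + V)) m :=
    (measurable_lr (IsLip.continuous hadd)).aestronglyMeasurable
  have a2 : AEStronglyMeasurable (lr (U - V)) m :=
    (measurable_lr (IsLip.continuous hsub)).aestronglyMeasurable
  have s1 : Integrable (fun x => lr (U + V) x ^ 2) m := by
    refine i1.mono (a1.pow 2) ?_
    filter_upwards [hbd] with x hx
    rw [Real.norm_eq_abs, Real.norm_eq_abs, abs_of_nonneg (sq_nonneg _)]
    exact hx.1.trans (le_abs_self _)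
  have s2 : Integrable (fun x => lr (U - V) x ^ 2) m := by
    refine i1.mono (a2.pow 2) ?_
    filter_upwards [hbd] with x hx
    rw [Real.norm_eq_abs, Real.norm_eq_abs, abs_of_nonneg (sq_nonneg _)]
    exact hx.2.trans (le_abs_self _)
  have m1 : MemLp (lr (U + V)) 2 m := (memLp_two_iff_integrable_sq a1).2 s1
  have m2 : MemLp (lr (U - V)) 2 m := (memLp_two_iff_integrable_sq a2).2 s2
  have u2 : MemLp (U - V) 2 m := h1.2.1.sub h2.2.1
  refine ⟨Met.Good.mk' hadd (h1.2.1.add h2.2.1) m1 ?_, Met.Good.mk' hsub u2 m2 ?_, ?_⟩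
  · filter_upwards with x using ⟨lr_nonneg _ _, lipBd_lr hadd x⟩
  · filter_upwards with x using ⟨lr_nonneg _ _, lipBd_lr hsub x⟩
  · rw [← integral_add s1 s2, ← integral_const_mul, ← integral_const_mul,
      ← integral_add (h1.2.2.1.integrable_sq.const_mul 2) (h2.2.2.1.integrable_sq.const_mul 2)]
    exact integral_mono_ae (s1.add s2) i1 key

/-- convergence of the squared norms -/
theorem tendsto_sq_of_eLpNorm {g : ℕ → M → ℝ} {G : M → ℝ} (hg : ∀ k, MemLp (g k) 2 m)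
    (hG : MemLp G 2 m) (h : Tendsto (fun k => eLpNorm (g k - G) 2 m) atTop (𝓝 0)) :
    Tendsto (fun k => ∫ x, g k x ^ 2 ∂m) atTop (𝓝 (∫ x, G x ^ 2 ∂m)) := by
  have h1 : Tendsto (fun k => (hg k).toLp (g k)) atTop (𝓝 (hG.toLp G)) := by
    rw [Lp.tendsto_Lp_iff_tendsto_eLpNorm'' g hg G hG]
    exact h
  have h2 := (h1.norm).pow 2
  simp only [norm_toLp_sq] at h2
  exact h2

theorem quad_le (hq : ∀ F G : M → ℝ, Met.IsLip F → Met.IsLip G → ∀ᵐ x ∂m,
    lr (F + G) x ^ 2 + lr (F - G) x ^ 2 ≤ 2 * lr F x ^ 2 + 2 * lr G x ^ 2)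
    {f g : M → ℝ} (hf : Met.W12 m f) (hg : Met.W12 m g) :
    Met.Q m (f + g) + Met.Q m (f - g) ≤ 2 * Met.Q m f + 2 * Met.Q m g := by
  obtain ⟨hf2, hfs, U, P, hUP, hU, hP⟩ := hf.rSlope
  obtain ⟨hg2, hgs, V, R, hVR, hV, hR⟩ := hg.rSlope
  have hk := fun k => good_lr (hUP k) (hVR k) (hq _ _ (hUP k).1 (hVR k).1)
  set a : ℕ → ℝ := fun k => ∫ x, lr (U k + V k) x ^ 2 ∂m with ha
  set b : ℕ → ℝ := fun k => ∫ x, lr (U k - V k) x ^ 2 ∂m with hb
  set c : ℕ → ℝ := fun k => 2 * ∫ x, P k x ^ 2 ∂m + 2 * ∫ x, R k x ^ 2 ∂m with hc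
  have hc1 : Tendsto c atTop (𝓝 (2 * Met.Q m f + 2 * Met.Q m g)) :=
    ((tendsto_sq_of_eLpNorm (fun k => (hUP k).2.2.1) hfs hP).const_mul 2).add
      ((tendsto_sq_of_eLpNorm (fun k => (hVR k).2.2.1) hgs hR).const_mul 2)
  have hab : ∀ k, a k + b k ≤ c k := fun k => (hk k).2.2
  have ha0 : ∀ k, 0 ≤ a k := fun k => integral_nonneg fun x => sq_nonneg _
  have hb0 : ∀ k, 0 ≤ b k := fun k => integral_nonneg fun x => sq_nonneg _
  obtain ⟨B, hB⟩ := hc1.bddAbove_range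
  have haB : ∀ k, a k ∈ Icc 0 B := fun k =>
    ⟨ha0 k, by linarith [hab k, hb0 k, hB ⟨k, rfl⟩]⟩
  obtain ⟨A, -, φ, hφ, hA⟩ := (isCompact_Icc (a := (0 : ℝ)) (b := B)).tendsto_subseq haB
  have hUV : Tendsto (fun k => eLpNorm ((U k + V k) - (f + g)) 2 m) atTop (𝓝 0) := by
    have h1 := hU.add hV
    rw [add_zero] at h1
    refine tendsto_of_tendsto_of_tendsto_of_le_of_le tendsto_const_nhds h1 (fun _ => zero_le) ?_
    intro k
    have e : (U k + V k) - (f + g) = (U k - f) + (V k - g) := by abel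
    dsimp only
    rw [e]
    exact eLpNorm_add_le ((hUP k).2.1.1.sub hf2.1) ((hVR k).2.1.1.sub hg2.1) (by norm_num)
  have hUV' : Tendsto (fun k => eLpNorm ((U k - V k) - (f - g)) 2 m) atTop (𝓝 0) := by
    have h1 := hU.add hV
    rw [add_zero] at h1
    refine tendsto_of_tendsto_of_tendsto_of_le_of_le tendsto_const_nhds h1 (fun _ => zero_le) ?_
    intro k
    have e : (U k - V k) - (f - g) = (U k - f) - (V k - g) := by abel
    dsimp only
    rw [e]
    exact eLpNorm_sub_le ((hUP k).2.1.1.sub hf2.1) ((hVR k).2.1.1.sub hg2.1) (by norm_num)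
  have h1 : Met.Q m (f + g) ≤ A := by
    refine (mslope_lsc (hf2.add hg2) fun ε hε => ?_).2
    have e1 := (hUV.comp hφ.tendsto_atTop).eventually
      (ge_mem_nhds (ENNReal.ofReal_pos.2 hε))
    have e2 := hA.eventually (gt_mem_nhds (show A < A + ε by linarith))
    obtain ⟨k, hk1, hk2⟩ := (e1.and e2).exists
    exact ⟨_, _, (hk (φ k)).1, hk1, le_of_lt hk2⟩
  have h2 : Met.Q m (f - g) ≤ (2 * Met.Q m f + 2 * Met.Q m g) - A := by
    refine (mslope_lsc (hf2.sub hg2) fun ε hε => ?_).2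
    have e1 := (hUV'.comp hφ.tendsto_atTop).eventually
      (ge_mem_nhds (ENNReal.ofReal_pos.2 hε))
    have e2 := hA.eventually (lt_mem_nhds (show A - ε / 2 < A by linarith))
    have e3 := (hc1.comp hφ.tendsto_atTop).eventually (gt_mem_nhds
      (show 2 * Met.Q m f + 2 * Met.Q m g < 2 * Met.Q m f + 2 * Met.Q m g + ε / 2 by linarith))
    obtain ⟨k, hk1, hk2, hk3⟩ := (e1.and (e2.and e3)).exists
    refine ⟨_, _, (hk (φ k)).2.1, hk1, ?_⟩
    have h4 := hab (φ k)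
    have h5 : A - ε / 2 < a (φ k) := hk2
    have h6 : c (φ k) < 2 * Met.Q m f + 2 * Met.Q m g + ε / 2 := hk3
    show b (φ k) ≤ _
    linarith
  linarith

/-- **Block G11, energy part**. -/
theorem quad_of_lr (hq : ∀ F G : M → ℝ, Met.IsLip F → Met.IsLip G → ∀ᵐ x ∂m,
    lr (F + G) x ^ 2 + lr (F - G) x ^ 2 ≤ 2 * lr F x ^ 2 + 2 * lr G x ^ 2) : Met.Quad m := by
  intro f g hf hg
  refine le_antisymm (quad_le hq hf hg) ?_
  have h := quad_le hq (hf.add hg) (hf.sub hg)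
  have e1 : f + g + (f - g) = fun x => 2 * f x := by
    ext x; simp only [Pi.add_apply, Pi.sub_apply]; ring
  have e2 : f + g - (f - g) = fun x => 2 * g x := by
    ext x; simp only [Pi.add_apply, Pi.sub_apply]; ring
  rw [e1, e2, Met.Q_const_mul 2 hf, Met.Q_const_mul 2 hg] at h
  linarith

/-- **Block G11** in the form of `RA.NSp.quadratic` (strongly rectifiable spaces). -/
theorem quadratic_of_quad (hQ : Met.Quad m) : ∀ f ∈ (sob m).W, ∀ g ∈ (sob m).W,
    ∫ x, (slope (f + g) ^ 2) x ∂m + ∫ x, (slope (f - g) ^ 2) x ∂m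
      = 2 * ∫ x, (slope f ^ 2) x ∂m + 2 * ∫ x, (slope g ^ 2) x ∂m := by
  intro f hf g hg
  have e1 : ⇑(f + g) =ᵐ[m] (⇑f + ⇑g) := AEEqFun.coeFn_add f g
  have e2 : ⇑(f - g) =ᵐ[m] (⇑f - ⇑g) := AEEqFun.coeFn_sub f g
  rw [slope_sq_integral (sob_add_mem hf hg) e1, slope_sq_integral (sob_sub_mem hf hg) e2,
    slope_sq_integral hf EventuallyEq.rfl, slope_sq_integral hg EventuallyEq.rfl]
  exact hQ _ _ (mem_sob_iff.1 hf) (mem_sob_iff.1 hg)

end quadratic

section final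

variable {M : Type*} [MetricSpace M] [MeasurableSpace M] [BorelSpace M]
  [SecondCountableTopology M] {n : ℕ} [IsUnifLocDoublingMeasure (μH[n] : Measure M)]
  [IsLocallyFiniteMeasure (μH[n] : Measure M)]

theorem quad_of_srect (hR : ∀ τ > 0, SRect (μH[n] : Measure M) n τ) :
    Met.Quad (μH[n] : Measure M) :=
  quad_of_lr fun F G hF hG => ae_quad hR hF hG

theorem quadratic_of_srect (hR : ∀ τ > 0, SRect (μH[n] : Measure M) n τ) :
    ∀ f ∈ (sob (μH[n] : Measure M)).W, ∀ g ∈ (sob (μH[n] : Measure M)).W,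
      ∫ x, (slope (f + g) ^ 2) x ∂(μH[n] : Measure M) +
        ∫ x, (slope (f - g) ^ 2) x ∂(μH[n] : Measure M)
      = 2 * ∫ x, (slope f ^ 2) x ∂(μH[n] : Measure M) +
        2 * ∫ x, (slope g ^ 2) x ∂(μH[n] : Measure M) :=
  quadratic_of_quad (quad_of_srect hR)

end final

end Vale.Agent.P233.RA
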