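import Vale.Agent.P233.Gig.IfD

/-! P233, block D4c: the first variation output of part D in the form of `FirstVar` (helper825). -/

set_option linter.all false

open MeasureTheory Filter Topology Set
open scoped ENNReal NNReal

universe u

namespace Vale.Agent.P233.H825

open Vale.Agent.P233.PD

variable {M : Type u} [MetricSpace M] [MeasurableSpace M]

/-- a radius which is larger than both distances -/
noncomputable def kk (p x w : M) : ℕ := ⌈max (dist p w) (dist x w)⌉₊ + 1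

theorem kk_comm (p x w : M) : kk p x w = kk x p w := by
  unfold kk
  rw [max_comm]

theorem lt_kk_left (p x w : M) : dist p w < kk p x w := by
  unfold kk
  push_cast
  have h1 : dist p w ≤ max (dist p w) (dist x w) := le_max_left _ _
  have h2 := Nat.le_ceil (max (dist p w) (dist x w))
  linarith

theorem lt_kk_right (p x w : M) : dist x w < kk p x w := by
  rw [kk_comm]
  exact lt_kk_left x p w

/-- the inner product of the gradients of two distance functions -/
noncomputable def GG (m : Measure M) (p x w : M) : ℝ :=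
  (sob m).Γ (dp m p (kk p x w)) (dp m x (kk p x w)) w

theorem dtr_lip (p : M) (R : ℝ) : LipschitzWith 1 (dtr p R) := by
  unfold dtr
  have h1 : LipschitzWith 1 (fun x : M => dist p x) := LipschitzWith.dist_right p
  have h2 := h1.min_const R
  refine LipschitzWith.of_dist_le_mul fun x y => ?_
  have := h2.dist_le_mul x y
  rw [Real.dist_eq] at this ⊢
  have e : min (dist p x) R - R - (min (dist p y) R - R) = min (dist p x) R - min (dist p y) R := by
    ring
  rw [e]
  exact this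

variable [BorelSpace M] {m : Measure M}

theorem dp_ae [SecondCountableTopology M] (m : Measure M) (p : M) (R : ℝ) :
    dp m p R =ᵐ[m] dtr p R := by
  have h : AEStronglyMeasurable (dtr p R) m :=
    (dtr_lip p R).continuous.measurable.aestronglyMeasurable
  unfold dp cl
  rw [dif_pos h]
  exact AEEqFun.coeFn_mk _ _

theorem dp_mem [SecondCountableTopology M] (hfin : ∀ (x : M) (r : ℝ), m (Metric.ball x r) < ∞)
    (p : M) (R : ℝ) : dp m p R ∈ (sob m).W := by
  rw [mem_sob_iff]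
  have h1 : ∀ x, x ∉ Metric.ball p R → dtr p R x = 0 := by
    intro x hx
    rw [Metric.mem_ball, not_lt, dist_comm] at hx
    unfold dtr
    rw [min_eq_right hx, sub_self]
  have h2 := Met.good_of_bounded_support hfin (dtr_lip p R) h1
  exact Met.W12.congr ⟨_, h2.rSlope⟩ (dp_ae m p R).symm

theorem dp_LW [SecondCountableTopology M] (hfin : ∀ (x : M) (r : ℝ), m (Metric.ball x r) < ∞)
    (p : M) (R : ℝ) : LW m (dp m p R) (dtr p R) :=
  ⟨dp_mem hfin p R, ⟨1, dtr_lip p R⟩, dp_ae m p R⟩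

/-- locality of `Γ` -/
theorem Γ_local [SecondCountableTopology M] (hD : IsDir (sob m)) {f g h : M →ₘ[m] ℝ}
    (hf : f ∈ (sob m).W)
    (hg : g ∈ (sob m).W) (hh : h ∈ (sob m).W) (c : ℝ) :
    ∀ᵐ x ∂m, f x - g x = c → (sob m).Γ f h x = (sob m).Γ g h x := by
  have hfg := hD.sub_mem hf hg
  have h1 := hD.Γ_sub_left hf hg hh
  filter_upwards [sob_Γ_self_ae hfg, Met.mslope_eq_zero_of_eq_const (mem_sob_iff.1 hfg) c,
    sub_ae f g, hD.Γ_cs_ae hfg hh, sub_ae ((sob m).Γ f h) ((sob m).Γ g h)] with x a1 a2 a3 a4 a5 hc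
  rw [← a3] at hc
  rw [a1, a2 hc] at a4
  rw [← h1] at a5
  have : ((sob m).Γ (f - g) h x) ^ 2 ≤ 0 := by simpa using a4
  have h0 : (sob m).Γ (f - g) h x = 0 := by
    have := pow_eq_zero_iff (two_ne_zero) |>.1 (le_antisymm this (sq_nonneg _))
    exact this
  rw [h0] at a5
  linarith

theorem Γ_dp_local [SecondCountableTopology M] (hD : IsDir (sob m))
    (hfin : ∀ (x : M) (r : ℝ), m (Metric.ball x r) < ∞) (p x : M) :
    ∀ᵐ w ∂m, ∀ k l : ℕ, dist p w < k → dist p w < l → dist x w < k → dist x w < l →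
      (sob m).Γ (dp m p k) (dp m x k) w = (sob m).Γ (dp m p l) (dp m x l) w := by
  rw [ae_all_iff]; intro k
  rw [ae_all_iff]; intro l
  have e : ∀ (q : M) (w : M), dist q w < k → dist q w < l → dtr q k w - dtr q l w = (l : ℝ) - k := by
    intro q w h1 h2
    unfold dtr
    rw [min_eq_left h1.le, min_eq_left h2.le]
    ring
  filter_upwards [Γ_local hD (dp_mem hfin p k) (dp_mem hfin p l) (dp_mem hfin x k) (l - k),
    Γ_local hD (dp_mem hfin x k) (dp_mem hfin x l) (dp_mem hfin p l) (l - k),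
    dp_ae m p k, dp_ae m p l, dp_ae m x k, dp_ae m x l] with w a1 a2 b1 b2 b3 b4 h1 h2 h3 h4
  rw [b1, b2] at a1
  rw [b3, b4] at a2
  rw [a1 (e p w h1 h2), hD.symm _ (dp_mem hfin p l) _ (dp_mem hfin x k), a2 (e x w h3 h4),
    hD.symm _ (dp_mem hfin x l) _ (dp_mem hfin p l)]

/-- The Gram matrix of three Sobolev functions is nonnegative. -/
theorem gram3 [SecondCountableTopology M] (hD : IsDir (sob m)) {f g h : M →ₘ[m] ℝ}
    (hf : f ∈ (sob m).W) (hg : g ∈ (sob m).W) (hh : h ∈ (sob m).W) :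
    ∀ᵐ x ∂m, ∀ a b c : ℝ, 0 ≤ a ^ 2 * (sob m).Γ f f x + b ^ 2 * (sob m).Γ g g x
      + c ^ 2 * (sob m).Γ h h x + 2 * a * b * (sob m).Γ f g x + 2 * b * c * (sob m).Γ g h x
      + 2 * c * a * (sob m).Γ h f x := by
  have h1 : ∀ᵐ x ∂m, ∀ a b c : ℚ, 0 ≤ (a : ℝ) ^ 2 * (sob m).Γ f f x
      + (b : ℝ) ^ 2 * (sob m).Γ g g x
      + (c : ℝ) ^ 2 * (sob m).Γ h h x + 2 * a * b * (sob m).Γ f g x
      + 2 * b * c * (sob m).Γ g h x
      + 2 * c * a * (sob m).Γ h f x := by
    rw [ae_all_iff]; intro a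
    rw [ae_all_iff]; intro b
    rw [ae_all_iff]; intro c
    have ha := hD.smul_mem (a : ℝ) f hf
    have hb := hD.smul_mem (b : ℝ) g hg
    have hc := hD.smul_mem (c : ℝ) h hh
    have hab := hD.add_mem _ ha _ hb
    have habc := hD.add_mem _ hab _ hc
    have e : (sob m).Γ ((a : ℝ) • f + (b : ℝ) • g + (c : ℝ) • h)
        ((a : ℝ) • f + (b : ℝ) • g + (c : ℝ) • h)
        = ((a : ℝ) ^ 2) • (sob m).Γ f f + ((b : ℝ) ^ 2) • (sob m).Γ g g
          + ((c : ℝ) ^ 2) • (sob m).Γ h h + (2 * a * b : ℝ) • (sob m).Γ f g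
          + (2 * b * c : ℝ) • (sob m).Γ g h + (2 * c * a : ℝ) • (sob m).Γ h f := by
      have e1 : ∀ k ∈ (sob m).W, (sob m).Γ ((a : ℝ) • f + (b : ℝ) • g + (c : ℝ) • h) k
          = (a : ℝ) • (sob m).Γ f k + (b : ℝ) • (sob m).Γ g k + (c : ℝ) • (sob m).Γ h k := by
        intro k hk
        rw [hD.add_left _ hab _ hc _ hk, hD.add_left _ ha _ hb _ hk, hD.smul_left _ _ hf _ hk,
          hD.smul_left _ _ hg _ hk, hD.smul_left _ _ hh _ hk]
      have e2 : ∀ k ∈ (sob m).W, (sob m).Γ k ((a : ℝ) • f + (b : ℝ) • g + (c : ℝ) • h)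
          = (a : ℝ) • (sob m).Γ f k + (b : ℝ) • (sob m).Γ g k + (c : ℝ) • (sob m).Γ h k := by
        intro k hk
        rw [hD.symm _ hk _ habc, e1 k hk]
      rw [e1 _ habc, e2 _ hf, e2 _ hg, e2 _ hh, hD.symm _ hg _ hf, hD.symm _ hh _ hg,
        hD.symm _ hf _ hh]
      algebra
    have n1 := hD.nonneg _ habc
    rw [e] at n1
    rw [nonneg_iff_ae] at n1
    filter_upwards [n1, smul_ae ((sob m).Γ f f) ((a : ℝ) ^ 2), smul_ae ((sob m).Γ g g) ((b : ℝ) ^ 2),
      smul_ae ((sob m).Γ h h) ((c : ℝ) ^ 2), smul_ae ((sob m).Γ f g) (2 * a * b : ℝ),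
      smul_ae ((sob m).Γ g h) (2 * b * c : ℝ), smul_ae ((sob m).Γ h f) (2 * c * a : ℝ),
      add_ae (((a : ℝ) ^ 2) • (sob m).Γ f f) (((b : ℝ) ^ 2) • (sob m).Γ g g),
      add_ae (((a : ℝ) ^ 2) • (sob m).Γ f f + ((b : ℝ) ^ 2) • (sob m).Γ g g)
        (((c : ℝ) ^ 2) • (sob m).Γ h h),
      add_ae (((a : ℝ) ^ 2) • (sob m).Γ f f + ((b : ℝ) ^ 2) • (sob m).Γ g g
        + ((c : ℝ) ^ 2) • (sob m).Γ h h) ((2 * a * b : ℝ) • (sob m).Γ f g),
      add_ae (((a : ℝ) ^ 2) • (sob m).Γ f f + ((b : ℝ) ^ 2) • (sob m).Γ g g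
        + ((c : ℝ) ^ 2) • (sob m).Γ h h + (2 * a * b : ℝ) • (sob m).Γ f g)
        ((2 * b * c : ℝ) • (sob m).Γ g h),
      add_ae (((a : ℝ) ^ 2) • (sob m).Γ f f + ((b : ℝ) ^ 2) • (sob m).Γ g g
        + ((c : ℝ) ^ 2) • (sob m).Γ h h + (2 * a * b : ℝ) • (sob m).Γ f g
        + (2 * b * c : ℝ) • (sob m).Γ g h) ((2 * c * a : ℝ) • (sob m).Γ h f)]
      with x a0 a1 a2 a3 a4 a5 a6 c1 c2 c3 c4 c5
    rw [c5, c4, c3, c2, c1, a1, a2, a3, a4, a5, a6] at a0
    exact a0
  filter_upwards [h1] with x hx a b c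
  set F : ℝ × ℝ × ℝ → ℝ := fun z => z.1 ^ 2 * (sob m).Γ f f x + z.2.1 ^ 2 * (sob m).Γ g g x
      + z.2.2 ^ 2 * (sob m).Γ h h x + 2 * z.1 * z.2.1 * (sob m).Γ f g x
      + 2 * z.2.1 * z.2.2 * (sob m).Γ g h x + 2 * z.2.2 * z.1 * (sob m).Γ h f x with hF
  have hFc : Continuous F := by
    rw [hF]; fun_prop
  have hcl : IsClosed {z | 0 ≤ F z} := isClosed_le continuous_const hFc
  have hdr : DenseRange (fun q : ℚ × ℚ × ℚ => ((q.1 : ℝ), ((q.2.1 : ℝ), (q.2.2 : ℝ)))) := by
    have d := Rat.denseRange_cast (𝕜 := ℝ)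
    exact d.prodMap (d.prodMap d)
  have : (a, b, c) ∈ {z | 0 ≤ F z} := by
    have h2 : closure (Set.range (fun q : ℚ × ℚ × ℚ => ((q.1 : ℝ), ((q.2.1 : ℝ), (q.2.2 : ℝ)))))
        ⊆ {z | 0 ≤ F z} := by
      refine closure_minimal ?_ hcl
      rintro _ ⟨q, rfl⟩
      exact hx q.1 q.2.1 q.2.2
    exact h2 (hdr (a, b, c))
  exact this

/-- **Block D4c.** -/
theorem blk_D4c : Blk_D4c.{u} := by
  intro M _ _ _ _ _ m n K hS hU hV
  have hfin := hS.std.hfin
  have hR := hS.std.rcd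
  have hC : IsGamma (sob m) := isGamma_sob hfin hR.quadratic hR.sobolev_to_lipschitz
  have hD : IsDir (sob m) := hC.toIsDir
  refine ⟨GG m, ?_, ?_⟩
  · intro p x
    have h1 : ∀ᵐ w ∂m, ∀ k : ℕ, dist x w < k → FV (dtr p k) x w
        ((sob m).Γ (dp m p k) (dp m x k) w) := by
      rw [ae_all_iff]; intro k
      exact hV _ _ (dp_LW hfin p k) x k
    filter_upwards [h1] with w hw σ hwx hσ
    have hpk := lt_kk_left p x w
    have hxk := lt_kk_right p x w
    have hfv := hw (kk p x w) hxk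
    change Tendsto _ _ (𝓝 (-(GG m p x w)))
    set k : ℝ := (kk p x w : ℝ) with hk
    have hG : (sob m).Γ (dp m p k) (dp m x k) w = GG m p x w := rfl
    rw [hG] at hfv
    have hd : 0 < dist w x := dist_pos.2 hwx
    rw [Metric.tendsto_nhdsWithin_nhds]
    intro ε hε
    obtain ⟨δ, hδ, h2⟩ := hfv (ε / 2) (half_pos hε)
    refine ⟨min δ (min (dist w x) (k - dist p w)), lt_min hδ (lt_min hd (sub_pos.2 hpk)), ?_⟩
    intro s hs hs'
    rw [Set.mem_Ioi] at hs
    rw [Real.dist_eq, sub_zero, abs_of_pos hs] at hs'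
    have s1 : s < δ := hs'.trans_le (min_le_left _ _)
    have s2 : s < dist w x := hs'.trans_le ((min_le_right _ _).trans (min_le_left _ _))
    have s3 : s < k - dist p w := hs'.trans_le ((min_le_right _ _).trans (min_le_right _ _))
    obtain ⟨g1, g2⟩ := hσ s ⟨hs.le, s2.le⟩
    have h3 := h2 (σ s) (by rw [g1]; exact s1) (by rw [g1, g2]; ring)
    have e1 : dtr p k (σ s) = dist p (σ s) - k := by
      unfold dtr
      rw [min_eq_left]
      have := dist_triangle p w (σ s)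
      rw [g1] at this
      linarith
    have e2 : dtr p k w = dist p w - k := by
      unfold dtr
      rw [min_eq_left hpk.le]
    rw [e1, e2, g1] at h3
    rw [Real.dist_eq]
    have e3 : (dist p (σ s) - dist p w) / s - -(GG m p x w)
        = (dist p (σ s) - k - (dist p w - k) + s * GG m p x w) / s := by
      field_simp
      ring
    rw [e3, abs_div, abs_of_pos hs, div_lt_iff₀ hs]
    refine h3.trans_lt ?_
    nlinarith
  · intro p x y
    have hunit : ∀ q : M, ∀ᵐ w ∂m, ∀ k : ℕ, dist q w < k →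
        (sob m).Γ (dp m q k) (dp m q k) w = 1 := by
      intro q
      rw [ae_all_iff]; intro k
      exact hU q k
    have hgram : ∀ᵐ w ∂m, ∀ k : ℕ, ∀ a b c : ℝ, 0 ≤ a ^ 2 * (sob m).Γ (dp m p k) (dp m p k) w
        + b ^ 2 * (sob m).Γ (dp m x k) (dp m x k) w
        + c ^ 2 * (sob m).Γ (dp m y k) (dp m y k) w
        + 2 * a * b * (sob m).Γ (dp m p k) (dp m x k) w
        + 2 * b * c * (sob m).Γ (dp m x k) (dp m y k) w
        + 2 * c * a * (sob m).Γ (dp m y k) (dp m p k) w := by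
      rw [ae_all_iff]; intro k
      exact gram3 hD (dp_mem hfin p k) (dp_mem hfin x k) (dp_mem hfin y k)
    filter_upwards [hunit p, hunit x, hunit y, hgram, Γ_dp_local hD hfin p x,
      Γ_dp_local hD hfin x y, Γ_dp_local hD hfin y p] with w u1 u2 u3 hg l1 l2 l3
    refine ⟨?_, ?_, ?_⟩
    · exact u1 _ (lt_kk_left p p w)
    · unfold GG
      rw [kk_comm x p w, hD.symm _ (dp_mem hfin p _) _ (dp_mem hfin x _)]
    · intro a b c
      set k : ℕ := kk p x w + kk x y w + kk y p w with hk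
      have c1 : (kk p x w : ℝ) ≤ k := by exact_mod_cast (by omega : kk p x w ≤ k)
      have c2 : (kk x y w : ℝ) ≤ k := by exact_mod_cast (by omega : kk x y w ≤ k)
      have c3 : (kk y p w : ℝ) ≤ k := by exact_mod_cast (by omega : kk y p w ≤ k)
      have dpk : dist p w < k := (lt_kk_left p x w).trans_le c1
      have dxk : dist x w < k := (lt_kk_right p x w).trans_le c1
      have dyk : dist y w < k := (lt_kk_right x y w).trans_le c2
      have e1 : GG m p x w = (sob m).Γ (dp m p k) (dp m x k) w :=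
        l1 _ _ (lt_kk_left p x w) dpk (lt_kk_right p x w) dxk
      have e2 : GG m x y w = (sob m).Γ (dp m x k) (dp m y k) w :=
        l2 _ _ (lt_kk_left x y w) dxk (lt_kk_right x y w) dyk
      have e3 : GG m y p w = (sob m).Γ (dp m y k) (dp m p k) w :=
        l3 _ _ (lt_kk_left y p w) dyk (lt_kk_right y p w) dpk
      rw [e1, e2, e3]
      have h0 := hg k a b c
      rw [u1 k dpk, u2 k dxk, u3 k dyk] at h0
      linarith

end Vale.Agent.P233.H825
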