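import Vale.Agent.P233.Bd3.B10

set_option linter.all false

open MeasureTheory Filter Topology
open scoped ENNReal NNReal InnerProductSpace

namespace Vale.Agent.P233

variable {M : Type*} [MeasurableSpace M] {m : Measure M} {C : Calc m}
variable {E : Type*} [NormedAddCommGroup E] [InnerProductSpace ℝ E] {Gr : (M →ₘ[m] ℝ) → M → E}
variable {U : (M →ₘ[m] ℝ) → (M →ₘ[m] ℝ) → M → E}

/-- `div ((c + φ) ∇a)` for a constant `c` -/
noncomputable def Calc.DeC (C : Calc m) (c : ℝ) (φ a : M →ₘ[m] ℝ) : M →ₘ[m] ℝ :=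
  c • C.lap a + C.De φ a

/-- `R(∇a,∇b,∇b,∇a)(c + φ)`, with `U b a = ∇_{∇a} ∇b` -/
noncomputable def Calc.RC (C : Calc m) (U : (M →ₘ[m] ℝ) → (M →ₘ[m] ℝ) → M → E)
    (a b : M →ₘ[m] ℝ) (c : ℝ) (φ : M →ₘ[m] ℝ) : ℝ :=
  -I (C.DeC c φ a * C.hess b b a) + I (C.DeC c φ b * C.hess b a a)
    + (-I ((c • 1 + φ) * ipE m (U a a) (U b b)) + 2 * I ((c • 1 + φ) * ipE m (U a b) (U b a))
      - I ((c • 1 + φ) * ipE m (U b a) (U b a)))

namespace IsGamma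

variable (hC : IsGamma C) {κ κ' : ℝ} (hB : C.BEi κ)
variable {f g h φ ψ a b χ : M →ₘ[m] ℝ} {c : ℝ}

include hC

theorem mem_DeC (hφ : φ ∈ C.A) (ha : a ∈ C.Test) : MemLp (C.DeC c φ a) 2 m :=
  mem_add (mem_smul _ (hC.memLp _ (hC.test_lap_mem ha))) (hC.mem_De hφ ha)

theorem DeC_zero (a : M →ₘ[m] ℝ) : C.DeC 0 φ a = C.De φ a := by
  unfold Calc.DeC
  rw [zero_smul, zero_add]

/-- the divergence of the truncated field -/
theorem De_cut (hφ : φ ∈ C.A) (hχ : χ ∈ C.A) (ha : a ∈ C.Test) :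
    C.De (c • χ + χ * φ) a = χ * C.DeC c φ a + (c • 1 + φ) * C.Γ χ a := by
  have hD := hC.toIsDir
  have aW := hC.tW ha
  unfold Calc.De Calc.DeC Calc.De
  rw [hC.add_left _ (hC.smul_mem _ _ hχ.1) _ (hD.mul_mem_A hχ hφ).1 _ aW,
    hC.smul_left _ _ hχ.1 _ aW, hD.Γ_mul_left hχ hφ aW]
  algebra

end IsGamma

/-- cut-off sequences -/
structure Calc.Cuts (C : Calc m) (χ : ℕ → M →ₘ[m] ℝ) : Prop where
  test : ∀ k, χ k ∈ C.Test
  nonneg : ∀ k, 0 ≤ χ k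
  bd : ∀ k, ∀ᵐ x ∂m, |χ k x| ≤ 1
  lim : ∀ᵐ x ∂m, Tendsto (fun k => χ k x) atTop (𝓝 1)
  grad : ∃ Λ : ℝ, ∀ k, ∀ᵐ x ∂m, |C.Γ (χ k) (χ k) x| ≤ Λ * ((k : ℝ) + 1)⁻¹

namespace IsGamma

variable (hC : IsGamma C) {κ κ' : ℝ} (hB : C.BEi κ)
variable {f g h φ ψ a b : M →ₘ[m] ℝ} {c : ℝ} {χ : ℕ → M →ₘ[m] ℝ}

include hC

include hB in
theorem exists_cuts [SigmaFinite m] : ∃ χ, C.Cuts χ := by
  obtain ⟨χ, Λ, h1, h2, h3, h4, -, -, h7⟩ := hC.exists_cut hB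
  exact ⟨χ, h1, h2, h3, h4, Λ, h7⟩

theorem cuts_T2 (hχ : C.Cuts χ) (ha : a ∈ C.Test) : T2 (fun n => C.Γ (χ n) a) 0 := by
  have hD := hC.toIsDir
  have aW := hC.tW ha
  obtain ⟨Λ, hΛ⟩ := hχ.grad
  obtain ⟨K, hK⟩ := mem_top_iff.1 (hC.test_Γ_top ha)
  refine ⟨fun n => hD.Γ_mem2 (hC.tW (hχ.test n)) (hC.test_Γ_top (hχ.test n)) aW, mem_zero, ?_⟩
  have l1 : Tendsto (fun n : ℕ => |Λ| * ((n : ℝ) + 1)⁻¹ * I (C.Γ a a)) atTop (𝓝 0) := by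
    simpa using (tendsto_inv_succ.const_mul |Λ|).mul_const (I (C.Γ a a))
  refine squeeze_zero (fun n => I_sq_nonneg _) (fun n => ?_) l1
  rw [sub_zero, ← I_smul]
  refine I_mono (mem_sq (hD.Γ_mem2 (hC.tW (hχ.test n)) (hC.test_Γ_top (hχ.test n)) aW))
    (mem_smul _ (hC.mem1 _ aW)) ?_
  rw [le_iff_ae]
  filter_upwards [sq_ae (C.Γ (χ n) a), smul_ae (C.Γ a a) (|Λ| * ((n : ℝ) + 1)⁻¹),
    hD.Γ_cs_ae (hC.tW (hχ.test n)) aW, hΛ n, hD.Γ_nonneg_ae aW,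
    hD.Γ_nonneg_ae (hC.tW (hχ.test n))] with x b1 b2 b3 b4 b5 b6
  rw [b1, b2]
  refine b3.trans (mul_le_mul_of_nonneg_right ?_ b5)
  refine (le_abs_self _).trans (b4.trans ?_)
  exact mul_le_mul_of_nonneg_right (le_abs_self _) (by positivity)

theorem cuts_Tb (hχ : C.Cuts χ) (hφ : φ ∈ C.A) (c : ℝ) :
    Tb (fun n => c • χ n + χ n * φ) (c • 1 + φ) := by
  obtain ⟨K, hK⟩ := mem_top_iff.1 hφ.2
  refine ⟨⟨|c| + K, fun n => ?_⟩, ?_⟩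
  · filter_upwards [add_ae (c • χ n) (χ n * φ), smul_ae (χ n) c, mul_ae (χ n) φ, hχ.bd n, hK]
      with x b1 b2 b3 b4 b5
    rw [b1, b2, b3]
    have hK0 : 0 ≤ K := (abs_nonneg _).trans b5
    calc |c * χ n x + χ n x * φ x| ≤ |c * χ n x| + |χ n x * φ x| := abs_add_le _ _
      _ ≤ |c| * 1 + 1 * K := by
        rw [abs_mul, abs_mul]
        exact add_le_add (mul_le_mul_of_nonneg_left b4 (abs_nonneg _))
          (mul_le_mul b4 b5 (abs_nonneg _) zero_le_one)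
      _ = |c| + K := by ring
  · filter_upwards [ae_all_iff.2 fun n => add_ae (c • χ n) (χ n * φ),
      ae_all_iff.2 fun n => smul_ae (χ n) c, ae_all_iff.2 fun n => mul_ae (χ n) φ, hχ.lim,
      add_ae (c • (1 : M →ₘ[m] ℝ)) φ, smul_ae (1 : M →ₘ[m] ℝ) c, one_ae (M := M) (m := m)]
      with x b1 b2 b3 b4 b5 b6 b7
    rw [b5, b6, b7]
    have : ∀ n, (c • χ n + χ n * φ : M →ₘ[m] ℝ) x = c * χ n x + χ n x * φ x := by
      intro n
      rw [b1, b2, b3]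
    simp only [this]
    simpa using (b4.const_mul c).add (b4.mul_const (φ x))

theorem cuts_Tb1 (hχ : C.Cuts χ) : Tb χ 1 := by
  refine ⟨⟨1, hχ.bd⟩, ?_⟩
  filter_upwards [hχ.lim, one_ae (M := M) (m := m)] with x b1 b2
  rwa [b2]

theorem c1_mem (hφ : φ ∈ C.A) (c : ℝ) : MemLp (c • 1 + φ : M →ₘ[m] ℝ) ∞ m :=
  mem_add (mem_smul _ mem_top_one) hφ.2

theorem cuts_De (hχ : C.Cuts χ) (hφ : φ ∈ C.A) (ha : a ∈ C.Test) :
    T2 (fun n => C.De (c • χ n + χ n * φ) a) (C.DeC c φ a) := by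
  have h1 := ((hC.cuts_Tb1 hχ).mul (T2.const (hC.mem_DeC (c := c) hφ ha))).add
    ((Tb.const (hC.c1_mem hφ c)).mul (hC.cuts_T2 hχ ha))
  rw [one_mul, mul_zero, add_zero] at h1
  have e : (fun n => C.De (c • χ n + χ n * φ) a) =
      fun n => χ n * C.DeC c φ a + (c • 1 + φ) * C.Γ (χ n) a := by
    funext n
    exact hC.De_cut hφ (hC.test_A (hχ.test n)) ha
  rw [e]
  exact h1

/-- the curvature functional of the truncated weights converges -/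
theorem rkI_cuts [SigmaFinite m] (hU : IsHU C Gr U) (hχ : C.Cuts χ) (hφ : φ ∈ C.A)
    (hB : C.BEi κ) (ha : a ∈ C.Test) (hb : b ∈ C.Test) :
    Tendsto (fun n => I (C.rkI (UUof m U) κ' a b b a (c • χ n + χ n * φ))) atTop
      (𝓝 (C.RC U a b c φ - κ' * (I ((c • 1 + φ) * C.Γ a a * C.Γ b b)
        - I ((c • 1 + φ) * C.Γ a b * C.Γ a b)))) := by
  have hD := hC.toIsDir
  have hTb := hC.cuts_Tb hχ hφ c
  have t1 := (hC.cuts_De (c := c) hχ hφ ha).mul_lim (T2.const (hC.hess_mem2 hB hb hb ha))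
  have t2 := (hC.cuts_De (c := c) hχ hφ hb).mul_lim (T2.const (hC.hess_mem2 hB hb ha ha))
  have t3 := TE.ip hTb (TE.const (hU.mem _ ha _ ha)) (TE.const (hU.mem _ hb _ hb))
  have t4 := TE.ip hTb (TE.const (hU.mem _ ha _ hb)) (TE.const (hU.mem _ hb _ ha))
  have t5 := TE.ip hTb (TE.const (hU.mem _ hb _ ha)) (TE.const (hU.mem _ hb _ ha))
  have g : ∀ {p q : M →ₘ[m] ℝ}, p ∈ C.Test → q ∈ C.Test → MemLp (C.Γ p q) 2 m :=
    fun hp hq => hC.memLp _ (hC.Γ_mem hB hp hq).1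
  have t6 := (hTb.mul (T2.const (g ha ha))).mul_lim (T2.const (g hb hb))
  have t7 := (hTb.mul (T2.const (g ha hb))).mul_lim (T2.const (g ha hb))
  unfold Calc.RC
  refine (((t1.neg.add t2).add ((t3.neg.add (t4.const_mul 2)).sub t5)).sub
    ((t6.sub t7).const_mul κ')).congr fun n => ?_
  have hA : c • χ n + χ n * φ ∈ C.A :=
    hD.A_add (hD.A_smul c (hC.test_A (hχ.test n))) (hD.mul_mem_A (hC.test_A (hχ.test n)) hφ)
  rw [hC.I_rkI hB hU κ' ha hb hA]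

/-- The curvature inequality for weights that are constant at infinity, test case. -/
theorem rc_test [SigmaFinite m] (hB : C.BEi κ) (hU : IsHU C Gr U)
    (hpos : ∀ a ∈ C.Test, ∀ b ∈ C.Test, ∀ f ∈ C.Test, 0 ≤ f →
      0 ≤ I (C.rkI (UUof m U) κ' a b b a f))
    (ha : a ∈ C.Test) (hb : b ∈ C.Test) (hφ : φ ∈ C.Test) (h0 : 0 ≤ c • 1 + φ) :
    κ' * (I ((c • 1 + φ) * C.Γ a a * C.Γ b b) - I ((c • 1 + φ) * C.Γ a b * C.Γ a b))
      ≤ C.RC U a b c φ := by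
  obtain ⟨χ, hχ⟩ := hC.exists_cuts hB
  have h1 := hC.rkI_cuts (κ' := κ') (c := c) hU hχ (hC.test_A hφ) hB ha hb
  refine sub_nonneg.1 (ge_of_tendsto h1 (Eventually.of_forall fun n => hpos a ha b hb _ ?_ ?_))
  · exact hC.test_add hB (hC.test_smul hB c (hχ.test n)) (hC.test_mul hB (hχ.test n) hφ)
  · have e : c • χ n + χ n * φ = χ n * (c • 1 + φ) := by algebra
    rw [e]
    exact mul_nonneg (hχ.nonneg n) h0

end IsGamma

end Vale.Agent.P233
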