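import Vale.Agent.P233.Gig.IfB
import Vale.Agent.P233.H825.Wt

/-! P233, block BSec: the sectional curvature bound for weights that are constant at infinity
(helper825). -/

set_option linter.all false

open MeasureTheory Filter Topology Set
open scoped ENNReal NNReal InnerProductSpace

universe u v

namespace Vale.Agent.P233

theorem blk_BSec : Blk_BSec.{u, v} := by
  intro M _ m _ C K κ hC hB E _ _ _ Gr U hG hU hpos a ha b hb w hw h0
  have hD := hC.toIsDir
  have ew : (1 : ℝ) • (1 : M →ₘ[m] ℝ) + (w - 1) = w := by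
    rw [one_smul]
    abel
  have haT := ha.1
  have hbT := hb.1
  have hwT := hw.1
  have h := hC.rc_test (κ' := κ) (c := 1) hB hU hpos haT hbT hwT (by rw [ew]; exact h0)
  have eD : ∀ c ∈ C.Test, C.DeC 1 (w - 1) c = C.Γ c (w - 1) + w * C.lap c := by
    intro c hc
    unfold Calc.DeC Calc.De
    rw [hC.symm _ (hC.tW hwT) _ (hC.tW hc)]
    algebra
  unfold Calc.RC at h
  rw [eD a haT, eD b hbT, ew] at h
  have wb : MemLp w ∞ m := by
    have h1 := hC.c1_mem (hC.test_A hwT) 1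
    rwa [ew] at h1
  have g : ∀ {p q : M →ₘ[m] ℝ}, p ∈ C.Test → q ∈ C.Test → MemLp (C.Γ p q) 2 m :=
    fun hp hq => hC.memLp _ (hC.Γ_mem hB hp hq).1
  have i1 : MemLp (w * C.Γ a a * C.Γ b b) 1 m :=
    mem_mul_22 (mem_mul_top wb (g haT haT)) (g hbT hbT)
  have i2 : MemLp (w * C.Γ a b * C.Γ a b) 1 m :=
    mem_mul_22 (mem_mul_top wb (g haT hbT)) (g haT hbT)
  have e1 : w * (C.Γ a a * C.Γ b b - C.Γ a b ^ 2) =
      w * C.Γ a a * C.Γ b b - w * C.Γ a b * C.Γ a b := by
    algebra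
  rw [e1, I_sub i1 i2]
  refine h.trans (le_of_eq ?_)
  unfold Calc.RR
  ring

end Vale.Agent.P233
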