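import Vale.Agent.P233.H825.RA2

/-! P233, RCDA, block G10 (helper825): in a strongly rectifiable space the density of the
Hausdorff measure is that of `ℝⁿ` almost everywhere. -/

set_option linter.all false

open MeasureTheory Filter Topology Set Metric
open scoped ENNReal NNReal

namespace Vale.Agent.P233.RA

variable {M : Type*} [MetricSpace M] [MeasurableSpace M] [BorelSpace M] {n : ℕ}

/-- the density of `ℋⁿ` in `ℝⁿ` -/
noncomputable def om (n : ℕ) : ℝ :=
  ((μH[n] : Measure (EuclideanSpace ℝ (Fin n))) (closedBall 0 1)).toReal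

theorem om_pos (n : ℕ) : 0 < om n := by
  unfold om
  refine ENNReal.toReal_pos ?_ ?_
  · exact (measure_closedBall_pos _ _ one_pos).ne'
  · exact measure_closedBall_lt_top.ne

theorem haus_closedBall (u : EuclideanSpace ℝ (Fin n)) {r : ℝ} (hr : 0 ≤ r) :
    (μH[n] : Measure (EuclideanSpace ℝ (Fin n))) (closedBall u r) = ENNReal.ofReal (r ^ n * om n) := by
  have h := Measure.addHaar_closedBall_mul (μH[n] : Measure (EuclideanSpace ℝ (Fin n))) u hr
    (zero_le_one)
  rw [mul_one, finrank_euclideanSpace_fin] at h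
  rw [h, ENNReal.ofReal_mul (by positivity)]
  congr 1
  unfold om
  rw [ENNReal.ofReal_toReal measure_closedBall_lt_top.ne]

/-- from density one to an inequality -/
theorem le_of_density {X : Type*} [MetricSpace X] [MeasurableSpace X] {μ : Measure X}
    {T : Set X} {x : X} (h : Tendsto (fun r => μ (T ∩ closedBall x r) /
    μ (closedBall x r)) (𝓝[>] 0) (𝓝 1)) {c : ℝ} (hc : 1 < c) :
    ∀ᶠ r in 𝓝[>] (0 : ℝ), μ (closedBall x r) ≤ ENNReal.ofReal c * μ (T ∩ closedBall x r) := by
  have hc0 : 0 < c := by linarith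
  have h1 : ENNReal.ofReal c⁻¹ < 1 := by
    rw [← ENNReal.ofReal_one]
    exact (ENNReal.ofReal_lt_ofReal_iff one_pos).2 (inv_lt_one_of_one_lt₀ hc)
  filter_upwards [h.eventually (lt_mem_nhds h1)] with r hr
  have h2 := ENNReal.mul_lt_of_lt_div hr
  have h3 : ENNReal.ofReal c * (ENNReal.ofReal c⁻¹ * μ (closedBall x r)) ≤
      ENNReal.ofReal c * μ (T ∩ closedBall x r) := by gcongr
  rwa [← mul_assoc, ← ENNReal.ofReal_mul hc0.le, mul_inv_cancel₀ hc0.ne', ENNReal.ofReal_one,
    one_mul] at h3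

theorem dens_point {lam : ℝ} (hlam : 1 < lam) {S : Set (EuclideanSpace ℝ (Fin n))}
    {g : EuclideanSpace ℝ (Fin n) → M} (hg : BiL lam S g) {u : EuclideanSpace ℝ (Fin n)}
    (hu : u ∈ S)
    (hS : Tendsto (fun r => (μH[n] : Measure (EuclideanSpace ℝ (Fin n))) (S ∩ closedBall u r) /
      (μH[n] : Measure (EuclideanSpace ℝ (Fin n))) (closedBall u r)) (𝓝[>] 0) (𝓝 1))
    (hT : Tendsto (fun r => (μH[n] : Measure M) (g '' S ∩ closedBall (g u) r) /
      (μH[n] : Measure M) (closedBall (g u) r)) (𝓝[>] 0) (𝓝 1)) :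
    ∀ᶠ r in 𝓝[>] (0 : ℝ),
      (μH[n] : Measure M) (ball (g u) r) ≤ ENNReal.ofReal (lam ^ (2 * n + 1) * (r ^ n * om n)) ∧
      ENNReal.ofReal (r ^ n * om n) ≤ ENNReal.ofReal (lam ^ (3 * n + 1)) *
        (μH[n] : Measure M) (ball (g u) r) := by
  have hlam0 : 0 < lam := by linarith
  have h1 := le_of_density hT hlam
  have h2 := le_of_density hS hlam
  have h2' : ∀ᶠ r in 𝓝[>] (0 : ℝ), (μH[n] : Measure (EuclideanSpace ℝ (Fin n)))
      (closedBall u (r / lam ^ 2)) ≤ ENNReal.ofReal lam *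
      (μH[n] : Measure (EuclideanSpace ℝ (Fin n))) (S ∩ closedBall u (r / lam ^ 2)) := by
    have ht : Tendsto (fun r : ℝ => r / lam ^ 2) (𝓝[>] 0) (𝓝[>] 0) := by
      rw [tendsto_nhdsWithin_iff]
      constructor
      · have : Tendsto (fun r : ℝ => r / lam ^ 2) (𝓝 0) (𝓝 (0 / lam ^ 2)) :=
          (continuous_id.div_const _).tendsto 0
        rw [zero_div] at this
        exact this.mono_left nhdsWithin_le_nhds
      · filter_upwards [self_mem_nhdsWithin] with r hr
        have hr' : (0 : ℝ) < r := hr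
        have : 0 < r / lam ^ 2 := by positivity
        exact this
    exact ht.eventually h2
  filter_upwards [h1, h2', self_mem_nhdsWithin] with r hr1 hr2 hr
  have hr : (0 : ℝ) < r := hr
  constructor
  · have e1 : g '' S ∩ closedBall (g u) r ⊆ g '' (S ∩ closedBall u (lam * r)) := by
      rintro _ ⟨⟨v, hv, rfl⟩, hvr⟩
      refine ⟨v, ⟨hv, ?_⟩, rfl⟩
      rw [mem_closedBall] at hvr ⊢
      exact ((hg v hv u hu).2).trans (mul_le_mul_of_nonneg_left hvr hlam0.le)
    have e2 := (hg.mono (S' := S ∩ closedBall u (lam * r)) inter_subset_left).image_le hlam0.le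
    calc (μH[n] : Measure M) (ball (g u) r) ≤ (μH[n] : Measure M) (closedBall (g u) r) :=
          measure_mono ball_subset_closedBall
      _ ≤ ENNReal.ofReal lam * (μH[n] : Measure M) (g '' S ∩ closedBall (g u) r) := hr1
      _ ≤ ENNReal.ofReal lam * (μH[n] : Measure M) (g '' (S ∩ closedBall u (lam * r))) := by
          gcongr
      _ ≤ ENNReal.ofReal lam * (ENNReal.ofReal (lam ^ n) *
            (μH[n] : Measure (EuclideanSpace ℝ (Fin n))) (S ∩ closedBall u (lam * r))) := by
          gcongr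
      _ ≤ ENNReal.ofReal lam * (ENNReal.ofReal (lam ^ n) *
            (μH[n] : Measure (EuclideanSpace ℝ (Fin n))) (closedBall u (lam * r))) := by
          gcongr
          exact inter_subset_right
      _ = ENNReal.ofReal (lam ^ (2 * n + 1) * (r ^ n * om n)) := by
          rw [haus_closedBall u (by positivity), ← ENNReal.ofReal_mul (by positivity),
            ← ENNReal.ofReal_mul (by positivity)]
          congr 1
          ring
  · have e1 : g '' (S ∩ closedBall u (r / lam ^ 2)) ⊆ ball (g u) r := by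
      rintro _ ⟨v, ⟨hv, hvr⟩, rfl⟩
      rw [mem_closedBall] at hvr
      rw [mem_ball]
      calc dist (g v) (g u) ≤ lam * dist v u := (hg v hv u hu).1
        _ ≤ lam * (r / lam ^ 2) := mul_le_mul_of_nonneg_left hvr hlam0.le
        _ = r / lam := by field_simp
        _ < r := div_lt_self hr hlam
    have e2 := (hg.mono (S' := S ∩ closedBall u (r / lam ^ 2)) inter_subset_left).le_image
      hlam0.le
    have e3 : ENNReal.ofReal (r ^ n * om n) = ENNReal.ofReal (lam ^ (2 * n)) *
        (μH[n] : Measure (EuclideanSpace ℝ (Fin n))) (closedBall u (r / lam ^ 2)) := by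
      rw [haus_closedBall u (by positivity), ← ENNReal.ofReal_mul (by positivity)]
      congr 1
      rw [div_pow, ← pow_mul]
      field_simp
    rw [e3]
    calc ENNReal.ofReal (lam ^ (2 * n)) *
        (μH[n] : Measure (EuclideanSpace ℝ (Fin n))) (closedBall u (r / lam ^ 2))
        ≤ ENNReal.ofReal (lam ^ (2 * n)) * (ENNReal.ofReal lam *
          (μH[n] : Measure (EuclideanSpace ℝ (Fin n))) (S ∩ closedBall u (r / lam ^ 2))) := by
          gcongr
      _ ≤ ENNReal.ofReal (lam ^ (2 * n)) * (ENNReal.ofReal lam * (ENNReal.ofReal (lam ^ n) *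
            (μH[n] : Measure M) (g '' (S ∩ closedBall u (r / lam ^ 2))))) := by
          gcongr
      _ ≤ ENNReal.ofReal (lam ^ (2 * n)) * (ENNReal.ofReal lam * (ENNReal.ofReal (lam ^ n) *
            (μH[n] : Measure M) (ball (g u) r))) := by
          gcongr
      _ = ENNReal.ofReal (lam ^ (3 * n + 1)) * (μH[n] : Measure M) (ball (g u) r) := by
          rw [← mul_assoc, ← mul_assoc, ← ENNReal.ofReal_mul (by positivity),
            ← ENNReal.ofReal_mul (by positivity)]
          congr 2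
          ring

variable [SecondCountableTopology M] [IsUnifLocDoublingMeasure (μH[n] : Measure M)]
  [IsLocallyFiniteMeasure (μH[n] : Measure M)]

/-- **Block G10**: the density of `ℋⁿ` is `om n` almost everywhere. -/
theorem ae_dens (hR : ∀ τ > 0, SRect (μH[n] : Measure M) n τ) :
    ∀ᵐ x ∂(μH[n] : Measure M), Tendsto (fun r : ℝ => ((μH[n] : Measure M) (ball x r)).toReal / r ^ n)
      (𝓝[>] 0) (𝓝 (om n)) := by
  have h1 : ∀ k : ℕ, ∀ᵐ x ∂(μH[n] : Measure M), ∀ᶠ r in 𝓝[>] (0 : ℝ),
      (μH[n] : Measure M) (ball x r) ≤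
        ENNReal.ofReal ((1 + 1 / ((k : ℝ) + 1)) ^ (2 * n + 1) * (r ^ n * om n)) ∧
      ENNReal.ofReal (r ^ n * om n) ≤ ENNReal.ofReal ((1 + 1 / ((k : ℝ) + 1)) ^ (3 * n + 1)) *
        (μH[n] : Measure M) (ball x r) := by
    intro k
    have hk : (0 : ℝ) < 1 / ((k : ℝ) + 1) := by positivity
    obtain ⟨S, g, hg, hS⟩ := hR _ hk
    have hP : ∀ j, (μH[n] : Measure (EuclideanSpace ℝ (Fin n))) {u | u ∈ S j ∧ ¬
        Tendsto (fun r => (μH[n] : Measure (EuclideanSpace ℝ (Fin n))) (S j ∩ closedBall u r) /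
        (μH[n] : Measure (EuclideanSpace ℝ (Fin n))) (closedBall u r)) (𝓝[>] 0) (𝓝 1)} = 0 :=
      fun j => ae_density_centre _ _
    have hR : ∀ j, (μH[n] : Measure M) {x | x ∈ g j '' S j ∧ ¬
        Tendsto (fun r => (μH[n] : Measure M) (g j '' S j ∩ closedBall x r) /
        (μH[n] : Measure M) (closedBall x r)) (𝓝[>] 0) (𝓝 1)} = 0 :=
      fun j => ae_density_centre _ _
    filter_upwards [SRect.ae_exists (by positivity) hg hS hP hR] with x hx
    obtain ⟨j, u, hu, rfl, hu1, hx1⟩ := hx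
    exact dens_point (by linarith) (hg j) hu hu1 hx1
  rw [← ae_all_iff] at h1
  filter_upwards [h1] with x hx
  have hom := om_pos n
  rw [Metric.tendsto_nhds]
  intro ε hε
  -- choice of `k`
  have t1 : Tendsto (fun k : ℕ => (1 + 1 / ((k : ℝ) + 1)) ^ (2 * n + 1) * om n) atTop
      (𝓝 ((1 + 0) ^ (2 * n + 1) * om n)) :=
    ((tendsto_const_nhds.add tendsto_one_div_add_atTop_nhds_zero_nat).pow _).mul_const _
  have t2 : Tendsto (fun k : ℕ => om n / (1 + 1 / ((k : ℝ) + 1)) ^ (3 * n + 1)) atTop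
      (𝓝 (om n / (1 + 0) ^ (3 * n + 1))) := by
    refine tendsto_const_nhds.div
      ((tendsto_const_nhds.add tendsto_one_div_add_atTop_nhds_zero_nat).pow _) (by simp)
  simp only [add_zero, one_pow, one_mul, div_one] at t1 t2
  have s1 : om n < om n + ε := by linarith
  have s2 : om n - ε < om n := by linarith
  obtain ⟨k, hk1, hk2⟩ :=
    ((t1.eventually (gt_mem_nhds s1)).and (t2.eventually (lt_mem_nhds s2))).exists
  filter_upwards [hx k, self_mem_nhdsWithin] with r hr hr0
  obtain ⟨hr1, hr2⟩ := hr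
  have hr0 : (0 : ℝ) < r := hr0
  have hrn : (0 : ℝ) < r ^ n := by positivity
  have hfin : (μH[n] : Measure M) (ball x r) ≠ ∞ := ne_top_of_le_ne_top ENNReal.ofReal_ne_top hr1
  have u1 : ((μH[n] : Measure M) (ball x r)).toReal ≤
      (1 + 1 / ((k : ℝ) + 1)) ^ (2 * n + 1) * (r ^ n * om n) :=
    ENNReal.toReal_le_of_le_ofReal (by positivity) hr1
  have u2 : r ^ n * om n ≤ (1 + 1 / ((k : ℝ) + 1)) ^ (3 * n + 1) *
      ((μH[n] : Measure M) (ball x r)).toReal := by
    rw [← ENNReal.ofReal_toReal hfin, ← ENNReal.ofReal_mul (by positivity)] at hr2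
    exact (ENNReal.ofReal_le_ofReal_iff (by positivity)).1 hr2
  rw [Real.dist_eq, abs_lt]
  constructor
  · have : om n / (1 + 1 / ((k : ℝ) + 1)) ^ (3 * n + 1) ≤
        ((μH[n] : Measure M) (ball x r)).toReal / r ^ n := by
      rw [div_le_div_iff₀ (by positivity) hrn]
      linarith
    linarith
  · have : ((μH[n] : Measure M) (ball x r)).toReal / r ^ n ≤
        (1 + 1 / ((k : ℝ) + 1)) ^ (2 * n + 1) * om n := by
      rw [div_le_iff₀ hrn]
      linarith
    linarith

end Vale.Agent.P233.RA
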