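import Vale.Agent.P233.RA.IfG
import Vale.Agent.P233.H825.RA3
import Vale.Agent.P233.H825.RA4

/-! P233, RCDA: the literal blocks G10 and G11 of `RA/IfG` (helper825). -/

set_option linter.all false

open MeasureTheory Filter Topology Set Metric
open scoped ENNReal NNReal MeasureTheory

universe u

namespace Vale.Agent.P233.RG

theorem isLocallyFinite_of {M : Type u} [MetricSpace M] [MeasurableSpace M] {m : Measure M}
    (h : ∀ (x : M) (r : ℝ), m (ball x r) < ∞) : IsLocallyFiniteMeasure m :=
  ⟨fun x => ⟨ball x 1, ball_mem_nhds x one_pos, h x 1⟩⟩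

theorem srect_iff {M : Type u} [MetricSpace M] [MeasurableSpace M] {m : Measure M} {n : ℕ}
    {τ : ℝ} : SRect m n τ ↔ RA.SRect m n τ := Iff.rfl

/-- **Block G10** -/
theorem blk_G10 : Blk_G10.{u} := by
  intro M _ _ _ _ _ n hn hG hR
  haveI := hG.geo.dbl
  haveI := isLocallyFinite_of hG.fin
  exact ⟨RA.om n, RA.om_pos n, RA.ae_dens hR⟩

/-- **Block G11** -/
theorem blk_G11 : Blk_G11.{u} := by
  intro M _ _ _ _ _ n hn hG hR
  haveI := hG.geo.dbl
  haveI := isLocallyFinite_of hG.fin
  exact RA.quadratic_of_srect hR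

end Vale.Agent.P233.RG
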