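import Vale.Agent.P233.H825.RA1

/-! P233, RCDA, blocks G10 and G11 (helper825), part 2: strongly rectifiable spaces: the density
of the Hausdorff measure, and the parallelogram inequality of the local Lipschitz constants. -/

set_option linter.all false

open MeasureTheory Filter Topology Set Metric
open scoped ENNReal NNReal

namespace Vale.Agent.P233.RA

section

variable {M : Type*} [MetricSpace M] [MeasurableSpace M]

/-- `M` is, up to an `m`-null set, a countable union of sets that are `(1+τ)`-bi-Lipschitz to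
subsets of `ℝⁿ`. -/
def SRect (m : Measure M) (n : ℕ) (τ : ℝ) : Prop :=
  ∃ (S : ℕ → Set (EuclideanSpace ℝ (Fin n))) (g : ℕ → EuclideanSpace ℝ (Fin n) → M),
    (∀ j, BiL (1 + τ) (S j) (g j)) ∧ m (⋃ j, g j '' S j)ᶜ = 0

end

section haus

variable {M : Type*} [MetricSpace M] [MeasurableSpace M] [BorelSpace M] {n : ℕ}

theorem BiL.lipOn {E : Type*} [NormedAddCommGroup E] [NormedSpace ℝ E] {lam : ℝ} (hlam : 0 ≤ lam)
    {S : Set E} {g : E → M} (hg : BiL lam S g) : LipschitzOnWith ⟨lam, hlam⟩ g S :=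
  LipschitzOnWith.of_dist_le_mul fun v hv w hw => (hg v hv w hw).1

theorem BiL.injOn {E : Type*} [NormedAddCommGroup E] [NormedSpace ℝ E] {lam : ℝ}
    {S : Set E} {g : E → M} (hg : BiL lam S g) : InjOn g S := by
  intro v hv w hw h
  have := (hg v hv w hw).2
  rw [h, dist_self, mul_zero] at this
  exact dist_le_zero.1 this

theorem BiL.mono {E : Type*} [NormedAddCommGroup E] [NormedSpace ℝ E] {lam : ℝ}
    {S S' : Set E} {g : E → M} (hg : BiL lam S g) (h : S' ⊆ S) : BiL lam S' g :=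
  fun v hv w hw => hg v (h hv) w (h hw)

theorem BiL.image_le {lam : ℝ} (hlam : 0 ≤ lam) {S : Set (EuclideanSpace ℝ (Fin n))}
    {g : EuclideanSpace ℝ (Fin n) → M} (hg : BiL lam S g) :
    (μH[n] : Measure M) (g '' S) ≤ ENNReal.ofReal (lam ^ n) *
      (μH[n] : Measure (EuclideanSpace ℝ (Fin n))) S := by
  have h := (hg.lipOn hlam).hausdorffMeasure_image_le (d := (n : ℝ)) (Nat.cast_nonneg n)
  rw [ENNReal.rpow_natCast] at h
  rw [ENNReal.ofReal_pow hlam, ENNReal.ofReal_eq_coe_nnreal hlam]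
  exact h

theorem BiL.le_image {lam : ℝ} (hlam : 0 ≤ lam) {S : Set (EuclideanSpace ℝ (Fin n))}
    {g : EuclideanSpace ℝ (Fin n) → M} (hg : BiL lam S g) :
    (μH[n] : Measure (EuclideanSpace ℝ (Fin n))) S ≤ ENNReal.ofReal (lam ^ n) *
      (μH[n] : Measure M) (g '' S) := by
  have hinv := hg.injOn.leftInvOn_invFunOn
  have h1 : LipschitzOnWith ⟨lam, hlam⟩ (Function.invFunOn g S) (g '' S) := by
    refine LipschitzOnWith.of_dist_le_mul ?_
    rintro _ ⟨v, hv, rfl⟩ _ ⟨w, hw, rfl⟩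
    rw [hinv hv, hinv hw]
    exact (hg v hv w hw).2
  have h2 : Function.invFunOn g S '' (g '' S) = S := by
    rw [image_image]
    ext v
    constructor
    · rintro ⟨w, hw, rfl⟩
      dsimp only
      rw [hinv hw]; exact hw
    · intro hv
      exact ⟨v, hv, hinv hv⟩
  have h := h1.hausdorffMeasure_image_le (d := (n : ℝ)) (Nat.cast_nonneg n)
  rw [ENNReal.rpow_natCast, h2] at h
  rw [ENNReal.ofReal_pow hlam, ENNReal.ofReal_eq_coe_nnreal hlam]
  exact h

/-- choice of a good chart point -/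
theorem SRect.ae_exists {lam : ℝ} (hlam : 0 ≤ lam)
    {S : ℕ → Set (EuclideanSpace ℝ (Fin n))} {g : ℕ → EuclideanSpace ℝ (Fin n) → M}
    (hg : ∀ j, BiL lam (S j) (g j)) (hS : (μH[n] : Measure M) (⋃ j, g j '' S j)ᶜ = 0)
    {P : ℕ → EuclideanSpace ℝ (Fin n) → Prop} {R : ℕ → M → Prop}
    (hP : ∀ j, (μH[n] : Measure (EuclideanSpace ℝ (Fin n))) {u | u ∈ S j ∧ ¬ P j u} = 0)
    (hR : ∀ j, (μH[n] : Measure M) {x | x ∈ g j '' S j ∧ ¬ R j x} = 0) :
    ∀ᵐ x ∂(μH[n] : Measure M), ∃ j, ∃ u ∈ S j, g j u = x ∧ P j u ∧ R j x := by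
  have h1 : ∀ j, (μH[n] : Measure M) (g j '' {u | u ∈ S j ∧ ¬ P j u}) = 0 := by
    intro j
    have h := ((hg j).mono (S' := {u | u ∈ S j ∧ ¬ P j u}) (fun u hu => hu.1)).image_le hlam
    rw [hP j, mul_zero] at h
    exact le_antisymm h zero_le
  have h2 : (μH[n] : Measure M) ((⋃ j, g j '' S j)ᶜ ∪ ((⋃ j, g j '' {u | u ∈ S j ∧ ¬ P j u}) ∪
      ⋃ j, {x | x ∈ g j '' S j ∧ ¬ R j x})) = 0 := by
    rw [measure_union_null_iff, measure_union_null_iff, measure_iUnion_null_iff,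
      measure_iUnion_null_iff]
    exact ⟨hS, h1, hR⟩
  rw [ae_iff]
  refine measure_mono_null ?_ h2
  intro x hx
  simp only [mem_setOf_eq, not_exists, not_and] at hx
  by_contra hcon
  rw [mem_union, mem_union, not_or, not_or, mem_compl_iff, not_not] at hcon
  obtain ⟨hc1, h3, h4⟩ := hcon
  obtain ⟨j, u, hu, rfl⟩ := mem_iUnion.1 hc1
  simp only [mem_iUnion, not_exists] at h3 h4
  have h5 : P j u := by
    by_contra h
    exact h3 j ⟨u, ⟨hu, h⟩, rfl⟩
  have h6 : R j (g j u) := by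
    by_contra h
    exact h4 j ⟨⟨u, hu, rfl⟩, h⟩
  exact hx j u hu rfl h5 h6

end haus

/-! ### the parallelogram inequality -/

section quad

variable {M : Type*} [MetricSpace M] [MeasurableSpace M] [BorelSpace M]
  [SecondCountableTopology M] {n : ℕ} [IsUnifLocDoublingMeasure (μH[n] : Measure M)]
  [IsLocallyFiniteMeasure (μH[n] : Measure M)]

/-- the real-valued local Lipschitz constant -/
noncomputable def lr (F : M → ℝ) (x : M) : ℝ := (lipAt F x).toReal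

omit [MeasurableSpace M] [BorelSpace M] [SecondCountableTopology M] in
theorem lipAt_ne_top {F : M → ℝ} (hF : Met.IsLip F) (x : M) : lipAt F x ≠ ∞ := by
  obtain ⟨K, hK⟩ := hF
  have h := (Met.lipAt_le_ofReal_iff (f := F) (x := x) K.2).2 (Met.LipBd.of_lipschitz hK x)
  exact ne_top_of_le_ne_top ENNReal.ofReal_ne_top h

omit [MeasurableSpace M] [BorelSpace M] [SecondCountableTopology M] in
theorem lipBd_lr {F : M → ℝ} (hF : Met.IsLip F) (x : M) : Met.LipBd F x (lr F x) := by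
  refine (Met.lipAt_le_ofReal_iff (f := F) (x := x) (c := lr F x) ENNReal.toReal_nonneg).1 ?_
  unfold lr
  rw [ENNReal.ofReal_toReal (lipAt_ne_top hF x)]

omit [MeasurableSpace M] [BorelSpace M] [SecondCountableTopology M] in
theorem lr_le {F : M → ℝ} {x : M} {c : ℝ} (hc : 0 ≤ c) (h : Met.LipBd F x c) : lr F x ≤ c := by
  have := (Met.lipAt_le_ofReal_iff hc).2 h
  exact ENNReal.toReal_le_of_le_ofReal hc this

omit [MeasurableSpace M] [BorelSpace M] [SecondCountableTopology M] in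
theorem lr_nonneg (F : M → ℝ) (x : M) : 0 ≤ lr F x := ENNReal.toReal_nonneg

theorem ae_quad_tau {τ : ℝ} (hτ : 0 < τ) (hR : SRect (μH[n] : Measure M) n τ) {F G : M → ℝ}
    (hF : Met.IsLip F) (hG : Met.IsLip G) : ∀ᵐ x ∂(μH[n] : Measure M),
      lr (F + G) x ^ 2 + lr (F - G) x ^ 2 ≤ (1 + τ) ^ 4 * (2 * lr F x ^ 2 + 2 * lr G x ^ 2) := by
  obtain ⟨S, g, hg, hS⟩ := hR
  have hlam : (1 : ℝ) ≤ 1 + τ := by linarith
  have hlam0 : (0 : ℝ) ≤ 1 + τ := by linarith
  have hext : ∀ (H : M → ℝ), Met.IsLip H → ∀ j, ∃ Ht : EuclideanSpace ℝ (Fin n) → ℝ,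
      (∀ v ∈ S j, Ht v = H (g j v)) ∧ ∃ C : ℝ≥0, LipschitzWith C Ht := by
    intro H hH j
    obtain ⟨K, hK⟩ := hH
    have h1 : LipschitzOnWith (K * ⟨1 + τ, hlam0⟩) (H ∘ g j) (S j) :=
      hK.comp_lipschitzOnWith ((hg j).lipOn hlam0)
    obtain ⟨Ht, h2, h3⟩ := h1.extend_real
    exact ⟨Ht, fun v hv => (h3 hv).symm, _, h2⟩
  choose Ft hFt CF hCF using hext F hF
  choose Gt hGt CG hCG using hext G hG
  have hP : ∀ j, (μH[n] : Measure (EuclideanSpace ℝ (Fin n)))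
      {u | u ∈ S j ∧ ¬ (DensePt (S j) u ∧ DifferentiableAt ℝ (Ft j) u ∧
        DifferentiableAt ℝ (Gt j) u)} = 0 := by
    intro j
    have h1 := ae_densePt (μH[n] : Measure (EuclideanSpace ℝ (Fin n))) (S j)
    have h2 : ∀ᵐ u ∂(μH[n] : Measure (EuclideanSpace ℝ (Fin n))), DifferentiableAt ℝ (Ft j) u :=
      (hCF j).ae_differentiableAt
    have h3 : ∀ᵐ u ∂(μH[n] : Measure (EuclideanSpace ℝ (Fin n))), DifferentiableAt ℝ (Gt j) u :=
      (hCG j).ae_differentiableAt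
    rw [ae_iff] at h2 h3
    refine measure_mono_null ?_ (measure_union_null h1 (measure_union_null h2 h3))
    rintro u ⟨hu, hu2⟩
    by_contra hcon
    simp only [mem_union, mem_setOf_eq, not_or, not_and, not_not] at hcon
    exact hu2 ⟨hcon.1 hu, hcon.2.1, hcon.2.2⟩
  have hR : ∀ j, (μH[n] : Measure M) {x | x ∈ g j '' S j ∧ ¬ DensePt (g j '' S j) x} = 0 :=
    fun j => ae_densePt _ _
  filter_upwards [SRect.ae_exists hlam0 hg hS hP hR] with x hx
  obtain ⟨j, u, hu, rfl, ⟨hu1, hu2, hu3⟩, hx1⟩ := hx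
  obtain ⟨p, q, hp, hq, h1, h2, h3⟩ := quad_point hlam (hg j) hu hu1 hx1 hF hG (hFt j) (hGt j)
    hu2 hu3 (lr_nonneg F _) (lr_nonneg G _) (lipBd_lr hF _) (lipBd_lr hG _)
  refine le_trans ?_ h3
  have e1 := pow_le_pow_left₀ (lr_nonneg _ _) (lr_le hp h1) 2
  have e2 := pow_le_pow_left₀ (lr_nonneg _ _) (lr_le hq h2) 2
  linarith

/-- **Block G11, metric part**: the parallelogram inequality of the local Lipschitz constants. -/
theorem ae_quad (hR : ∀ τ > 0, SRect (μH[n] : Measure M) n τ) {F G : M → ℝ}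
    (hF : Met.IsLip F) (hG : Met.IsLip G) : ∀ᵐ x ∂(μH[n] : Measure M),
      lr (F + G) x ^ 2 + lr (F - G) x ^ 2 ≤ 2 * lr F x ^ 2 + 2 * lr G x ^ 2 := by
  have h1 : ∀ᵐ x ∂(μH[n] : Measure M), ∀ k : ℕ, lr (F + G) x ^ 2 + lr (F - G) x ^ 2 ≤
      (1 + 1 / ((k : ℝ) + 1)) ^ 4 * (2 * lr F x ^ 2 + 2 * lr G x ^ 2) := by
    rw [ae_all_iff]
    intro k
    have hk : (0 : ℝ) < 1 / ((k : ℝ) + 1) := by positivity
    exact ae_quad_tau hk (hR _ hk) hF hG
  filter_upwards [h1] with x hx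
  have h2 : Tendsto (fun k : ℕ => (1 + 1 / ((k : ℝ) + 1)) ^ 4 *
      (2 * lr F x ^ 2 + 2 * lr G x ^ 2)) atTop
      (𝓝 ((1 + 0) ^ 4 * (2 * lr F x ^ 2 + 2 * lr G x ^ 2))) :=
    ((tendsto_const_nhds.add tendsto_one_div_add_atTop_nhds_zero_nat).pow 4).mul
      tendsto_const_nhds
  have h3 := ge_of_tendsto' h2 hx
  linarith [h3, show ((1 : ℝ) + 0) ^ 4 * (2 * lr F x ^ 2 + 2 * lr G x ^ 2) =
    2 * lr F x ^ 2 + 2 * lr G x ^ 2 by ring]

end quad

end Vale.Agent.P233.RA
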