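import Vale.Agent.P233.H825.RA1
import Vale.Agent.P233.H900.Md
import Vale.Agent.P233.H715.RG1

/-! P233, RCDA, block G9 (helper825), part 1: blow-up at a density point. -/

set_option linter.all false

open MeasureTheory Filter Topology Set Metric
open scoped ENNReal NNReal

namespace Vale.Agent.P233.RA

/-! ### limits of the comparison inequality -/

section model

open Vale.Agent.P233.H616 Vale.Agent.P233.H715.RG

variable {κ : ℝ} {l : Filter ℝ}

theorem tendsto_zero_of_div (hl : l ≤ 𝓝[>] 0) {A : ℝ → ℝ} {A0 : ℝ}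
    (h : Tendsto (fun r => A r / r) l (𝓝 A0)) : Tendsto A l (𝓝 0) := by
  have h1 : Tendsto (fun r : ℝ => r) l (𝓝 0) :=
    (tendsto_id.mono_left (hl.trans nhdsWithin_le_nhds))
  have h2 := h.mul h1
  rw [mul_zero] at h2
  refine h2.congr' ?_
  have h3 : ∀ᶠ r in l, (0 : ℝ) < r := hl self_mem_nhdsWithin
  filter_upwards [h3] with r hr
  field_simp

theorem tendsto_md (hl : l ≤ 𝓝[>] 0) {A : ℝ → ℝ} {A0 : ℝ}
    (h : Tendsto (fun r => A r / r) l (𝓝 A0)) :
    Tendsto (fun r => md κ (A r) / r ^ 2) l (𝓝 (A0 ^ 2 / 2)) := by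
  have hA := tendsto_zero_of_div hl h
  have h1 : Tendsto (fun r => (A r / r) ^ 2 / 2) l (𝓝 (A0 ^ 2 / 2)) := (h.pow 2).div_const 2
  have h2 : Tendsto (fun r => |κ| * Real.cosh (√|κ| * 1) * (A r / r) ^ 2 * A r ^ 2) l
      (𝓝 (|κ| * Real.cosh (√|κ| * 1) * A0 ^ 2 * 0 ^ 2)) :=
    ((h.pow 2).const_mul _).mul (hA.pow 2)
  have h2' : Tendsto (fun r => |κ| * Real.cosh (√|κ| * 1) * (A r / r) ^ 2 * A r ^ 2) l (𝓝 0) := by
    simpa using h2
  have h3 : ∀ᶠ r in l, (0 : ℝ) < r := hl self_mem_nhdsWithin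
  have h4 : ∀ᶠ r in l, |A r| ≤ 1 := by
    have := hA.abs
    rw [abs_zero] at this
    exact this.eventually (ge_mem_nhds one_pos)
  have h5 : Tendsto (fun r => md κ (A r) / r ^ 2 - (A r / r) ^ 2 / 2) l (𝓝 0) := by
    refine squeeze_zero_norm' ?_ h2'
    filter_upwards [h3, h4] with r hr hr1
    have e := md_quad (κ := κ) hr1
    rw [Real.norm_eq_abs]
    have e1 : md κ (A r) / r ^ 2 - (A r / r) ^ 2 / 2 = (md κ (A r) - A r ^ 2 / 2) / r ^ 2 := by
      field_simp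
    rw [e1, abs_div, abs_of_pos (by positivity : (0 : ℝ) < r ^ 2), div_le_iff₀ (by positivity)]
    refine e.trans (le_of_eq ?_)
    field_simp
  have h6 := h5.add h1
  simpa using h6

theorem tendsto_sn (hl : l ≤ 𝓝[>] 0) {A : ℝ → ℝ} {A0 : ℝ}
    (h : Tendsto (fun r => A r / r) l (𝓝 A0)) :
    Tendsto (fun r => sn κ (A r) / r) l (𝓝 A0) := by
  have hA := tendsto_zero_of_div hl h
  have hd := hasDerivAt_sn κ 0
  rw [cs_at_zero] at hd
  have h1 := hd.isLittleO
  simp only [sn_at_zero, sub_zero, smul_eq_mul, mul_one] at h1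
  have h3 : ∀ᶠ r in l, (0 : ℝ) < r := hl self_mem_nhdsWithin
  -- `sn t = t + o(t)`
  have h5 : Tendsto (fun r => sn κ (A r) / r - A r / r) l (𝓝 0) := by
    rw [Metric.tendsto_nhds]
    intro ε hε
    have hb : ∀ᶠ r in l, |A r / r| ≤ |A0| + 1 := by
      have := h.abs
      exact this.eventually (ge_mem_nhds (by linarith))
    have hc : 0 < ε / (|A0| + 2) := by positivity
    have h7 := (hA.eventually (h1.def hc))
    filter_upwards [h3, hb, h7] with r hr hr1 hr2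
    rw [Real.dist_eq, sub_zero, ← sub_div, abs_div, abs_of_pos hr]
    rw [abs_div, abs_of_pos hr] at hr1
    rw [Real.norm_eq_abs, Real.norm_eq_abs] at hr2
    have h8 : |sn κ (A r) - A r| / r ≤ ε / (|A0| + 2) * (|A r| / r) := by
      rw [mul_div_assoc']
      exact div_le_div_of_nonneg_right hr2 hr.le
    have h9 : ε / (|A0| + 2) * (|A r| / r) ≤ ε / (|A0| + 2) * (|A0| + 1) :=
      mul_le_mul_of_nonneg_left hr1 hc.le
    have h10 : ε / (|A0| + 2) * (|A0| + 1) < ε := by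
      rw [div_mul_eq_mul_div, div_lt_iff₀ (by positivity)]
      nlinarith [abs_nonneg A0]
    linarith
  have h6 := h5.add h
  simpa using h6

/-- limit of the comparison inequality at the midpoint -/
theorem cmp_limit [l.NeBot] (hl : l ≤ 𝓝[>] 0) {A B D W : ℝ → ℝ} {A0 B0 D0 W0 : ℝ}
    (hA : Tendsto (fun r => A r / r) l (𝓝 A0)) (hB : Tendsto (fun r => B r / r) l (𝓝 B0))
    (hD : Tendsto (fun r => D r / r) l (𝓝 D0)) (hW : Tendsto (fun r => W r / r) l (𝓝 W0))
    (hD0 : 0 < D0) (h : ∀ᶠ r in l, T.Cmp κ (A r) (B r) (D r / 2) (D r / 2) (W r)) :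
    (A0 ^ 2 + B0 ^ 2) / 2 - D0 ^ 2 / 4 ≤ W0 ^ 2 := by
  have hD2 : Tendsto (fun r => D r / 2 / r) l (𝓝 (D0 / 2)) := by
    have := hD.div_const 2
    refine this.congr fun r => ?_
    ring
  have hD3 : Tendsto (fun r => (A r - D r) / r) l (𝓝 (A0 - D0)) := by
    refine (hA.sub hD).congr fun r => ?_
    ring
  have hD4 : Tendsto (fun r => (A r - D r / 2) / r) l (𝓝 (A0 - D0 / 2)) := by
    refine (hA.sub hD2).congr fun r => ?_
    ring
  have h1 := (tendsto_sn (κ := κ) hl hD2).mul ((tendsto_md (κ := κ) hl hB).sub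
    (tendsto_md (κ := κ) hl hD3))
  have h2 := (tendsto_sn (κ := κ) hl hD).mul ((tendsto_md (κ := κ) hl hW).sub
    (tendsto_md (κ := κ) hl hD4))
  have h3 : ∀ᶠ r in l, (0 : ℝ) < r := hl self_mem_nhdsWithin
  have h4 := le_of_tendsto_of_tendsto h1 h2 (by
    filter_upwards [h, h3] with r hr hr0
    have e := cmp_md hr
    have e1 : D r / 2 + D r / 2 = D r := by ring
    rw [e1] at e
    rw [← sub_div, ← sub_div, div_mul_div_comm, div_mul_div_comm]
    exact div_le_div_of_nonneg_right e (by positivity))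
  have h5 : D0 / 2 * (B0 ^ 2 / 2 - (A0 - D0) ^ 2 / 2) ≤ D0 * (W0 ^ 2 / 2 - (A0 - D0 / 2) ^ 2 / 2) := h4
  have h6 : D0 * ((B0 ^ 2 / 2 - (A0 - D0) ^ 2 / 2) / 2) ≤
      D0 * (W0 ^ 2 / 2 - (A0 - D0 / 2) ^ 2 / 2) := by linarith
  have h7 := le_of_mul_le_mul_left h6 hD0
  nlinarith [h7]

end model

/-! ### approximation by points of a set with a density point -/

section approx

variable {X : Type*} [MetricSpace X]

theorem exists_near {T : Set X} {x : X} (hT : DensePt T x) (hxT : x ∈ T) {m : ℝ → X} {C : ℝ}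
    {l : Filter ℝ} (hl : l ≤ 𝓝[>] 0) (hm : ∀ᶠ r in l, dist x (m r) ≤ C * r) :
    ∃ w : ℝ → X, (∀ r, w r ∈ T) ∧ Tendsto (fun r => dist (m r) (w r) / r) l (𝓝 0) := by
  have hne : T.Nonempty := ⟨x, hxT⟩
  have hex : ∀ r : ℝ, ∃ w ∈ T, r ≠ 0 → dist (m r) w < infDist (m r) T + r ^ 2 := by
    intro r
    by_cases hr : r = 0
    · exact ⟨x, hxT, fun h => absurd hr h⟩
    · obtain ⟨w, hw, hw2⟩ := (infDist_lt_iff hne).1
        (lt_add_of_pos_right (infDist (m r) T) (by positivity : 0 < r ^ 2))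
      exact ⟨w, hw, fun _ => hw2⟩
  choose w hw hw2 using hex
  refine ⟨w, hw, ?_⟩
  have h3 : ∀ᶠ r in l, (0 : ℝ) < r := hl self_mem_nhdsWithin
  have hr0 : Tendsto (fun r : ℝ => r) l (𝓝 0) :=
    (tendsto_id.mono_left (hl.trans nhdsWithin_le_nhds))
  have hmx : Tendsto m l (𝓝 x) := by
    rw [tendsto_iff_dist_tendsto_zero]
    have h4 := hr0.const_mul C
    rw [mul_zero] at h4
    refine squeeze_zero' (Eventually.of_forall fun _ => dist_nonneg) ?_ h4
    filter_upwards [hm] with r hr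
    rw [dist_comm]; exact hr
  rw [Metric.tendsto_nhds]
  intro ε hε
  have hC : 0 < |C| + 1 := by positivity
  have h5 := hmx.eventually (hT (ε / 2 / (|C| + 1)) (by positivity))
  have h6 : ∀ᶠ r in l, r < ε / 2 := hr0.eventually (gt_mem_nhds (by positivity))
  filter_upwards [h3, h5, h6, hm] with r hr h7 h8 h9
  obtain ⟨y', hy', h10⟩ := h7
  rw [Real.dist_eq, sub_zero, abs_of_nonneg (div_nonneg dist_nonneg hr.le), div_lt_iff₀ hr]
  have h11 := hw2 r hr.ne'
  have h12 : infDist (m r) T ≤ ε / 2 / (|C| + 1) * dist x (m r) :=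
    (infDist_le_dist_of_mem hy').trans h10
  have h13 : ε / 2 / (|C| + 1) * dist x (m r) ≤ ε / 2 / (|C| + 1) * ((|C| + 1) * r) := by
    refine mul_le_mul_of_nonneg_left (h9.trans ?_) (by positivity)
    exact mul_le_mul_of_nonneg_right (by linarith [le_abs_self C]) hr.le
  have h14 : ε / 2 / (|C| + 1) * ((|C| + 1) * r) = ε / 2 * r := by field_simp
  nlinarith [h11, h12, h13, h14, h8]

end approx

section linear

variable {E : Type*} [NormedAddCommGroup E] [NormedSpace ℝ E]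

theorem exists_dir {P : Set E} {u : E} (hP : DensePt P u) (hu : u ∈ P) (e : E)
    {l : Filter ℝ} (hl : l ≤ 𝓝[>] 0) :
    ∃ v : ℝ → E, (∀ r, v r ∈ P) ∧ Tendsto (fun r => r⁻¹ • (v r - u)) l (𝓝 e) := by
  have h3 : ∀ᶠ r in l, (0 : ℝ) < r := hl self_mem_nhdsWithin
  obtain ⟨v, hv, hv2⟩ := exists_near hP hu (m := fun r => u + r • e) (C := ‖e‖) hl (by
    filter_upwards [h3] with r hr
    rw [dist_eq_norm, show u - (u + r • e) = -(r • e) by abel, norm_neg, norm_smul,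
      Real.norm_eq_abs, abs_of_pos hr, mul_comm])
  refine ⟨v, hv, ?_⟩
  rw [tendsto_iff_dist_tendsto_zero]
  refine hv2.congr' ?_
  filter_upwards [h3] with r hr
  rw [dist_eq_norm, dist_eq_norm]
  have : r⁻¹ • (v r - u) - e = r⁻¹ • (v r - (u + r • e)) := by
    rw [← sub_sub, smul_sub r⁻¹ (v r - u) (r • e), smul_smul, inv_mul_cancel₀ hr.ne', one_smul]
  rw [this, norm_smul, norm_inv, Real.norm_eq_abs, abs_of_pos hr, norm_sub_rev, div_eq_inv_mul]

end linear

section md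

variable {E : Type*} [NormedAddCommGroup E] [InnerProductSpace ℝ E] [FiniteDimensional ℝ E]
  {M : Type*} [MetricSpace M]

theorem md_limit {P : Set E} {h : E → M} {u : E} {N : Seminorm ℝ E} {L : ℝ}
    (hN : ∀ v, N v ≤ L * ‖v‖) (hMd : H900.Md P h u N) {l : Filter ℝ} (hl : l ≤ 𝓝[>] 0)
    {v w : ℝ → E} (hv : ∀ r, v r ∈ P) (hw : ∀ r, w r ∈ P) {e f : E}
    (he : Tendsto (fun r => r⁻¹ • (v r - u)) l (𝓝 e))
    (hf : Tendsto (fun r => r⁻¹ • (w r - u)) l (𝓝 f)) :
    Tendsto (fun r => dist (h (v r)) (h (w r)) / r) l (𝓝 (N (e - f))) := by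
  have h3 : ∀ᶠ r in l, (0 : ℝ) < r := hl self_mem_nhdsWithin
  have hr0 : Tendsto (fun r : ℝ => r) l (𝓝 0) :=
    (tendsto_id.mono_left (hl.trans nhdsWithin_le_nhds))
  have hnear : ∀ {v : ℝ → E} {e : E}, Tendsto (fun r => r⁻¹ • (v r - u)) l (𝓝 e) →
      Tendsto (fun r => ‖v r - u‖) l (𝓝 0) := by
    intro v e he
    have h1 := (hr0.smul he).norm
    rw [zero_smul, norm_zero] at h1
    refine h1.congr' ?_
    filter_upwards [h3] with r hr
    rw [smul_smul, mul_inv_cancel₀ hr.ne', one_smul]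
  have hNc : Tendsto (fun r => N (r⁻¹ • (v r - w r))) l (𝓝 (N (e - f))) := by
    have h1 : Tendsto (fun r => r⁻¹ • (v r - w r)) l (𝓝 (e - f)) := by
      refine (he.sub hf).congr fun r => ?_
      rw [← smul_sub]; congr 1; abel
    rw [tendsto_iff_dist_tendsto_zero] at h1 ⊢
    have h2 := h1.const_mul L
    rw [mul_zero] at h2
    refine squeeze_zero (fun _ => dist_nonneg) (fun r => ?_) h2
    rw [Real.dist_eq, dist_eq_norm]
    exact (abs_sub_map_le_sub N _ _).trans (hN _)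
  have hdiff : Tendsto (fun r => dist (h (v r)) (h (w r)) / r - N (r⁻¹ • (v r - w r))) l (𝓝 0) := by
    rw [Metric.tendsto_nhds]
    intro ε hε
    have hc : 0 < ε / 2 / (‖e‖ + ‖f‖ + 1) := by positivity
    obtain ⟨ρ, hρ, hρ2⟩ := hMd _ hc
    have b1 := (hnear he).eventually (gt_mem_nhds hρ)
    have b2 := (hnear hf).eventually (gt_mem_nhds hρ)
    have b3 : ∀ᶠ r in l, ‖r⁻¹ • (v r - u)‖ + ‖r⁻¹ • (w r - u)‖ < ‖e‖ + ‖f‖ + 1 :=
      (he.norm.add hf.norm).eventually (gt_mem_nhds (by linarith))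
    filter_upwards [h3, b1, b2, b3] with r hr c1 c2 c3
    have c4 := hρ2 (v r) (hv r) (w r) (hw r) c1 c2
    rw [Real.dist_eq, sub_zero]
    have e1 : N (r⁻¹ • (v r - w r)) = N (v r - w r) / r := by
      rw [map_smul_eq_mul, norm_inv, Real.norm_eq_abs, abs_of_pos hr, div_eq_inv_mul]
    rw [e1, ← sub_div, abs_div, abs_of_pos hr, div_lt_iff₀ hr]
    rw [norm_smul, norm_smul, norm_inv, Real.norm_eq_abs, abs_of_pos hr, ← mul_add,
      inv_mul_lt_iff₀ hr] at c3
    calc |dist (h (v r)) (h (w r)) - N (v r - w r)|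
        ≤ ε / 2 / (‖e‖ + ‖f‖ + 1) * (‖v r - u‖ + ‖w r - u‖) := c4
      _ ≤ ε / 2 / (‖e‖ + ‖f‖ + 1) * (r * (‖e‖ + ‖f‖ + 1)) :=
          mul_le_mul_of_nonneg_left c3.le hc.le
      _ = ε / 2 * r := by field_simp
      _ < ε * r := by nlinarith
  have := hdiff.add hNc
  simpa using this

/-- **Blow-up**: the metric differential has the midpoint property. -/
theorem midpoint_of_md {κ : ℝ} (hA : T.IsAlexandrov M κ) {P : Set E} {h : E → M} {u : E}
    {N : Seminorm ℝ E} {L : ℝ} (hN : ∀ v, N v ≤ L * ‖v‖) (hN0 : ∀ v, N v = 0 → v = 0)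
    (hMd : H900.Md P h u N) {c : ℝ} (hc : 0 < c)
    (hbi : ∀ v ∈ P, c * dist v u ≤ dist (h v) (h u)) (hu : u ∈ P) (hP : DensePt P u)
    (hT : DensePt (h '' P) (h u)) (a : E) :
    ∃ w : E, ∀ q : E, (N (q - a) ^ 2 + N (q + a) ^ 2) / 2 - N a ^ 2 ≤ N (q - w) ^ 2 := by
  haveI : ProperSpace E := FiniteDimensional.proper ℝ E
  by_cases ha : a = 0
  · subst ha
    refine ⟨0, fun q => ?_⟩
    rw [sub_zero, add_zero, map_zero]
    linarith
  have hNa : 0 < N a := lt_of_le_of_ne (apply_nonneg N a) fun h0 => ha (hN0 a h0.symm)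
  -- an ultrafilter
  set U : Ultrafilter ℝ := Ultrafilter.of (𝓝[>] (0 : ℝ)) with hU
  have hl : (U : Filter ℝ) ≤ 𝓝[>] 0 := Ultrafilter.of_le _
  have h3 : ∀ᶠ r in (U : Filter ℝ), (0 : ℝ) < r := hl self_mem_nhdsWithin
  have hr0 : Tendsto (fun r : ℝ => r) (U : Filter ℝ) (𝓝 0) :=
    (tendsto_id.mono_left (hl.trans nhdsWithin_le_nhds))
  obtain ⟨vp, hvp, hvp2⟩ := exists_dir hP hu a hl
  obtain ⟨vm, hvm, hvm2⟩ := exists_dir hP hu (-a) hl
  have hv0 : Tendsto (fun r : ℝ => r⁻¹ • (u - u)) (U : Filter ℝ) (𝓝 (0 : E)) := by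
    simp
  -- the midpoints
  have hmid : ∀ r : ℝ, ∃ m : M, dist (h (vp r)) m = dist (h (vp r)) (h (vm r)) / 2 ∧
      dist m (h (vm r)) = dist (h (vp r)) (h (vm r)) / 2 := fun r =>
    hA.geodesic _ _ _ _ (by positivity) (by positivity) (by ring)
  choose mm hmm1 hmm2 using hmid
  have hD : Tendsto (fun r => dist (h (vp r)) (h (vm r)) / r) (U : Filter ℝ) (𝓝 (N (a - -a))) :=
    md_limit hN hMd hl hvp hvm hvp2 hvm2
  have hDu : Tendsto (fun r => dist (h (vp r)) (h u) / r) (U : Filter ℝ) (𝓝 (N (a - 0))) :=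
    md_limit hN hMd hl hvp (w := fun _ => u) (fun _ => hu) hvp2 hv0
  have hD2a : N (a - -a) = 2 * N a := by
    rw [sub_neg_eq_add, ← two_smul ℝ a, map_smul_eq_mul]; norm_num
  have hmC : ∀ᶠ r in (U : Filter ℝ), dist (h u) (mm r) ≤ (N (a - 0) + 1 + (N (a - -a) + 1) / 2) * r := by
    filter_upwards [h3, hD.eventually (gt_mem_nhds (show N (a - -a) < N (a - -a) + 1 by linarith)),
      hDu.eventually (gt_mem_nhds (show N (a - 0) < N (a - 0) + 1 by linarith))] with r hr h4 h5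
    rw [div_lt_iff₀ hr] at h4 h5
    have h6 := dist_triangle (h u) (h (vp r)) (mm r)
    rw [dist_comm (h u) (h (vp r)), hmm1 r] at h6
    linarith
  obtain ⟨z, hz, hz2⟩ := exists_near hT (mem_image_of_mem h hu) hl hmC
  choose w hw hwz using hz
  have hwb : ∀ᶠ r in (U : Filter ℝ), r⁻¹ • (w r - u) ∈
      closedBall (0 : E) (((N (a - 0) + 1 + (N (a - -a) + 1) / 2) + 1) / c) := by
    filter_upwards [h3, hmC, hz2.eventually (gt_mem_nhds one_pos)] with r hr h4 h5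
    rw [div_lt_iff₀ hr, one_mul] at h5
    rw [mem_closedBall, dist_zero_right, norm_smul, norm_inv, Real.norm_eq_abs, abs_of_pos hr,
      inv_mul_le_iff₀ hr, ← dist_eq_norm, ← mul_div_assoc, le_div_iff₀ hc, mul_comm]
    refine (hbi (w r) (hw r)).trans ?_
    rw [hwz r]
    have h6 := dist_triangle (z r) (mm r) (h u)
    rw [dist_comm (z r) (mm r), dist_comm (mm r) (h u)] at h6
    nlinarith [h4, h5, h6]
  obtain ⟨w0, hw0, hw1⟩ := (isCompact_closedBall (0 : E) _).ultrafilter_le_nhds'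
    (U.map fun r => r⁻¹ • (w r - u)) hwb
  have hw1 : Tendsto (fun r => r⁻¹ • (w r - u)) (U : Filter ℝ) (𝓝 w0) := hw1
  refine ⟨w0, fun q => ?_⟩
  obtain ⟨vq, hvq, hvq2⟩ := exists_dir hP hu q hl
  have hAq := md_limit hN hMd hl hvq hvp hvq2 hvp2
  have hBq := md_limit hN hMd hl hvq hvm hvq2 hvm2
  have hWq := md_limit hN hMd hl hvq hw hvq2 hw1
  have hWq' : Tendsto (fun r => dist (h (vq r)) (mm r) / r) (U : Filter ℝ) (𝓝 (N (q - w0))) := by
    have h4 : Tendsto (fun r => dist (h (vq r)) (mm r) / r - dist (h (vq r)) (h (w r)) / r)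
        (U : Filter ℝ) (𝓝 0) := by
      refine squeeze_zero_norm' ?_ hz2
      filter_upwards [h3] with r hr
      rw [← sub_div, norm_div, Real.norm_eq_abs, Real.norm_eq_abs, abs_of_pos hr]
      refine div_le_div_of_nonneg_right ?_ hr.le
      rw [hwz r]
      have := abs_dist_sub_le (mm r) (z r) (h (vq r))
      rwa [dist_comm (mm r) (h (vq r)), dist_comm (z r) (h (vq r))] at this
    have := h4.add hWq
    simpa using this
  have hD0 : 0 < N (a - -a) := by rw [hD2a]; linarith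
  have hfin := cmp_limit (κ := κ) (l := (U : Filter ℝ)) hl hAq hBq hD hWq' hD0 (by
    -- small triangles
    have hz0 : ∀ {A : ℝ → ℝ} {A0 : ℝ}, Tendsto (fun r => A r / r) (U : Filter ℝ) (𝓝 A0) →
        Tendsto A (U : Filter ℝ) (𝓝 0) := fun h => tendsto_zero_of_div hl h
    have hper : Tendsto (fun r => √κ * (dist (h (vq r)) (h (vp r)) + dist (h (vq r)) (h (vm r)) +
        dist (h (vp r)) (h (vm r)))) (U : Filter ℝ) (𝓝 (√κ * (0 + 0 + 0))) :=
      (((hz0 hAq).add (hz0 hBq)).add (hz0 hD)).const_mul _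
    simp only [add_zero, mul_zero] at hper
    filter_upwards [hper.eventually (gt_mem_nhds (show (0 : ℝ) < 2 * Real.pi by positivity))]
      with r hr
    have h5 := hA.comparison (h (vq r)) (h (vp r)) (h (vm r)) (mm r)
      (by rw [hmm1 r, hmm2 r]; ring) hr
    rw [hmm1 r, hmm2 r] at h5
    exact h5)
  rw [hD2a, sub_neg_eq_add] at hfin
  nlinarith [hfin]

end md

end Vale.Agent.P233.RA
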