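import Vale.Agent.P233.RA.IfG
import Vale.Agent.P233.H825.RB1
import Vale.Agent.P233.H825.RA2
import Vale.Agent.P233.H900.Kirch
import Vale.Agent.P233.H886.Norm
import Mathlib.Analysis.InnerProductSpace.OfNorm

/-! P233, RCDA, block G9 (helper825), part 2: Alexandrov spaces are strongly rectifiable. -/

set_option linter.all false

open MeasureTheory Filter Topology Set Metric
open scoped ENNReal NNReal MeasureTheory

universe u

namespace Vale.Agent.P233.RA

/-! ### a norm with the parallelogram law is Euclidean -/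

theorem exists_isometry {V : Type*} [AddCommGroup V] [Module ℝ V] [FiniteDimensional ℝ V] {n : ℕ}
    (hn : Module.finrank ℝ V = n) (N : Seminorm ℝ V) (hN0 : ∀ v, N v = 0 → v = 0)
    (hpar : ∀ x y, N (x + y) ^ 2 + N (x - y) ^ 2 = 2 * (N x ^ 2 + N y ^ 2)) :
    ∃ A : V ≃ₗ[ℝ] EuclideanSpace ℝ (Fin n), ∀ v, ‖A v‖ = N v := by
  let AG : AddGroupNorm V :=
    { toFun := N
      map_zero' := map_zero N
      add_le' := map_add_le_add N
      neg' := map_neg_eq_map N
      eq_zero_of_map_eq_zero' := hN0 }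
  letI i1 : NormedAddCommGroup V := AG.toNormedAddCommGroup
  have hnorm : ∀ v : V, ‖v‖ = N v := fun v => rfl
  letI i2 : NormedSpace ℝ V :=
    { norm_smul_le := fun c v => by
        rw [hnorm, hnorm, map_smul_eq_mul] }
  letI i3 : InnerProductSpace ℝ V := InnerProductSpace.ofNorm ℝ (fun x y => by
    have := hpar x y
    simp only [hnorm]
    nlinarith [this])
  let b : OrthonormalBasis (Fin n) ℝ V := (stdOrthonormalBasis ℝ V).reindex (finCongr hn)
  exact ⟨b.repr.toLinearEquiv, fun v => b.repr.norm_map v⟩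

/-! ### one piece -/

section piece

variable {M : Type*} [MetricSpace M] {n : ℕ} {κ τ : ℝ}

/-- a good point of a piece `P`, with the metric differential `N'` at `u` and the norm `N` of the
piece -/
structure GoodPt (P : Set (EuclideanSpace ℝ (Fin n))) (h : EuclideanSpace ℝ (Fin n) → M)
    (N' : Seminorm ℝ (EuclideanSpace ℝ (Fin n))) (u : EuclideanSpace ℝ (Fin n)) : Prop where
  mem : u ∈ P
  md : H900.Md P h u N'
  pos : ∃ c > 0, ∀ v, c * ‖v‖ ≤ N' v
  dP : DensePt P u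
  dT : DensePt (h '' P) (h u)

theorem exists_chart_piece (hA : T.IsAlexandrov M κ) (hτ : 0 < τ) {L : ℝ}
    {P : Set (EuclideanSpace ℝ (Fin n))} {h : EuclideanSpace ℝ (Fin n) → M}
    {N : Seminorm ℝ (EuclideanSpace ℝ (Fin n))} (hNc : ∃ c > 0, ∀ v, c * ‖v‖ ≤ N v)
    (hNL : ∀ v, N v ≤ L * ‖v‖)
    (hP : ∀ v ∈ P, ∀ w ∈ P, (1 - τ / (2 + τ)) * N (v - w) ≤ dist (h v) (h w) ∧
      dist (h v) (h w) ≤ (1 + τ / (2 + τ)) * N (v - w))
    {N' : Seminorm ℝ (EuclideanSpace ℝ (Fin n))} {L' : ℝ} (hN'L : ∀ v, N' v ≤ L' * ‖v‖)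
    {u : EuclideanSpace ℝ (Fin n)} (hu : GoodPt P h N' u) :
    ∃ (S : Set (EuclideanSpace ℝ (Fin n))) (g : EuclideanSpace ℝ (Fin n) → M),
      BiL (1 + τ) S g ∧ g '' S = h '' P := by
  obtain ⟨c', hc', hc'2⟩ := hu.pos
  obtain ⟨c, hc, hc2⟩ := hNc
  have h2τ : 0 < 2 + τ := by linarith
  have t1 : 1 - τ / (2 + τ) = 2 / (2 + τ) := by field_simp; ring
  have t2 : 1 + τ / (2 + τ) = (1 + τ) * (2 / (2 + τ)) := by field_simp; ring
  have t3 : 0 < 2 / (2 + τ) := by positivity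
  rw [t1, t2] at hP
  -- the metric differential satisfies the parallelogram identity
  have hN'0 : ∀ v, N' v = 0 → v = 0 := by
    intro v hv
    have h1 := hc'2 v
    rw [hv] at h1
    have h2 : ‖v‖ ≤ 0 := by
      by_contra hcon
      push Not at hcon
      nlinarith
    exact norm_le_zero_iff.1 h2
  have hpar := H886.parallelogram N' (fun a => midpoint_of_md hA hN'L hN'0 hu.md
    (c := 2 / (2 + τ) * c) (by positivity) (fun v hv => by
      refine le_trans ?_ (hP v hv u hu.mem).1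
      rw [mul_assoc]
      refine mul_le_mul_of_nonneg_left ?_ t3.le
      rw [dist_eq_norm]
      exact hc2 _) hu.mem hu.dP hu.dT a)
  obtain ⟨A, hAN⟩ := exists_isometry (finrank_euclideanSpace_fin (𝕜 := ℝ) (n := n)) N' hN'0 hpar
  -- comparison of the two norms
  have hcomp : ∀ e, 2 / (2 + τ) * N e ≤ N' e ∧ N' e ≤ (1 + τ) * (2 / (2 + τ)) * N e := by
    intro e
    obtain ⟨v, hv, hv2⟩ := exists_dir hu.dP hu.mem e (le_refl (𝓝[>] (0 : ℝ)))
    have hv0 : Tendsto (fun r : ℝ => r⁻¹ • (u - u)) (𝓝[>] (0 : ℝ))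
        (𝓝 (0 : EuclideanSpace ℝ (Fin n))) := by simp
    have h1 := md_limit hN'L hu.md (le_refl (𝓝[>] (0 : ℝ))) hv (w := fun _ => u)
      (fun _ => hu.mem) hv2 hv0
    rw [sub_zero] at h1
    have h2 : Tendsto (fun r => N (r⁻¹ • (v r - u))) (𝓝[>] (0 : ℝ)) (𝓝 (N e)) := by
      rw [tendsto_iff_dist_tendsto_zero] at hv2 ⊢
      have h3 := hv2.const_mul L
      rw [mul_zero] at h3
      refine squeeze_zero (fun _ => dist_nonneg) (fun r => ?_) h3
      rw [Real.dist_eq, dist_eq_norm]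
      exact (abs_sub_map_le_sub N _ _).trans (hNL _)
    have h4 : ∀ r : ℝ, 0 < r → N (r⁻¹ • (v r - u)) = N (v r - u) / r := by
      intro r hr
      rw [map_smul_eq_mul, norm_inv, Real.norm_eq_abs, abs_of_pos hr, div_eq_inv_mul]
    constructor
    · refine le_of_tendsto_of_tendsto (h2.const_mul (2 / (2 + τ))) h1 ?_
      filter_upwards [self_mem_nhdsWithin] with r hr
      have hr' : (0 : ℝ) < r := hr
      rw [h4 r hr, ← mul_div_assoc]
      exact div_le_div_of_nonneg_right (hP (v r) (hv r) u hu.mem).1 hr'.le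
    · refine le_of_tendsto_of_tendsto h1 (h2.const_mul ((1 + τ) * (2 / (2 + τ)))) ?_
      filter_upwards [self_mem_nhdsWithin] with r hr
      have hr' : (0 : ℝ) < r := hr
      rw [h4 r hr, ← mul_div_assoc]
      exact div_le_div_of_nonneg_right (hP (v r) (hv r) u hu.mem).2 hr'.le
  refine ⟨A '' P, h ∘ A.symm, ?_, ?_⟩
  · rintro _ ⟨v, hv, rfl⟩ _ ⟨w, hw, rfl⟩
    simp only [Function.comp_apply, LinearEquiv.symm_apply_apply]
    have e1 : dist (A v) (A w) = N' (v - w) := by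
      rw [dist_eq_norm, ← map_sub, hAN]
    rw [e1]
    obtain ⟨p1, p2⟩ := hP v hv w hw
    obtain ⟨q1, q2⟩ := hcomp (v - w)
    constructor
    · calc dist (h v) (h w) ≤ (1 + τ) * (2 / (2 + τ)) * N (v - w) := p2
        _ = (1 + τ) * (2 / (2 + τ) * N (v - w)) := by ring
        _ ≤ (1 + τ) * N' (v - w) := mul_le_mul_of_nonneg_left q1 (by linarith)
    · calc N' (v - w) ≤ (1 + τ) * (2 / (2 + τ)) * N (v - w) := q2
        _ = (1 + τ) * (2 / (2 + τ) * N (v - w)) := by ring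
        _ ≤ (1 + τ) * dist (h v) (h w) := mul_le_mul_of_nonneg_left p1 (by linarith)
  · rw [image_image]
    simp

end piece

end Vale.Agent.P233.RA

namespace Vale.Agent.P233.RG

open Vale.Agent.P233.RA

/-- **Block G9** -/
theorem blk_G9 : Blk_G9.{u} := by
  intro M _ _ _ _ _ n κ hAx hG hLR τ hτ
  haveI := hG.geo.dbl
  haveI : IsLocallyFiniteMeasure (μH[n] : Measure M) :=
    ⟨fun x => ⟨ball x 1, ball_mem_nhds x one_pos, hG.fin x 1⟩⟩
  obtain ⟨S, h, -, hLip, hcovM⟩ := hLR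
  choose L hL using hLip
  have hτ' : 0 < τ / (2 + τ) := by positivity
  have hK := fun j => H900.kirchheim (hL j) hτ'
  choose P N hN1 hN2 hPS _ hPb hcov using hK
  have hMD := fun j => H900.exists_metricDifferential (hL j)
  choose N' hN'L _ _ hN'bad using hMD
  simp only [finrank_euclideanSpace_fin] at hcov hN'bad
  -- charts
  have hch : ∀ j i, ∃ (S' : Set (EuclideanSpace ℝ (Fin n)))
      (g : EuclideanSpace ℝ (Fin n) → M), BiL (1 + τ) S' g ∧
      ∀ u, GoodPt (P j i) (h j) (N' j u) u → h j u ∈ g '' S' := by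
    intro j i
    by_cases hex : ∃ u, GoodPt (P j i) (h j) (N' j u) u
    · obtain ⟨u, hu⟩ := hex
      obtain ⟨S', g, h1, h2⟩ := exists_chart_piece hAx.alex hτ (hN1 j i)
        (L := (L j : ℝ) + 1) (fun v => by exact_mod_cast hN2 j i v) (hPb j i)
        (L' := L j) (fun v => hN'L j u v) hu
      refine ⟨S', g, h1, fun u' hu' => ?_⟩
      rw [h2]
      exact mem_image_of_mem _ hu'.mem
    · refine ⟨∅, h j, ?_, fun u hu => absurd ⟨u, hu⟩ hex⟩
      intro v hv
      exact absurd hv (notMem_empty v)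
  choose S' g hg1 hg2 using hch
  refine ⟨fun k => S' k.unpair.1 k.unpair.2, fun k => g k.unpair.1 k.unpair.2,
    fun k => hg1 _ _, ?_⟩
  -- the bad set
  have b1 : ∀ j, (μH[n] : Measure M) (h j '' (S j \ ⋃ i, P j i)) = 0 := hcov
  have b2 : ∀ j, (μH[n] : Measure M) (h j '' {u | u ∈ S j ∧
      ¬ (H900.Md (S j) (h j) u (N' j u) ∧ ∃ c > 0, ∀ v, c * ‖v‖ ≤ N' j u v)}) = 0 := hN'bad
  have b3 : ∀ j i, (μH[n] : Measure M) (h j '' {u | u ∈ P j i ∧ ¬ DensePt (P j i) u}) = 0 := by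
    intro j i
    have h1 := ae_densePt (μH[n] : Measure (EuclideanSpace ℝ (Fin n))) (P j i)
    have h2 := ((hL j).mono (show {u | u ∈ P j i ∧ ¬ DensePt (P j i) u} ⊆ S j from
      fun u hu => hPS j i hu.1)).hausdorffMeasure_image_le (d := (n : ℝ)) (Nat.cast_nonneg n)
    rw [h1, mul_zero] at h2
    exact le_antisymm h2 zero_le
  have b4 : ∀ j i, (μH[n] : Measure M)
      {x | x ∈ h j '' P j i ∧ ¬ DensePt (h j '' P j i) x} = 0 := fun j i => ae_densePt _ _
  have hbad : (μH[n] : Measure M) (⋃ j, (h j '' (S j \ ⋃ i, P j i) ∪ h j '' {u | u ∈ S j ∧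
      ¬ (H900.Md (S j) (h j) u (N' j u) ∧ ∃ c > 0, ∀ v, c * ‖v‖ ≤ N' j u v)} ∪
      ⋃ i, (h j '' {u | u ∈ P j i ∧ ¬ DensePt (P j i) u} ∪
        {x | x ∈ h j '' P j i ∧ ¬ DensePt (h j '' P j i) x}))) = 0 := by
    rw [measure_iUnion_null_iff]
    intro j
    refine measure_union_null (measure_union_null (b1 j) (b2 j)) ?_
    rw [measure_iUnion_null_iff]
    intro i
    exact measure_union_null (b3 j i) (b4 j i)
  refine measure_mono_null ?_ hbad
  intro x hx
  by_contra hcon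
  apply hx
  have hxM : x ∈ ⋃ j, h j '' S j := by rw [hcovM]; exact mem_univ x
  obtain ⟨j, u, hu, rfl⟩ := mem_iUnion.1 hxM
  simp only [mem_iUnion, not_exists] at hcon
  have hj := hcon j
  rw [mem_union, mem_union, not_or, not_or] at hj
  obtain ⟨⟨c1, c2⟩, c3⟩ := hj
  have hu1 : u ∈ ⋃ i, P j i := by
    by_contra hcon
    exact c1 ⟨u, ⟨hu, hcon⟩, rfl⟩
  obtain ⟨i, hui⟩ := mem_iUnion.1 hu1
  have hu2 : H900.Md (S j) (h j) u (N' j u) ∧ ∃ c > 0, ∀ v, c * ‖v‖ ≤ N' j u v := by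
    by_contra hcon
    exact c2 ⟨u, ⟨hu, hcon⟩, rfl⟩
  simp only [mem_iUnion, not_exists] at c3
  have c4 := c3 i
  rw [mem_union, not_or] at c4
  have hu3 : DensePt (P j i) u := by
    by_contra hcon
    exact c4.1 ⟨u, ⟨hui, hcon⟩, rfl⟩
  have hu4 : DensePt (h j '' P j i) (h j u) := by
    by_contra hcon
    exact c4.2 ⟨mem_image_of_mem _ hui, hcon⟩
  have hgood : GoodPt (P j i) (h j) (N' j u) u := by
    refine ⟨hui, ?_, hu2.2, hu3, hu4⟩
    intro ε hε
    obtain ⟨ρ, hρ, hρ2⟩ := hu2.1 ε hε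
    exact ⟨ρ, hρ, fun v hv w hw => hρ2 v (hPS j i hv) w (hPS j i hw)⟩
  refine mem_iUnion.2 ⟨Nat.pair j i, ?_⟩
  simp only [Nat.unpair_pair]
  exact hg2 j i u hgood

end Vale.Agent.P233.RG
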