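import Mathlib

/-!
Strassen's theorem on the existence of measures with given marginals carried by a closed relation,
and the Kantorovich duality for continuous costs, for compact metric spaces; both from one lemma
(Hahn-Banach and Riesz-Markov).
-/

open MeasureTheory Set Filter Topology
open scoped ENNReal CompactlySupported

namespace H825.Str

/-- Riesz-Markov on a compact metric space -/
theorem exists_measure {Z : Type*} [MetricSpace Z] [CompactSpace Z] [MeasurableSpace Z]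
    [BorelSpace Z] (Λ : C(Z, ℝ) →ₗ[ℝ] ℝ) (h : ∀ f : C(Z, ℝ), (∀ z, 0 ≤ f z) → 0 ≤ Λ f) :
    ∃ π : Measure Z, IsFiniteMeasure π ∧ ∀ f : C(Z, ℝ), ∫ z, f z ∂π = Λ f := by
  let e : C_c(Z, ℝ) →ₗ[ℝ] C(Z, ℝ) :=
    { toFun := fun f => f.toContinuousMap
      map_add' := fun f g => rfl
      map_smul' := fun c f => rfl }
  let Λ' : C_c(Z, ℝ) →ₚ[ℝ] ℝ := PositiveLinearMap.mk₀ (Λ ∘ₗ e) (fun f hf => h _ (fun z => hf z))
  refine ⟨RealRMK.rieszMeasure Λ', ?_, fun f => ?_⟩
  · constructor
    exact isCompact_univ.measure_lt_top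
  · have h1 := RealRMK.integral_rieszMeasure Λ' (⟨f, HasCompactSupport.of_compactSpace _⟩ : C_c(Z, ℝ))
    exact h1

section abs

variable {Z : Type*} [MetricSpace Z] [CompactSpace Z] {E : Type*} [AddCommGroup E] [Module ℝ E]

/-- the values of `ℓ` on the elements of `P` whose image dominates `h` on `R` -/
def vals (P : Set E) (ℓ : E →ₗ[ℝ] ℝ) (T : E →ₗ[ℝ] C(Z, ℝ)) (R : Set Z) (h : C(Z, ℝ)) : Set ℝ :=
  {r | ∃ e ∈ P, (∀ z ∈ R, h z ≤ T e z) ∧ r = ℓ e}

/-- the sublinear functional -/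
noncomputable def pp (P : Set E) (ℓ : E →ₗ[ℝ] ℝ) (T : E →ₗ[ℝ] C(Z, ℝ)) (R : Set Z)
    (h : C(Z, ℝ)) : ℝ := sInf (vals P ℓ T R h)

variable {P : Set E} {ℓ : E →ₗ[ℝ] ℝ} {T : E →ₗ[ℝ] C(Z, ℝ)} {R : Set Z}

/-- the standing hypotheses -/
structure Hyp (P : Set E) (ℓ : E →ₗ[ℝ] ℝ) (T : E →ₗ[ℝ] C(Z, ℝ)) (R : Set Z) : Prop where
  zero : (0 : E) ∈ P
  add : ∀ a ∈ P, ∀ b ∈ P, a + b ∈ P
  smul : ∀ c : ℝ, 0 ≤ c → ∀ a ∈ P, c • a ∈ P
  key : ∀ e ∈ P, (∀ z ∈ R, 0 ≤ T e z) → 0 ≤ ℓ e
  one : ∃ e ∈ P, ∀ z ∈ R, 1 ≤ T e z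

theorem Hyp.nonempty (H : Hyp P ℓ T R) (h : C(Z, ℝ)) : (vals P ℓ T R h).Nonempty := by
  obtain ⟨e, he, he1⟩ := H.one
  refine ⟨ℓ (‖h‖ • e), ‖h‖ • e, H.smul _ (norm_nonneg _) e he, fun z hz => ?_, rfl⟩
  have h1 : h z ≤ ‖h‖ := (le_abs_self _).trans (h.norm_coe_le_norm z)
  have h2 : T (‖h‖ • e) z = ‖h‖ * T e z := by simp
  rw [h2]
  nlinarith [he1 z hz, norm_nonneg h]

theorem Hyp.bddBelow (H : Hyp P ℓ T R) (h : C(Z, ℝ)) : BddBelow (vals P ℓ T R h) := by
  obtain ⟨e, he, he1⟩ := H.one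
  refine ⟨-(‖h‖ * ℓ e), ?_⟩
  rintro r ⟨a, ha, ha1, rfl⟩
  have h1 := H.key (a + ‖h‖ • e) (H.add _ ha _ (H.smul _ (norm_nonneg _) _ he)) (fun z hz => by
    have h1 : -‖h‖ ≤ h z := (abs_le.1 (h.norm_coe_le_norm z)).1
    have h2 : T (a + ‖h‖ • e) z = T a z + ‖h‖ * T e z := by simp
    rw [h2]
    nlinarith [he1 z hz, norm_nonneg h, ha1 z hz])
  simp only [map_add, map_smul, smul_eq_mul] at h1
  linarith

theorem Hyp.pp_le (H : Hyp P ℓ T R) {h : C(Z, ℝ)} {e : E} (he : e ∈ P)
    (h1 : ∀ z ∈ R, h z ≤ T e z) : pp P ℓ T R h ≤ ℓ e :=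
  csInf_le (H.bddBelow h) ⟨e, he, h1, rfl⟩

theorem Hyp.pp_add (H : Hyp P ℓ T R) (h k : C(Z, ℝ)) :
    pp P ℓ T R (h + k) ≤ pp P ℓ T R h + pp P ℓ T R k := by
  refine le_of_forall_pos_le_add fun ε hε => ?_
  obtain ⟨r, ⟨a, ha, ha1, rfl⟩, hr⟩ := exists_lt_of_csInf_lt (H.nonempty h)
    (show sInf (vals P ℓ T R h) < pp P ℓ T R h + ε / 2 by unfold pp; linarith)
  obtain ⟨s, ⟨b, hb, hb1, rfl⟩, hs⟩ := exists_lt_of_csInf_lt (H.nonempty k)
    (show sInf (vals P ℓ T R k) < pp P ℓ T R k + ε / 2 by unfold pp; linarith)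
  have h1 : pp P ℓ T R (h + k) ≤ ℓ (a + b) := H.pp_le (H.add a ha b hb) (fun z hz => by
    have := ha1 z hz
    have := hb1 z hz
    simp only [ContinuousMap.add_apply, map_add]
    linarith)
  rw [map_add] at h1
  linarith

theorem Hyp.pp_smul_le (H : Hyp P ℓ T R) {c : ℝ} (hc : 0 < c) (h : C(Z, ℝ)) :
    pp P ℓ T R (c • h) ≤ c * pp P ℓ T R h := by
  refine le_of_forall_pos_le_add fun ε hε => ?_
  obtain ⟨r, ⟨a, ha, ha1, rfl⟩, hr⟩ := exists_lt_of_csInf_lt (H.nonempty h)
    (show sInf (vals P ℓ T R h) < pp P ℓ T R h + ε / c by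
      unfold pp; have := div_pos hε hc; linarith)
  have h1 : pp P ℓ T R (c • h) ≤ ℓ (c • a) := H.pp_le (H.smul c hc.le a ha) (fun z hz => by
    have := ha1 z hz
    simp only [ContinuousMap.smul_apply, map_smul, smul_eq_mul]
    exact mul_le_mul_of_nonneg_left this hc.le)
  rw [map_smul, smul_eq_mul] at h1
  have h2 : c * ℓ a ≤ c * (pp P ℓ T R h + ε / c) := mul_le_mul_of_nonneg_left hr.le hc.le
  have h3 : c * (pp P ℓ T R h + ε / c) = c * pp P ℓ T R h + ε := by
    field_simp
  linarith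

theorem Hyp.pp_smul (H : Hyp P ℓ T R) {c : ℝ} (hc : 0 < c) (h : C(Z, ℝ)) :
    pp P ℓ T R (c • h) = c * pp P ℓ T R h := by
  refine le_antisymm (H.pp_smul_le hc h) ?_
  have h1 := H.pp_smul_le (inv_pos.2 hc) (c • h)
  rw [smul_smul, inv_mul_cancel₀ hc.ne', one_smul] at h1
  have h2 := mul_le_mul_of_nonneg_left h1 hc.le
  rw [← mul_assoc, mul_inv_cancel₀ hc.ne', one_mul] at h2
  exact h2

theorem Hyp.pp_nonpos (H : Hyp P ℓ T R) {h : C(Z, ℝ)} (hh : ∀ z ∈ R, h z ≤ 0) :
    pp P ℓ T R h ≤ 0 := by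
  have := H.pp_le (h := h) H.zero (fun z hz => by simpa using hh z hz)
  simpa using this

/-- **The main lemma**: Hahn-Banach and Riesz-Markov. -/
theorem Hyp.exists_measure [MeasurableSpace Z] [BorelSpace Z] (H : Hyp P ℓ T R) (hR : IsClosed R)
    (h₀ : C(Z, ℝ)) :
    ∃ π : Measure Z, IsFiniteMeasure π ∧ (∀ e ∈ P, ∫ z, T e z ∂π ≤ ℓ e) ∧ π Rᶜ = 0 ∧
      ∫ z, h₀ z ∂π = pp P ℓ T R h₀ := by
  have p0 : pp P ℓ T R 0 = 0 := by
    have h1 := H.pp_smul (c := 2) two_pos 0
    rw [smul_zero] at h1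
    linarith
  have pneg : ∀ h : C(Z, ℝ), - pp P ℓ T R (-h) ≤ pp P ℓ T R h := by
    intro h
    have h1 := H.pp_add h (-h)
    rw [add_neg_cancel, p0] at h1
    linarith
  -- the functional on the span of `h₀`
  have hH : ∀ c : ℝ, c • h₀ = 0 → (RingHom.id ℝ) c • pp P ℓ T R h₀ = 0 := by
    intro c hc
    rcases smul_eq_zero.1 hc with h | h
    · rw [h]
      simp
    · rw [h, p0]
      simp
  obtain ⟨f₀, hf₀e⟩ : ∃ f₀ : C(Z, ℝ) →ₗ.[ℝ] ℝ,
      f₀ = LinearPMap.mkSpanSingleton' h₀ (pp P ℓ T R h₀) hH := ⟨_, rfl⟩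
  have hf₀ : ∀ x : f₀.domain, f₀ x ≤ pp P ℓ T R x := by
    rw [hf₀e]
    rintro ⟨x, hx⟩
    obtain ⟨c, rfl⟩ := Submodule.mem_span_singleton.1 hx
    rw [LinearPMap.mkSpanSingleton'_apply]
    show c • pp P ℓ T R h₀ ≤ pp P ℓ T R (c • h₀)
    rw [smul_eq_mul]
    rcases lt_trichotomy c 0 with hc | hc | hc
    · have h1 := H.pp_smul (neg_pos.2 hc) h₀
      have h2 := pneg (c • h₀)
      rw [← neg_smul, h1] at h2
      linarith
    · subst hc
      simp [p0]
    · rw [H.pp_smul hc]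
  obtain ⟨Λ, hΛ1, hΛ2⟩ := exists_extension_of_le_sublinear f₀ (pp P ℓ T R)
    (fun c hc x => H.pp_smul hc x) H.pp_add hf₀
  have hΛ0 : Λ h₀ = pp P ℓ T R h₀ := by
    subst hf₀e
    have h1 := hΛ1 ⟨h₀, Submodule.mem_span_singleton_self h₀⟩
    rw [h1]
    exact LinearPMap.mkSpanSingleton'_apply_self _ _ _ _
  have hR0 : ∀ f : C(Z, ℝ), (∀ z ∈ R, 0 ≤ f z) → 0 ≤ Λ f := by
    intro f hf
    have h1 := (hΛ2 (-f)).trans (H.pp_nonpos (h := -f) (fun z hz => by simpa using hf z hz))
    rw [map_neg] at h1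
    linarith
  obtain ⟨π, hπ, hπ1⟩ := H825.Str.exists_measure Λ (fun f hf => hR0 f (fun z _ => hf z))
  refine ⟨π, hπ, fun e he => ?_, ?_, ?_⟩
  · rw [hπ1]
    exact (hΛ2 _).trans (H.pp_le he (fun z _ => le_rfl))
  · rcases R.eq_empty_or_nonempty with hRe | hRe
    · -- total mass zero
      subst hRe
      have h1 := hπ1 (ContinuousMap.const Z 1)
      have h2 := hR0 (-(ContinuousMap.const Z 1)) (fun z hz => hz.elim)
      rw [map_neg, ← h1] at h2
      simp only [ContinuousMap.const_apply, integral_const, smul_eq_mul, mul_one] at h2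
      have h3 : π.real univ = 0 := le_antisymm (by linarith) measureReal_nonneg
      rw [compl_empty]
      exact (measureReal_eq_zero_iff (measure_ne_top π _)).1 h3
    · have hc : Continuous fun z : Z => Metric.infDist z R := Metric.continuous_infDist_pt R
      have h1 := hπ1 ⟨fun z => Metric.infDist z R, hc⟩
      have h2 := hR0 (-(⟨fun z => Metric.infDist z R, hc⟩ : C(Z, ℝ))) (fun z hz => by
        simp [Metric.infDist_zero_of_mem hz])
      rw [map_neg, ← h1] at h2
      have h3 : ∫ z, Metric.infDist z R ∂π = 0 := by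
        refine le_antisymm ?_ (integral_nonneg fun z => Metric.infDist_nonneg)
        simp only [ContinuousMap.coe_mk] at h2
        linarith
      have hint : Integrable (fun z => Metric.infDist z R) π := by
        have := (BoundedContinuousFunction.mkOfCompact
          (⟨fun z => Metric.infDist z R, hc⟩ : C(Z, ℝ))).integrable π
        exact this
      have h4 := (integral_eq_zero_iff_of_nonneg (fun z => Metric.infDist_nonneg) hint).1 h3
      have h5 : ∀ᵐ z ∂π, z ∈ R := by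
        filter_upwards [h4] with z hz
        have hz' : Metric.infDist z R = 0 := hz
        rwa [hR.mem_iff_infDist_zero hRe]
      exact h5
  · rw [hπ1, hΛ0]

end abs

section cpt

variable {X Y : Type*} [MetricSpace X] [CompactSpace X] [MeasurableSpace X] [BorelSpace X]
  [MetricSpace Y] [CompactSpace Y] [MeasurableSpace Y] [BorelSpace Y]

theorem integrable_cont (μ : Measure X) [IsFiniteMeasure μ] (f : C(X, ℝ)) :
    Integrable (fun x => f x) μ :=
  (BoundedContinuousFunction.mkOfCompact f).integrable μ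

/-- the integral as a linear map -/
noncomputable def intL (μ : Measure X) [IsFiniteMeasure μ] : C(X, ℝ) →ₗ[ℝ] ℝ where
  toFun f := ∫ x, f x ∂μ
  map_add' f g := by
    simp only [ContinuousMap.add_apply]
    exact integral_add (integrable_cont μ f) (integrable_cont μ g)
  map_smul' c f := by
    simp only [ContinuousMap.smul_apply, smul_eq_mul, RingHom.id_apply]
    exact integral_const_mul c _

@[simp] theorem intL_apply (μ : Measure X) [IsFiniteMeasure μ] (f : C(X, ℝ)) :
    intL μ f = ∫ x, f x ∂μ := rfl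

/-- `(f, g) ↦ f x + g y` -/
noncomputable def sumL : (C(X, ℝ) × C(Y, ℝ)) →ₗ[ℝ] C(X × Y, ℝ) where
  toFun e := ⟨fun z => e.1 z.1 + e.2 z.2, by fun_prop⟩
  map_add' e e' := by
    ext z
    simp only [ContinuousMap.coe_mk, ContinuousMap.add_apply, Prod.fst_add, Prod.snd_add]
    ring
  map_smul' c e := by
    ext z
    simp only [ContinuousMap.coe_mk, ContinuousMap.smul_apply, Prod.smul_fst, Prod.smul_snd,
      smul_eq_mul, RingHom.id_apply]
    ring

omit [MeasurableSpace X] [BorelSpace X] [MeasurableSpace Y] [BorelSpace Y] in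
@[simp] theorem sumL_apply (e : C(X, ℝ) × C(Y, ℝ)) (z : X × Y) :
    sumL e z = e.1 z.1 + e.2 z.2 := rfl

/-- `(f, g) ↦ ∫ f dμ + ∫ g dν` -/
noncomputable def intL2 (μ : Measure X) [IsFiniteMeasure μ] (ν : Measure Y) [IsFiniteMeasure ν] :
    (C(X, ℝ) × C(Y, ℝ)) →ₗ[ℝ] ℝ :=
  (intL μ).comp (LinearMap.fst ℝ _ _) + (intL ν).comp (LinearMap.snd ℝ _ _)

@[simp] theorem intL2_apply (μ : Measure X) [IsFiniteMeasure μ] (ν : Measure Y) [IsFiniteMeasure ν]
    (e : C(X, ℝ) × C(Y, ℝ)) : intL2 μ ν e = ∫ x, e.1 x ∂μ + ∫ y, e.2 y ∂ν := rfl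

/-- the layer cake step -/
theorem key_strassen (μ : Measure X) [IsFiniteMeasure μ] (ν : Measure Y) [IsFiniteMeasure ν]
    (R : Set (X × Y))
    (h : ∀ A : Set X, IsCompact A → μ A ≤ ν {y | ∃ x ∈ A, (x, y) ∈ R})
    (e : C(X, ℝ) × C(Y, ℝ)) (he : ∀ y, 0 ≤ e.2 y) (hR : ∀ z ∈ R, 0 ≤ sumL e z) :
    0 ≤ intL2 μ ν e := by
  set F : C(X, ℝ) := ⟨fun x => max (-(e.1 x)) 0, by fun_prop⟩ with hF
  have hFa : ∀ x, F x = max (-(e.1 x)) 0 := fun x => rfl
  have hF0 : ∀ x, 0 ≤ F x := fun x => le_max_right _ _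
  have h1 : ∫⁻ x, ENNReal.ofReal (F x) ∂μ ≤ ∫⁻ y, ENNReal.ofReal (e.2 y) ∂ν := by
    rw [lintegral_eq_lintegral_meas_le μ (Eventually.of_forall hF0)
        F.continuous.measurable.aemeasurable,
      lintegral_eq_lintegral_meas_le ν (Eventually.of_forall he)
        e.2.continuous.measurable.aemeasurable]
    refine setLIntegral_mono' measurableSet_Ioi fun t ht => ?_
    refine (h {x | t ≤ F x} ((isClosed_le continuous_const F.continuous).isCompact)).trans
      (measure_mono ?_)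
    rintro y ⟨x, hx, hxy⟩
    have h2 := hR _ hxy
    rw [sumL_apply] at h2
    have h3 : t ≤ max (-(e.1 x)) 0 := hx
    have h4 : t ≤ -(e.1 x) := by
      rcases le_max_iff.1 h3 with h | h
      · exact h
      · exact absurd h (not_le.2 ht)
    show t ≤ e.2 y
    simp only at h2
    linarith
  have h2 : ∫ x, F x ∂μ ≤ ∫ y, e.2 y ∂ν := by
    rw [integral_eq_lintegral_of_nonneg_ae (Eventually.of_forall hF0)
        F.continuous.aestronglyMeasurable,
      integral_eq_lintegral_of_nonneg_ae (Eventually.of_forall he)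
        e.2.continuous.aestronglyMeasurable]
    refine ENNReal.toReal_mono ?_ h1
    exact ((integrable_cont ν e.2).lintegral_lt_top).ne
  have h3 : -∫ x, e.1 x ∂μ ≤ ∫ x, F x ∂μ := by
    rw [← integral_neg]
    exact integral_mono (integrable_cont μ e.1).neg (integrable_cont μ F)
      (fun x => le_max_left _ _)
  rw [intL2_apply]
  linarith

/-- comparison of measures by continuous functions -/
theorem le_of_integral_le (ν₁ ν₂ : Measure Y) [IsFiniteMeasure ν₁] [IsFiniteMeasure ν₂]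
    (h : ∀ g : C(Y, ℝ), (∀ y, 0 ≤ g y) → ∫ y, g y ∂ν₁ ≤ ∫ y, g y ∂ν₂) : ν₁ ≤ ν₂ := by
  have hcl : ∀ F : Set Y, IsClosed F → ν₁ F ≤ ν₂ F := by
    intro F hF
    have h1 := fun n => h ⟨fun y => (hF.apprSeq n y : ℝ), by
      have := (hF.apprSeq n).continuous
      fun_prop⟩ (fun y => NNReal.coe_nonneg _)
    have h2 : ∀ n, ∫⁻ y, (hF.apprSeq n y : ℝ≥0∞) ∂ν₁ ≤ ∫⁻ y, (hF.apprSeq n y : ℝ≥0∞) ∂ν₂ := by
      intro n
      have h3 := h1 n
      simp only [ContinuousMap.coe_mk] at h3
      rw [← BoundedContinuousFunction.toReal_lintegral_coe_eq_integral,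
        ← BoundedContinuousFunction.toReal_lintegral_coe_eq_integral] at h3
      exact (ENNReal.toReal_le_toReal
        (BoundedContinuousFunction.lintegral_lt_top_of_nnreal _ _).ne
        (BoundedContinuousFunction.lintegral_lt_top_of_nnreal _ _).ne).1 h3
    exact le_of_tendsto_of_tendsto' (HasOuterApproxClosed.tendsto_lintegral_apprSeq hF ν₁)
      (HasOuterApproxClosed.tendsto_lintegral_apprSeq hF ν₂) h2
  refine Measure.le_iff.2 fun A hA => ?_
  rw [hA.measure_eq_iSup_isClosed_of_ne_top (measure_ne_top ν₁ A)]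
  refine iSup₂_le fun F hF => iSup_le fun hF' => ?_
  exact (hcl F hF').trans (measure_mono hF)

/-- **Strassen's theorem, compact case.** -/
theorem strassen_compact (μ : Measure X) [IsFiniteMeasure μ] (ν : Measure Y) [IsFiniteMeasure ν]
    (R : Set (X × Y)) (hRc : IsClosed R)
    (h : ∀ A : Set X, IsCompact A → μ A ≤ ν {y | ∃ x ∈ A, (x, y) ∈ R}) :
    ∃ π : Measure (X × Y), IsFiniteMeasure π ∧ π.map Prod.fst = μ ∧ π.map Prod.snd ≤ ν ∧
      π Rᶜ = 0 := by
  have H : Hyp {e : C(X, ℝ) × C(Y, ℝ) | ∀ y, 0 ≤ e.2 y} (intL2 μ ν) sumL R :=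
    { zero := fun y => le_rfl
      add := fun a ha b hb y => add_nonneg (ha y) (hb y)
      smul := fun c hc a ha y => mul_nonneg hc (ha y)
      key := fun e he hR => key_strassen μ ν R h e he hR
      one := ⟨(ContinuousMap.const X 1, 0), fun y => le_rfl, fun z hz => by simp⟩ }
  obtain ⟨π, hπ, hπ1, hπ2, -⟩ := H.exists_measure hRc 0
  refine ⟨π, hπ, ?_, ?_, hπ2⟩
  · refine ext_of_forall_integral_eq_of_IsFiniteMeasure fun f => ?_
    rw [integral_map measurable_fst.aemeasurable f.continuous.aestronglyMeasurable]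
    have h1 := hπ1 (f.toContinuousMap, 0) (fun y => le_rfl)
    have h2 := hπ1 (-f.toContinuousMap, 0) (fun y => le_rfl)
    simp only [sumL_apply, intL2_apply, ContinuousMap.zero_apply, add_zero, integral_zero,
      ContinuousMap.neg_apply, integral_neg] at h1 h2
    exact le_antisymm h1 (neg_le_neg_iff.1 h2)
  · refine le_of_integral_le _ _ fun g hg => ?_
    rw [integral_map measurable_snd.aemeasurable g.continuous.aestronglyMeasurable]
    have h1 := hπ1 (0, g) hg
    simpa only [sumL_apply, intL2_apply, ContinuousMap.zero_apply, zero_add, integral_zero] using h1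

/-- **Kantorovich duality for continuous costs on compact spaces, with an optimal coupling**: there
is a coupling `π` whose cost is the infimum over all couplings and the supremum of the dual
problem. -/
theorem kantorovich_compact (μ : Measure X) [IsFiniteMeasure μ] (ν : Measure Y) [IsFiniteMeasure ν]
    (hm : μ univ = ν univ) (c : C(X × Y, ℝ)) :
    ∃ π : Measure (X × Y), IsFiniteMeasure π ∧ π.map Prod.fst = μ ∧ π.map Prod.snd = ν ∧
      ∀ ε : ℝ, 0 < ε → ∃ (f : C(X, ℝ)) (g : C(Y, ℝ)), (∀ x y, f x + g y ≤ c (x, y)) ∧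
        ∫ z, c z ∂π ≤ ∫ x, f x ∂μ + ∫ y, g y ∂ν + ε := by
  rcases isEmpty_or_nonempty X with hX | hX
  · have hμ : μ = 0 := Measure.eq_zero_of_isEmpty μ
    have hν : ν = 0 := by
      rw [hμ] at hm
      exact Measure.measure_univ_eq_zero.1 (by simpa using hm.symm)
    subst hμ
    subst hν
    refine ⟨0, inferInstance, by simp, by simp, fun ε hε => ⟨0, 0, fun x => (hX.false x).elim, ?_⟩⟩
    simp [hε.le]
  rcases isEmpty_or_nonempty Y with hY | hY
  · have hν : ν = 0 := Measure.eq_zero_of_isEmpty ν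
    have hμ : μ = 0 := by
      rw [hν] at hm
      exact Measure.measure_univ_eq_zero.1 (by simpa using hm)
    subst hμ
    subst hν
    refine ⟨0, inferInstance, by simp, by simp, fun ε hε => ⟨0, 0, fun x y => (hY.false y).elim, ?_⟩⟩
    simp [hε.le]
  have hm' : μ.real univ = ν.real univ := by
    simp only [measureReal_def, hm]
  have H : Hyp (univ : Set (C(X, ℝ) × C(Y, ℝ))) (intL2 μ ν) sumL univ :=
    { zero := mem_univ _
      add := fun _ _ _ _ => mem_univ _
      smul := fun _ _ _ _ => mem_univ _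
      key := fun e _ hR => by
        rw [intL2_apply]
        -- choose a minimum of `e.2`
        obtain ⟨y₀, -, hy₀⟩ := isCompact_univ.exists_isMinOn (univ_nonempty (α := Y))
          e.2.continuous.continuousOn
        have h1 : ∀ x, -(e.2 y₀) ≤ e.1 x := fun x => by
          have := hR (x, y₀) (mem_univ _)
          rw [sumL_apply] at this
          linarith
        have h2 : ∫ x, (-(e.2 y₀)) ∂μ ≤ ∫ x, e.1 x ∂μ :=
          integral_mono (integrable_const _) (integrable_cont μ e.1) h1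
        have h3 : ∫ y, e.2 y₀ ∂ν ≤ ∫ y, e.2 y ∂ν :=
          integral_mono (integrable_const _) (integrable_cont ν e.2) (fun y => hy₀ (mem_univ y))
        simp only [integral_const, smul_eq_mul] at h2 h3
        rw [hm'] at h2
        nlinarith
      one := ⟨(ContinuousMap.const X 1, 0), mem_univ _, fun z hz => by simp⟩ }
  obtain ⟨π, hπ, hπ1, -, hπ3⟩ := H.exists_measure isClosed_univ (-c)
  refine ⟨π, hπ, ?_, ?_, fun ε hε => ?_⟩
  · refine ext_of_forall_integral_eq_of_IsFiniteMeasure fun f => ?_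
    rw [integral_map measurable_fst.aemeasurable f.continuous.aestronglyMeasurable]
    have h1 := hπ1 (f.toContinuousMap, 0) (mem_univ _)
    have h2 := hπ1 (-f.toContinuousMap, 0) (mem_univ _)
    simp only [sumL_apply, intL2_apply, ContinuousMap.zero_apply, add_zero, integral_zero,
      ContinuousMap.neg_apply, integral_neg] at h1 h2
    exact le_antisymm h1 (neg_le_neg_iff.1 h2)
  · refine ext_of_forall_integral_eq_of_IsFiniteMeasure fun f => ?_
    rw [integral_map measurable_snd.aemeasurable f.continuous.aestronglyMeasurable]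
    have h1 := hπ1 (0, f.toContinuousMap) (mem_univ _)
    have h2 := hπ1 (0, -f.toContinuousMap) (mem_univ _)
    simp only [sumL_apply, intL2_apply, ContinuousMap.zero_apply, zero_add, integral_zero,
      ContinuousMap.neg_apply, integral_neg] at h1 h2
    exact le_antisymm h1 (neg_le_neg_iff.1 h2)
  · obtain ⟨r, ⟨a, -, ha1, rfl⟩, hr⟩ := exists_lt_of_csInf_lt (H.nonempty (-c))
      (show sInf (vals univ (intL2 μ ν) sumL univ (-c)) <
        pp univ (intL2 μ ν) sumL univ (-c) + ε by unfold pp; linarith)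
    refine ⟨-a.1, -a.2, fun x y => ?_, ?_⟩
    · have := ha1 (x, y) (mem_univ _)
      simp only [ContinuousMap.neg_apply, sumL_apply] at this ⊢
      linarith
    · rw [← hπ3] at hr
      simp only [ContinuousMap.neg_apply, integral_neg, intL2_apply] at hr ⊢
      linarith

end cpt

section gen

set_option linter.unusedSectionVars false

variable {X Y : Type*} [MetricSpace X] [MeasurableSpace X] [BorelSpace X]
  [SecondCountableTopology X] [MetricSpace Y] [MeasurableSpace Y] [BorelSpace Y]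
  [SecondCountableTopology Y]

omit [MetricSpace X] [BorelSpace X] [SecondCountableTopology X] in
theorem map_comap_val {K : Set X} (hK : MeasurableSet K) (μ : Measure X) (hμ : μ Kᶜ = 0) :
    (μ.comap (Subtype.val : K → X)).map Subtype.val = μ := by
  rw [(MeasurableEmbedding.subtype_coe hK).map_comap, Subtype.range_coe]
  exact Measure.restrict_eq_self_of_ae_mem hμ

/-- **Strassen's theorem** for measures carried by compact sets. -/
theorem strassen (μ : Measure X) [IsFiniteMeasure μ] {K : Set X} (hK : IsCompact K)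
    (hμ : μ Kᶜ = 0) (ν : Measure Y) {L : Set Y} (hL : IsCompact L) (hν : ν L ≠ ⊤)
    (R : Set (X × Y)) (hR : IsClosed R)
    (h : ∀ A : Set X, A ⊆ K → IsCompact A → μ A ≤ ν {y | y ∈ L ∧ ∃ x ∈ A, (x, y) ∈ R}) :
    ∃ π : Measure (X × Y), IsFiniteMeasure π ∧ π.map Prod.fst = μ ∧
      π.map Prod.snd ≤ ν.restrict L ∧ ∀ᵐ z ∂π, z ∈ R ∧ z.1 ∈ K ∧ z.2 ∈ L := by
  have : CompactSpace K := isCompact_iff_compactSpace.1 hK
  have : CompactSpace L := isCompact_iff_compactSpace.1 hL
  have eK := MeasurableEmbedding.subtype_coe hK.measurableSet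
  have eL := MeasurableEmbedding.subtype_coe hL.measurableSet
  set μ' : Measure K := μ.comap Subtype.val with hμ'
  set ν' : Measure L := ν.comap Subtype.val with hν'
  have : IsFiniteMeasure μ' := ⟨by
    rw [hμ', eK.comap_apply]
    exact measure_lt_top _ _⟩
  have : IsFiniteMeasure ν' := ⟨by
    rw [hν', eL.comap_apply, image_univ, Subtype.range_coe]
    exact lt_top_iff_ne_top.2 hν⟩
  have hR' : IsClosed {z : K × L | ((z.1 : X), (z.2 : Y)) ∈ R} :=
    hR.preimage (by fun_prop)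
  obtain ⟨π', hπ', h1, h2, h3⟩ := strassen_compact μ' ν' {z : K × L | ((z.1 : X), (z.2 : Y)) ∈ R}
    hR' (fun A hA => by
      rw [hμ', hν', eK.comap_apply, eL.comap_apply]
      refine (h (Subtype.val '' A) (by rintro _ ⟨x, -, rfl⟩; exact x.2)
        (hA.image continuous_subtype_val)).trans (measure_mono ?_)
      rintro y ⟨hy, x, ⟨x', hx', rfl⟩, hxy⟩
      exact ⟨⟨y, hy⟩, ⟨x', hx', hxy⟩, rfl⟩)
  have hm : Measurable (fun z : K × L => ((z.1 : X), (z.2 : Y))) := by fun_prop
  refine ⟨π'.map (fun z : K × L => ((z.1 : X), (z.2 : Y))), inferInstance, ?_, ?_, ?_⟩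
  · rw [Measure.map_map measurable_fst hm]
    have e : (Prod.fst ∘ fun z : K × L => ((z.1 : X), (z.2 : Y))) = Subtype.val ∘ Prod.fst := rfl
    rw [e, ← Measure.map_map measurable_subtype_coe measurable_fst, h1, hμ']
    exact map_comap_val hK.measurableSet μ hμ
  · rw [Measure.map_map measurable_snd hm]
    have e : (Prod.snd ∘ fun z : K × L => ((z.1 : X), (z.2 : Y))) = Subtype.val ∘ Prod.snd := rfl
    rw [e, ← Measure.map_map measurable_subtype_coe measurable_snd]
    refine (Measure.map_mono h2 measurable_subtype_coe).trans ?_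
    rw [hν', eL.map_comap, Subtype.range_coe]
  · rw [ae_map_iff hm.aemeasurable]
    · have h4 : ∀ᵐ z ∂π', z ∈ {z : K × L | ((z.1 : X), (z.2 : Y)) ∈ R} := h3
      filter_upwards [h4] with z hz
      exact ⟨hz, z.1.2, z.2.2⟩
    · exact (hR.measurableSet).inter ((hK.measurableSet.preimage measurable_fst).inter
        (hL.measurableSet.preimage measurable_snd))

/-- **Kantorovich duality** for measures carried by compact sets, with an optimal coupling -/
theorem kantorovich (μ : Measure X) [IsFiniteMeasure μ] {K : Set X} (hK : IsCompact K)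
    (hμ : μ Kᶜ = 0) (ν : Measure Y) [IsFiniteMeasure ν] {L : Set Y} (hL : IsCompact L)
    (hν : ν Lᶜ = 0) (hm : μ univ = ν univ) (c : X × Y → ℝ) (hc : ContinuousOn c (K ×ˢ L)) :
    ∃ π : Measure (X × Y), IsFiniteMeasure π ∧ π.map Prod.fst = μ ∧ π.map Prod.snd = ν ∧
      (∀ᵐ z ∂π, z.1 ∈ K ∧ z.2 ∈ L) ∧
      ∀ ε : ℝ, 0 < ε → ∃ (f : C(K, ℝ)) (g : C(L, ℝ)),
        (∀ x y, f x + g y ≤ c ((x : X), (y : Y))) ∧
        ∫ z, c z ∂π ≤ ∫ x, f x ∂(μ.comap Subtype.val) + ∫ y, g y ∂(ν.comap Subtype.val) + ε := by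
  have : CompactSpace K := isCompact_iff_compactSpace.1 hK
  have : CompactSpace L := isCompact_iff_compactSpace.1 hL
  have eK := MeasurableEmbedding.subtype_coe hK.measurableSet
  have eL := MeasurableEmbedding.subtype_coe hL.measurableSet
  set μ' : Measure K := μ.comap Subtype.val with hμ'
  set ν' : Measure L := ν.comap Subtype.val with hν'
  have : IsFiniteMeasure μ' := ⟨by
    rw [hμ', eK.comap_apply]
    exact measure_lt_top _ _⟩
  have : IsFiniteMeasure ν' := ⟨by
    rw [hν', eL.comap_apply]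
    exact measure_lt_top _ _⟩
  have hKL : IsCompact (K ×ˢ L) := hK.prod hL
  have hm : Measurable (fun z : K × L => ((z.1 : X), (z.2 : Y))) := by fun_prop
  have hcc : Continuous (fun z : K × L => c ((z.1 : X), (z.2 : Y))) :=
    hc.comp_continuous (by fun_prop) (fun z => ⟨z.1.2, z.2.2⟩)
  have hmm : μ' univ = ν' univ := by
    rw [hμ', hν', eK.comap_apply, eL.comap_apply, image_univ, image_univ, Subtype.range_coe,
      Subtype.range_coe, measure_of_measure_compl_eq_zero hμ,
      measure_of_measure_compl_eq_zero hν]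
    assumption
  obtain ⟨π', hπ', h1, h2, h3⟩ := kantorovich_compact μ' ν' hmm ⟨_, hcc⟩
  refine ⟨π'.map (fun z : K × L => ((z.1 : X), (z.2 : Y))), inferInstance, ?_, ?_, ?_, ?_⟩
  · rw [Measure.map_map measurable_fst hm]
    have e : (Prod.fst ∘ fun z : K × L => ((z.1 : X), (z.2 : Y))) = Subtype.val ∘ Prod.fst := rfl
    rw [e, ← Measure.map_map measurable_subtype_coe measurable_fst, h1, hμ']
    exact map_comap_val hK.measurableSet μ hμ
  · rw [Measure.map_map measurable_snd hm]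
    have e : (Prod.snd ∘ fun z : K × L => ((z.1 : X), (z.2 : Y))) = Subtype.val ∘ Prod.snd := rfl
    rw [e, ← Measure.map_map measurable_subtype_coe measurable_snd, h2, hν']
    exact map_comap_val hL.measurableSet ν hν
  · rw [ae_map_iff hm.aemeasurable]
    · exact Eventually.of_forall fun z => ⟨z.1.2, z.2.2⟩
    · exact (hK.measurableSet.preimage measurable_fst).inter
        (hL.measurableSet.preimage measurable_snd)
  · intro ε hε
    obtain ⟨f, g, hfg, hle⟩ := h3 ε hε
    refine ⟨f, g, fun x y => hfg x y, ?_⟩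
    have hemb : MeasurableEmbedding (fun z : K × L => ((z.1 : X), (z.2 : Y))) := eK.prodMap eL
    rw [hemb.integral_map]
    exact hle

end gen

end H825.Str
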