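import Vale.Agent.P233.H825.Ctl
import Vale.Agent.P233.H825.BlkD4c

/-! P233, block E6b: continuity in the centre (helper825). -/

set_option linter.all false

open MeasureTheory Filter Topology Set
open scoped ENNReal NNReal InnerProductSpace

universe u

namespace Vale.Agent.P233.H825

open Vale.Agent.P233.PD

section

variable {M : Type u} [MetricSpace M] [MeasurableSpace M] [BorelSpace M]
  [SecondCountableTopology M] {m : Measure M}

theorem dtr_range (q : M) {r : ℝ} (hr : 0 ≤ r) (x : M) : -r ≤ dtr q r x ∧ dtr q r x ≤ 0 := by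
  unfold dtr
  have h1 : 0 ≤ min (dist q x) r := le_min dist_nonneg hr
  have h2 : min (dist q x) r ≤ r := min_le_right _ _
  constructor <;> linarith

/-- the radius of the support of the potential -/
noncomputable def rr (s₀ C₀ : ℝ) : ℝ := √(2 * C₀ * (1 + s₀))

theorem rr_sq {s₀ C₀ : ℝ} (hs : 0 < s₀) (hC : 0 < C₀) : rr s₀ C₀ ^ 2 = 2 * C₀ * (1 + s₀) :=
  Real.sq_sqrt (by positivity)

theorem rr_pos {s₀ C₀ : ℝ} (hs : 0 < s₀) (hC : 0 < C₀) : 0 < rr s₀ C₀ :=
  Real.sqrt_pos.2 (by positivity)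

theorem lt_rr {s₀ C₀ : ℝ} (hs : 0 < s₀) (hC : 0 < C₀) (q x : M) :
    dist q x ^ 2 < 2 * C₀ * (1 + s₀) ↔ dist q x < rr s₀ C₀ := by
  rw [← rr_sq hs hC]
  exact sq_lt_sq₀ dist_nonneg (rr_pos hs hC).le

theorem zr_eq {s₀ C₀ : ℝ} (hs : 0 < s₀) (hC : 0 < C₀) (q x : M) :
    zr q s₀ C₀ 1 x = (dtr q (rr s₀ C₀) x + rr s₀ C₀) ^ 2 / (2 * (1 + s₀)) - C₀ := by
  unfold zr dtr
  have h1 : 0 < 1 + s₀ := by linarith
  have e : min (dist q x) (rr s₀ C₀) - rr s₀ C₀ + rr s₀ C₀ = min (dist q x) (rr s₀ C₀) := by ring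
  rw [e]
  rcases lt_or_ge (dist q x) (rr s₀ C₀) with h | h
  · rw [min_eq_left h.le, min_eq_left]
    have h2 := (lt_rr hs hC q x).2 h
    rw [sub_nonpos, div_le_iff₀ (by positivity)]
    linarith
  · rw [min_eq_right h, rr_sq hs hC]
    have h2 : 2 * C₀ * (1 + s₀) ≤ dist q x ^ 2 := by
      rw [← not_lt, lt_rr hs hC]
      exact not_lt.2 h
    rw [min_eq_right]
    · field_simp
      ring
    · rw [sub_nonneg, le_div_iff₀ (by positivity)]
      linarith

theorem zr_cont {s₀ C₀ : ℝ} (q : M) : Continuous (zr q s₀ C₀ 1) := by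
  unfold zr
  fun_prop

/-- the coefficient in `∇ zr = c ∇ d_q` -/
noncomputable def cq (m : Measure M) (s₀ C₀ : ℝ) (q : M) : M →ₘ[m] ℝ :=
  AEEqFun.comp (fun τ : ℝ => (τ + rr s₀ C₀) / (1 + s₀)) (by fun_prop) (dp m q (rr s₀ C₀))

theorem cq_ae (m : Measure M) (s₀ C₀ : ℝ) (q : M) :
    ∀ᵐ x ∂m, cq m s₀ C₀ q x = (dtr q (rr s₀ C₀) x + rr s₀ C₀) / (1 + s₀) := by
  unfold cq
  filter_upwards [AEEqFun.coeFn_comp (fun τ : ℝ => (τ + rr s₀ C₀) / (1 + s₀)) (by fun_prop)
    (dp m q (rr s₀ C₀)), dp_ae m q (rr s₀ C₀)] with x h1 h2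
  rw [h1, Function.comp, h2]

/-- the gradient of the potential -/
theorem zr_Γ (hD : IsDir (sob m)) (hfin : ∀ (x : M) (r : ℝ), m (Metric.ball x r) < ∞) {s₀ C₀ : ℝ}
    (hs : 0 < s₀) (hC : 0 < C₀) (q : M) :
    ∀ g ∈ (sob m).W, (sob m).Γ (cl m (zr q s₀ C₀ 1)) g
      = cq m s₀ C₀ q * (sob m).Γ (dp m q (rr s₀ C₀)) g := by
  have hr := rr_pos hs hC
  have h1s : 0 < 1 + s₀ := by linarith
  set r := rr s₀ C₀ with hr'
  have hb : ∀ᵐ x ∂m, -r ≤ dp m q r x ∧ dp m q r x ≤ 0 := by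
    filter_upwards [dp_ae m q r] with x hx
    rw [hx]
    exact dtr_range q hr.le x
  set φ : ℝ → ℝ := fun τ => (τ + r) ^ 2 / (2 * (1 + s₀)) - C₀ with hφ
  have hφc : Continuous φ := by rw [hφ]; fun_prop
  have hφc' : Continuous (fun τ : ℝ => (τ + r) / (1 + s₀)) := by fun_prop
  have hd : ∀ t ∈ Set.Icc (-r) 0, HasDerivWithinAt φ ((t + r) / (1 + s₀)) (Set.Icc (-r) 0) t := by
    intro t _
    refine HasDerivAt.hasDerivWithinAt ?_
    have h2 : HasDerivAt φ (2 * (t + r) / (2 * (1 + s₀))) t := by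
      have h3 := ((((hasDerivAt_id' t).add_const r).fun_pow 2).div_const (2 * (1 + s₀))).sub_const C₀
      rw [hφ]
      simpa using h3
    have e : 2 * (t + r) / (2 * (1 + s₀)) = (t + r) / (1 + s₀) := by field_simp
    rwa [e] at h2
  have h0 : φ 0 = 0 := by
    rw [hφ]
    simp only [zero_add]
    rw [rr_sq hs hC]
    field_simp
    ring
  obtain ⟨h1, h2⟩ := hD.hc_chain (dp_mem hfin q r) (by linarith) le_rfl hb hφc hφc' hd h0
  have e : cl m (zr q s₀ C₀ 1) = AEEqFun.comp φ hφc (dp m q r) := by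
    have hm : AEStronglyMeasurable (zr q s₀ C₀ 1) m := (zr_cont q).measurable.aestronglyMeasurable
    unfold cl
    rw [dif_pos hm, eq_iff_ae]
    filter_upwards [AEEqFun.coeFn_mk _ hm, AEEqFun.coeFn_comp φ hφc (dp m q r), dp_ae m q r]
      with x a1 a2 a3
    rw [a1, a2, Function.comp, a3, zr_eq hs hC]
  intro g hg
  rw [e, h2 g hg]
  rfl

theorem wH_zr (hD : IsDir (sob m)) (hfin : ∀ (x : M) (r : ℝ), m (Metric.ball x r) < ∞) {s₀ C₀ : ℝ}
    (hs : 0 < s₀) (hC : 0 < C₀) (q : M) {h w : M →ₘ[m] ℝ} (hh : h ∈ (sob m).W)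
    (hhh : (sob m).Γ h h ∈ (sob m).W) :
    (sob m).wH (cl m (zr q s₀ C₀ 1)) h w
      = -I ((cq m s₀ C₀ q * (w * (sob m).lap h + (sob m).Γ h w)) * (sob m).Γ (dp m q (rr s₀ C₀)) h)
        - 2⁻¹ * I ((cq m s₀ C₀ q * w) * (sob m).Γ (dp m q (rr s₀ C₀)) ((sob m).Γ h h)) := by
  unfold Calc.wH
  rw [zr_Γ hD hfin hs hC q _ hh, zr_Γ hD hfin hs hC q _ hhh]
  congr 2
  · congr 1
    ring
  · congr 1
    ring

/-- spheres are null sets -/
theorem sphere_null (hfin : ∀ (x : M) (r : ℝ), m (Metric.ball x r) < ∞) (hD : IsDir (sob m)) {p : M}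
    (hU : ∀ R, 0 < R → ∀ᵐ x ∂m, dist p x < R → (sob m).Γ (dp m p R) (dp m p R) x = 1) (c : ℝ) :
    ∀ᵐ x ∂m, dist p x ≠ c := by
  set R := |c| + 1 with hR
  have hR0 : 0 < R := by positivity
  have hcR : c < R := by
    have := le_abs_self c
    linarith
  filter_upwards [hU R hR0, Met.mslope_eq_zero_of_eq_const (mem_sob_iff.1 (dp_mem hfin p R)) (c - R),
    sob_Γ_self_ae (dp_mem hfin p R), dp_ae m p R] with x a1 a2 a3 a4 hc
  have h1 : dist p x < R := by rw [hc]; exact hcR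
  have h2 : dp m p R x = c - R := by
    rw [a4]
    unfold dtr
    rw [min_eq_left h1.le, hc]
  rw [a3, a2 h2] at a1
  have := a1 h1
  norm_num at this

theorem dp_Γ_le (hfin : ∀ (x : M) (r : ℝ), m (Metric.ball x r) < ∞) (p : M) (R : ℝ) :
    ∀ᵐ x ∂m, (sob m).Γ (dp m p R) (dp m p R) x ≤ 1 := by
  have hW := dp_mem (m := m) hfin p R
  have h1 := slope_le_of_lipschitz hfin hW (dp_ae m p R) (dtr_lip p R)
  rw [le_iff_ae] at h1
  filter_upwards [h1, sob_Γ_self_ae hW, slope_ae hW, smul_ae (1 : M →ₘ[m] ℝ) ((1 : ℝ≥0) : ℝ),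
    one_ae (M := M) (m := m), (mem_sob_iff.1 hW).mslope_nonneg] with x a1 a2 a3 a4 a5 a6
  rw [a3, a4, a5] at a1
  rw [a2]
  simp only [NNReal.coe_one, mul_one] at a1
  nlinarith

variable {E : Type*} [NormedAddCommGroup E] [InnerProductSpace ℝ E]

theorem Gr_sub {C : Calc m} (hD : IsDir C) {Gr : (M →ₘ[m] ℝ) → M → E} (hG : IsGrad C Gr)
    {f g : M →ₘ[m] ℝ} (hf : f ∈ C.W) (hg : g ∈ C.W) :
    ∀ᵐ x ∂m, Gr (f - g) x = Gr f x - Gr g x := by
  have h := hG.lin2 hD hf hg (hD.sub_mem hf hg) (a := fun _ => 1) (b := fun _ => -1) (by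
    intro k hk
    rw [hD.Γ_sub_left hf hg hk]
    filter_upwards [sub_ae (C.Γ f k) (C.Γ g k)] with x hx
    rw [hx]; ring)
  filter_upwards [h] with x hx
  rw [hx, one_smul, neg_one_smul, sub_eq_add_neg]

/-- the truncated distance functions converge in `W` -/
theorem TW_dp (hfin : ∀ (x : M) (r : ℝ), m (Metric.ball x r) < ∞) (hD : IsDir (sob m))
    {Gr : (M →ₘ[m] ℝ) → M → E} (hG : IsGrad (sob m) Gr) {p : M} {r : ℝ} (hr : 0 < r)
    {pn : ℕ → M} (hpn1 : ∀ n, dist (pn n) p < 1) (hpn : Tendsto pn atTop (𝓝 p))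
    (hc : Tendsto (fun q => ∫⁻ x, ENNReal.ofReal
      (‖Gr (dp m q r) x - Gr (dp m p r) x‖ ^ 2) ∂m) (𝓝 p) (𝓝 0)) :
    (sob m).TW (fun n => dp m (pn n) r) (dp m p r) := by
  refine ⟨fun n => dp_mem hfin _ _, dp_mem hfin _ _, ?_⟩
  have l1 : Tendsto (fun n => I ((dp m (pn n) r - dp m p r) ^ 2)) atTop (𝓝 0) := by
    have hz : (0 : ℝ) = I (0 : M →ₘ[m] ℝ) := I_zero.symm
    rw [hz]
    have hbm : MeasurableSet (Metric.ball p (r + 1)) := Metric.isOpen_ball.measurableSet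
    refine I_tendsto_of_dominated (G := (Metric.ball p (r + 1)).indicator fun _ => (2 * r) ^ 2)
      ((integrable_indicator_iff hbm).2 (integrableOn_const (hfin p (r + 1)).ne)) (fun n => ?_) ?_
    · filter_upwards [sq_ae (dp m (pn n) r - dp m p r), sub_ae (dp m (pn n) r) (dp m p r),
        dp_ae m (pn n) r, dp_ae m p r] with x a1 a2 a3 a4
      rw [a1, a2, a3, a4, abs_of_nonneg (sq_nonneg _)]
      have b1 := dtr_range (pn n) hr.le x
      have b2 := dtr_range p hr.le x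
      by_cases hx : x ∈ Metric.ball p (r + 1)
      · rw [indicator_of_mem hx]
        refine sq_le_sq' (by linarith [b1.1, b2.2]) (by linarith [b1.2, b2.1])
      · rw [indicator_of_notMem hx]
        rw [Metric.mem_ball, not_lt, dist_comm] at hx
        have c1 : r ≤ dist p x := by linarith
        have c2 : r ≤ dist (pn n) x := by
          have := dist_triangle p (pn n) x
          have h3 := hpn1 n
          rw [dist_comm] at h3
          linarith
        unfold dtr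
        rw [min_eq_right c1, min_eq_right c2]
        norm_num
    · have h3 : Tendsto (fun n => dist (pn n) p) atTop (𝓝 0) := by
        have := tendsto_iff_dist_tendsto_zero.1 hpn
        exact this
      filter_upwards [ae_all_iff.2 fun n => sq_ae (dp m (pn n) r - dp m p r),
        ae_all_iff.2 fun n => sub_ae (dp m (pn n) r) (dp m p r),
        ae_all_iff.2 fun n => dp_ae m (pn n) r, dp_ae m p r, zero_ae (M := M) (m := m)]
        with x a1 a2 a3 a4 a5
      rw [a5]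
      have e : ∀ n, ((dp m (pn n) r - dp m p r) ^ 2 : M →ₘ[m] ℝ) x
          = (dtr (pn n) r x - dtr p r x) ^ 2 := by
        intro n; rw [a1, a2, a3, a4]
      simp only [e]
      refine squeeze_zero (fun n => sq_nonneg _) (fun n => ?_) (by simpa using h3.pow 2)
      rw [← sq_abs]
      refine pow_le_pow_left₀ (abs_nonneg _) ?_ 2
      unfold dtr
      have e2 : min (dist (pn n) x) r - r - (min (dist p x) r - r)
          = min (dist (pn n) x) r - min (dist p x) r := by ring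
      rw [e2]
      refine (abs_min_sub_min_le_max _ _ _ _).trans ?_
      rw [sub_self, abs_zero, max_eq_left (abs_nonneg _)]
      exact abs_dist_sub_le _ _ _
  have l2 : Tendsto (fun n => I ((sob m).Γ (dp m (pn n) r - dp m p r) (dp m (pn n) r - dp m p r)))
      atTop (𝓝 0) := by
    have h1 := hc.comp hpn
    have h2 : Tendsto (fun n => (∫⁻ x, ENNReal.ofReal
      (‖Gr (dp m (pn n) r) x - Gr (dp m p r) x‖ ^ 2) ∂m).toReal) atTop (𝓝 0) := by
      have := (ENNReal.tendsto_toReal ENNReal.zero_ne_top).comp h1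
      rw [ENNReal.toReal_zero] at this
      exact this
    refine h2.congr fun n => ?_
    have hs := hD.sub_mem (dp_mem hfin (pn n) r) (dp_mem hfin p r)
    have e1 : ∫ x, ‖Gr (dp m (pn n) r - dp m p r) x‖ ^ 2 ∂m
        = (∫⁻ x, ENNReal.ofReal (‖Gr (dp m (pn n) r - dp m p r) x‖ ^ 2) ∂m).toReal :=
      integral_eq_lintegral_of_nonneg_ae (Eventually.of_forall fun x => sq_nonneg _)
        ((hG.mem _ hs).1.norm.pow 2)
    rw [← hG.int_norm_sq hs, e1]
    congr 1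
    refine lintegral_congr_ae ?_
    filter_upwards [Gr_sub hD hG (dp_mem hfin (pn n) r) (dp_mem hfin p r)] with x hx
    rw [hx]
  unfold Calc.nrm2
  simpa using l1.add l2

theorem Tb_mul {X : ℕ → M →ₘ[m] ℝ} {x k : M →ₘ[m] ℝ} (h : Tb X x) (hk : MemLp k ∞ m) :
    Tb (fun n => X n * k) (x * k) := by
  obtain ⟨K, hK⟩ := h.bd
  obtain ⟨L, hL⟩ := mem_top_iff.1 hk
  refine ⟨⟨K * L, fun n => ?_⟩, ?_⟩
  · filter_upwards [mul_ae (X n) k, hK n, hL] with y a1 a2 a3
    rw [a1, abs_mul]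
    exact mul_le_mul a2 a3 (abs_nonneg _) ((abs_nonneg _).trans a2)
  · filter_upwards [ae_all_iff.2 fun n => mul_ae (X n) k, mul_ae x k, h.lim] with y a1 a2 a3
    rw [a2]
    simp only [a1]
    exact a3.mul_const _

theorem cq_Tb {s₀ C₀ : ℝ} (hs : 0 < s₀) (hC : 0 < C₀) {p : M} {pn : ℕ → M}
    (hpn : Tendsto pn atTop (𝓝 p)) : Tb (fun n => cq m s₀ C₀ (pn n)) (cq m s₀ C₀ p) := by
  have hr := rr_pos hs hC
  have h1s : 0 < 1 + s₀ := by linarith
  refine ⟨⟨rr s₀ C₀ / (1 + s₀), fun n => ?_⟩, ?_⟩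
  · filter_upwards [cq_ae m s₀ C₀ (pn n)] with x hx
    obtain ⟨h1, h2⟩ := dtr_range (pn n) hr.le x
    rw [hx, abs_div, abs_of_pos h1s]
    refine div_le_div_of_nonneg_right ?_ h1s.le
    rw [abs_of_nonneg (by linarith)]
    linarith
  · filter_upwards [ae_all_iff.2 fun n => cq_ae m s₀ C₀ (pn n), cq_ae m s₀ C₀ p] with x h1 h2
    rw [h2]
    simp only [h1]
    have h3 : Tendsto (fun n => dist (pn n) x) atTop (𝓝 (dist p x)) := hpn.dist tendsto_const_nhds
    have h4 : Tendsto (fun n => dtr (pn n) (rr s₀ C₀) x) atTop (𝓝 (dtr p (rr s₀ C₀) x)) := by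
      unfold dtr
      exact (h3.min tendsto_const_nhds).sub_const _
    exact (h4.add_const _).div_const _

theorem spd_meas (s₀ C₀ : ℝ) (q : M) : Measurable (spd q s₀ C₀) := by
  unfold spd
  have h1 : Measurable fun x : M => dist q x := (continuous_const.dist continuous_id).measurable
  exact Measurable.ite (measurableSet_lt (h1.pow_const 2) measurable_const) (h1.div_const _)
    measurable_const

end

/-- `∫ w Hess u₁(∇h,∇h) ≤ ∫ w M₁(∇h,∇h)`, `u₁ = min(d_p²/(2(1+s₀)) - C₀, 0)` -/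
def HessM {M : Type u} [MetricSpace M] [MeasurableSpace M] {m : Measure M}
    {E : Type} [NormedAddCommGroup E] [InnerProductSpace ℝ E]
    (Gr : (M →ₘ[m] ℝ) → M → E) (κ : ℝ) (p : M) (s₀ C₀ : ℝ) : Prop :=
  ∀ h ∈ (sob m).TestI, ∀ w ∈ (sob m).TestI, 0 ≤ w →
    (sob m).wH (cl m (zr p s₀ C₀ 1)) h w
      ≤ ∫ x, w x * Mv κ (spd p s₀ C₀ x) 1 (‖Gr h x‖ ^ 2)
          (spd p s₀ C₀ x * ⟪Gr h x, rdir Gr p s₀ C₀ x⟫_ℝ) ∂m

/-- E6b: continuity in the centre (block of version 1 of the interface of part E, restated here). -/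
def Blk_E6b : Prop :=
  ∀ {M : Type u} [MetricSpace M] [MeasurableSpace M] [BorelSpace M] [ProperSpace M]
    (m : Measure M) {E : Type} [NormedAddCommGroup E] [InnerProductSpace ℝ E] [CompleteSpace E]
    (Gr : (M →ₘ[m] ℝ) → M → E) (HO : (M →ₘ[m] ℝ) → M → E →L[ℝ] E) (e : ℕ → M →ₘ[m] ℝ)
    (W : ℕ → M → M → ℝ) (K N κ : ℝ), Std m K N → Stat (sob m) Gr HO e → JointW Gr e W →
    ∀ (s₀ C₀ : ℝ), 0 < s₀ → 0 < C₀ → √κ * √(2 * C₀) < Real.pi →
      (∀ᵐ p ∂m, HessM Gr κ p s₀ C₀) → ∀ p, HessM Gr κ p s₀ C₀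

/-- **Block E6b.** -/
theorem blk_E6b : Blk_E6b.{u} := by
  intro M _ _ _ _ m E _ _ _ Gr HO e W K N κ hStd hSt hJ s₀ C₀ hs hC hκ hae p h hh w hw hw0
  have hfin := hStd.hfin
  have hR := hStd.rcd
  haveI := hStd.full
  have hCG : IsGamma (sob m) := isGamma_sob hfin hR.quadratic hR.sobolev_to_lipschitz
  have hD : IsDir (sob m) := hCG.toIsDir
  have hB : (sob m).BEi K := hCG.bei hStd.hN hR.bochner
  have hG := hSt.grad
  have hr := rr_pos hs hC
  set r := rr s₀ C₀ with hrd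
  -- the sequence
  have hdense := Measure.dense_of_ae hae
  have hex : ∀ n : ℕ, ∃ q ∈ Metric.ball p (1 / ((n : ℝ) + 1)), HessM Gr κ q s₀ C₀ := by
    intro n
    have hne : (Metric.ball p (1 / ((n : ℝ) + 1))).Nonempty :=
      ⟨p, Metric.mem_ball_self (by positivity)⟩
    obtain ⟨q, hq1, hq2⟩ := hdense.inter_open_nonempty _ Metric.isOpen_ball hne
    exact ⟨q, hq1, hq2⟩
  choose pn hpb hpH using hex
  have hpn1 : ∀ n, dist (pn n) p < 1 := fun n => (Metric.mem_ball.1 (hpb n)).trans_le (by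
    rw [div_le_one (by positivity)]
    have : (0 : ℝ) ≤ n := Nat.cast_nonneg n
    linarith)
  have hpn : Tendsto pn atTop (𝓝 p) := by
    rw [tendsto_iff_dist_tendsto_zero]
    exact squeeze_zero (fun n => dist_nonneg) (fun n => (Metric.mem_ball.1 (hpb n)).le)
      tendsto_one_div_add_atTop_nhds_zero_nat
  have hTW : (sob m).TW (fun n => dp m (pn n) r) (dp m p r) :=
    TW_dp hfin hD hG hr hpn1 hpn (hJ.cont p r hr)
  have h1s : 0 < 1 + s₀ := by linarith
  have hhT := hh.1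
  have hwT := hw.1
  have hhW := hCG.tW hhT
  have hwW := hCG.tW hwT
  have hhtop := hCG.test_Γ_top hhT
  have hΓ := hCG.Γ_mem hB hhT hhT
  have hcb := cq_Tb (m := m) hs hC hpn
  have hk : MemLp (w * (sob m).lap h + (sob m).Γ h w : M →ₘ[m] ℝ) ∞ m :=
    mem_add (mem_mul_top (hCG.test_A hwT).2 hh.2)
      (hD.Γ_memTop hhW hhtop hwW (hCG.test_Γ_top hwT))
  -- the left side
  have lL : Tendsto (fun n => (sob m).wH (cl m (zr (pn n) s₀ C₀ 1)) h w) atTop
      (𝓝 ((sob m).wH (cl m (zr p s₀ C₀ 1)) h w)) := by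
    have t1 := hD.TW_Γ (Tb_mul hcb hk) hTW (hD.TW_const hhW)
    have t2 := hD.TW_Γ (Tb_mul hcb (hCG.test_A hwT).2) hTW (hD.TW_const hΓ.1)
    simp only [wH_zr hD hfin hs hC _ hhW hΓ.1]
    exact t1.neg.sub (t2.const_mul _)
  -- the right side
  obtain ⟨Kh, hKh⟩ := mem_top_iff.1 hhtop
  obtain ⟨Kw, hKw⟩ := mem_top_iff.1 (hCG.test_A hwT).2
  have hT2 : T2 (fun n => (sob m).Γ h (dp m (pn n) r)) ((sob m).Γ h (dp m p r)) := by
    refine ⟨fun n => hD.Γ_mem2 hhW hhtop (dp_mem hfin _ _), hD.Γ_mem2 hhW hhtop (dp_mem hfin _ _), ?_⟩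
    refine squeeze_zero (fun n => I_sq_nonneg _) (fun n => ?_)
      (by simpa using (hD.TW_E hTW).const_mul |Kh|)
    rw [← hD.Γ_sub_right hhW (dp_mem hfin _ _) (dp_mem hfin _ _)]
    exact hCG.I_Γsq_le hB hhT (hD.sub_mem (dp_mem hfin _ _) (dp_mem hfin _ _)) (by
      filter_upwards [hKh] with x hx
      exact (le_abs_self _).trans hx)
  obtain ⟨ns, hns, hae2⟩ := exists_subseq_of_I_sq hT2.mem hT2.mem' hT2.lim
  have hUp : ∀ R, 0 < R → ∀ᵐ x ∂m, dist p x < R → (sob m).Γ (dp m p R) (dp m p R) x = 1 := by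
    intro R hR0
    filter_upwards [hJ.unit p R hR0, hG.norm_sq (dp_mem hfin p R)] with x h1 h2 h3
    have h4 : ‖Gr (dp m p R) x‖ = 1 := h1 h3
    rw [← h2, h4, one_pow]
  have hrL : r / (1 + s₀) ≤ √(2 * C₀) := by
    rw [div_le_iff₀ h1s, hrd]
    unfold rr
    rw [Real.sqrt_mul (by positivity)]
    refine mul_le_mul_of_nonneg_left ?_ (Real.sqrt_nonneg _)
    rw [Real.sqrt_le_left h1s.le]
    nlinarith
  obtain ⟨KM, hKM0, hKM⟩ := Mv_bdd hκ
  have hspd0 : ∀ q x : M, 0 ≤ spd q s₀ C₀ x := by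
    intro q x
    unfold spd
    split_ifs
    · positivity
    · exact le_rfl
  have hspdL : ∀ q x : M, spd q s₀ C₀ x ≤ √(2 * C₀) := by
    intro q x
    unfold spd
    split_ifs with h1
    · rw [lt_rr hs hC] at h1
      exact (div_le_div_of_nonneg_right h1.le h1s.le).trans hrL
    · exact Real.sqrt_nonneg _
  set Hq : M → M → ℝ := fun q x => w x * Mv κ (spd q s₀ C₀ x) 1 (‖Gr h x‖ ^ 2)
    (spd q s₀ C₀ x * ⟪Gr h x, rdir Gr q s₀ C₀ x⟫_ℝ) with hHq
  have hrdir : ∀ q, rdir Gr q s₀ C₀ = Gr (dp m q r) := fun q => rfl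
  have hmeas : ∀ q, AEStronglyMeasurable (Hq q) m := by
    intro q
    have m1 : AEMeasurable (fun x => (spd q s₀ C₀ x, ‖Gr h x‖ ^ 2,
        spd q s₀ C₀ x * ⟪Gr h x, rdir Gr q s₀ C₀ x⟫_ℝ)) m := by
      refine (spd_meas s₀ C₀ q).aemeasurable.prodMk (AEMeasurable.prodMk ?_ ?_)
      · exact ((hG.mem _ hhW).1.norm.aemeasurable.pow_const 2)
      · refine (spd_meas s₀ C₀ q).aemeasurable.mul ?_
        rw [hrdir]
        exact ((hG.mem _ hhW).1.inner (hG.mem _ (dp_mem hfin q r)).1).aemeasurable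
    exact (w.aestronglyMeasurable.aemeasurable.mul
      ((Mv_meas κ).comp_aemeasurable m1)).aestronglyMeasurable
  have lR : Tendsto (fun n => ∫ x, Hq (pn (ns n)) x ∂m) atTop (𝓝 (∫ x, Hq p x ∂m)) := by
    refine tendsto_integral_of_dominated_convergence (fun x => |Kw| * (KM * (sob m).Γ h h x))
      (fun n => hmeas _) (((int_of_mem (hD.mem1 _ hhW)).const_mul KM).const_mul _) (fun n => ?_) ?_
    · filter_upwards [hKw, hG.norm_sq hhW, hG.inner _ hhW _ (dp_mem hfin (pn (ns n)) r),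
        hD.Γ_cs_ae hhW (dp_mem hfin (pn (ns n)) r), dp_Γ_le hfin (pn (ns n)) r,
        hD.Γ_nonneg_ae hhW] with x a1 a2 a3 a4 a5 a6
      rw [Real.norm_eq_abs, hHq]
      simp only
      rw [abs_mul, hrdir, a2, a3]
      refine mul_le_mul (a1.trans (le_abs_self _)) ?_ (abs_nonneg _) (abs_nonneg _)
      refine hKM _ (hspd0 _ _) (hspdL _ _) _ _ (fun _ => ?_) a6
      exact a4.trans (mul_le_of_le_one_right a6 a5)
    · filter_upwards [hae2, hG.norm_sq hhW, hG.inner _ hhW _ (dp_mem hfin p r),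
        ae_all_iff.2 fun n => hG.inner _ hhW _ (dp_mem hfin (pn n) r),
        sphere_null hfin hD hUp 0, sphere_null hfin hD hUp r] with x a1 a2 a3 a4 a5 a6
      rw [hHq]
      simp only
      refine Tendsto.const_mul _ ?_
      have hd : Tendsto (fun n => dist (pn (ns n)) x) atTop (𝓝 (dist p x)) :=
        (hpn.comp hns.tendsto_atTop).dist tendsto_const_nhds
      rcases lt_or_gt_of_ne a6 with h1 | h1
      · have e1 : spd p s₀ C₀ x = dist p x / (1 + s₀) := by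
          unfold spd
          rw [if_pos ((lt_rr hs hC p x).2 h1)]
        have l1 : Tendsto (fun n => spd (pn (ns n)) s₀ C₀ x) atTop (𝓝 (spd p s₀ C₀ x)) := by
          rw [e1]
          refine (hd.div_const (1 + s₀)).congr' ?_
          filter_upwards [hd.eventually (gt_mem_nhds h1)] with n hn
          unfold spd
          rw [if_pos ((lt_rr hs hC _ x).2 hn)]
        have l2 : Tendsto (fun n => ⟪Gr h x, rdir Gr (pn (ns n)) s₀ C₀ x⟫_ℝ) atTop
            (𝓝 ⟪Gr h x, rdir Gr p s₀ C₀ x⟫_ℝ) := by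
          rw [hrdir, a3]
          refine a1.congr fun n => ?_
          rw [hrdir, a4]
        refine Mv_tendsto ?_ ?_ l1 l2
        · rw [e1]
          exact div_pos (lt_of_le_of_ne dist_nonneg (Ne.symm a5)) h1s
        · exact (mul_le_mul_of_nonneg_left (hspdL p x) (Real.sqrt_nonneg _)).trans_lt hκ
      · have e1 : spd p s₀ C₀ x = 0 := by
          unfold spd
          rw [if_neg (fun h2 => absurd ((lt_rr hs hC p x).1 h2) (not_lt.2 h1.le))]
        rw [e1, Mv_zero]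
        refine tendsto_const_nhds.congr' ?_
        filter_upwards [hd.eventually (lt_mem_nhds h1)] with n hn
        have e2 : spd (pn (ns n)) s₀ C₀ x = 0 := by
          unfold spd
          rw [if_neg (fun h2 => absurd ((lt_rr hs hC _ x).1 h2) (not_lt.2 (le_of_lt hn)))]
        rw [e2, Mv_zero]
  exact le_of_tendsto_of_tendsto' (lL.comp hns.tendsto_atTop) lR
    fun n => hpH (ns n) h hh w hw hw0

end Vale.Agent.P233.H825
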