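import Vale.Agent.P233.H825.OS
import Vale.Agent.P233.CD.If3b

/-!
P233, stage 3b: block `Blk_OS` (literal).
-/

open MeasureTheory Metric Set Filter Topology
open scoped ENNReal NNReal

universe u

namespace H825

open Vale.Agent.P233 Vale.Agent.P233.CD

theorem blk_OS : CD.Blk_OS.{u} := by
  intro M _ _ _ _ _ m n K hn g hB
  have : ProperSpace M := g.geo.proper
  have : IsLocallyFiniteMeasure m := ⟨fun x => ⟨ball x 1, ball_mem_nhds x one_pos, g.fin x 1⟩⟩
  exact OS.os_of_bmv (OS.bmv_of_BM hn hB)

end H825
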