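import Vale.Agent.P233.Gig.IfE

/-! P233: the comparison function `l cs_κ(l)/sn_κ(l)` and `Mv` (helper825). -/

set_option linter.all false

open MeasureTheory Filter Topology Set
open scoped ENNReal NNReal

namespace Vale.Agent.P233.H825

theorem cs_cont (κ : ℝ) : Continuous (cs κ) := by
  unfold cs
  split_ifs
  · exact continuous_const
  · fun_prop
  · exact Real.continuous_cosh.comp (continuous_const.mul continuous_id)

theorem sn_cont (κ : ℝ) : Continuous (sn κ) := by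
  unfold sn
  split_ifs
  · exact continuous_id
  · fun_prop
  · exact (Real.continuous_sinh.comp (continuous_const.mul continuous_id)).div_const _

theorem sn_pos {κ l : ℝ} (hl : 0 < l) (h : √κ * l < Real.pi) : 0 < sn κ l := by
  unfold sn
  split_ifs with h0 h1
  · exact hl
  · have hs : 0 < √κ := Real.sqrt_pos.2 h1
    exact div_pos (Real.sin_pos_of_pos_of_lt_pi (mul_pos hs hl) h) hs
  · have hs : 0 < √(-κ) := Real.sqrt_pos.2 (by
      rcases lt_trichotomy κ 0 with h2 | h2 | h2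
      · linarith
      · exact absurd h2 h0
      · exact absurd h2 h1)
    exact div_pos (Real.sinh_pos_iff.2 (mul_pos hs hl)) hs

/-- `l cs_κ(l)/sn_κ(l)` is bounded on `(0,L]` -/
theorem ctl_bdd {κ L : ℝ} (hL : √κ * L < Real.pi) :
    ∃ K : ℝ, 0 ≤ K ∧ ∀ l, 0 < l → l ≤ L → |l * cs κ l / sn κ l| ≤ K := by
  by_cases hL0 : L ≤ 0
  · exact ⟨0, le_rfl, fun l h1 h2 => absurd (h1.trans_le h2) (not_lt.2 hL0)⟩
  push Not at hL0
  unfold cs sn
  split_ifs with h0 h1
  · refine ⟨1, zero_le_one, fun l h1 h2 => ?_⟩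
    rw [mul_one, div_self h1.ne', abs_one]
  · have hs : 0 < √κ := Real.sqrt_pos.2 h1
    have hX : 0 < √κ * L := mul_pos hs hL0
    have hsX : 0 < Real.sin (√κ * L) := Real.sin_pos_of_pos_of_lt_pi hX hL
    refine ⟨√κ * L / Real.sin (√κ * L), by positivity, fun l h2 h3 => ?_⟩
    have hx : 0 < √κ * l := mul_pos hs h2
    have hxL : √κ * l ≤ √κ * L := mul_le_mul_of_nonneg_left h3 hs.le
    have hsx : 0 < Real.sin (√κ * l) := Real.sin_pos_of_pos_of_lt_pi hx (hxL.trans_lt hL)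
    have hconc := strictConcaveOn_sin_Icc.concaveOn.2 (left_mem_Icc.2 Real.pi_pos.le)
      (⟨hX.le, hL.le⟩ : √κ * L ∈ Icc (0 : ℝ) Real.pi)
      (sub_nonneg.2 ((div_le_one hX).2 hxL)) (div_nonneg hx.le hX.le)
      (by ring : 1 - √κ * l / (√κ * L) + √κ * l / (√κ * L) = 1)
    have e0 : √κ * l / (√κ * L) * (√κ * L) = √κ * l := div_mul_cancel₀ _ hX.ne'
    simp only [smul_eq_mul, mul_zero, zero_add, Real.sin_zero, e0] at hconc
    have e1 : l * Real.cos (√κ * l) / (Real.sin (√κ * l) / √κ)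
        = (√κ * l) * Real.cos (√κ * l) / Real.sin (√κ * l) := by
      field_simp
    rw [e1, abs_div, abs_mul, abs_of_pos hx, abs_of_pos hsx, div_le_div_iff₀ hsx hsX]
    have h4 : |Real.cos (√κ * l)| ≤ 1 := Real.abs_cos_le_one _
    have h5 : √κ * l * Real.sin (√κ * L) ≤ √κ * L * Real.sin (√κ * l) := by
      rw [div_mul_eq_mul_div, div_le_iff₀ hX] at hconc
      linarith
    calc √κ * l * |Real.cos (√κ * l)| * Real.sin (√κ * L)
        ≤ √κ * l * 1 * Real.sin (√κ * L) := by gcongr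
      _ ≤ _ := by rw [mul_one]; exact h5
  · have hκ : κ < 0 := by
      rcases lt_trichotomy κ 0 with h2 | h2 | h2
      · exact h2
      · exact absurd h2 h0
      · exact absurd h2 h1
    have hs : 0 < √(-κ) := Real.sqrt_pos.2 (by linarith)
    refine ⟨Real.cosh (√(-κ) * L), (Real.cosh_pos _).le, fun l h2 h3 => ?_⟩
    have hx : 0 < √(-κ) * l := mul_pos hs h2
    have hxL : √(-κ) * l ≤ √(-κ) * L := mul_le_mul_of_nonneg_left h3 hs.le
    have hsx : 0 < Real.sinh (√(-κ) * l) := Real.sinh_pos_iff.2 hx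
    have e1 : l * Real.cosh (√(-κ) * l) / (Real.sinh (√(-κ) * l) / √(-κ))
        = (√(-κ) * l) * Real.cosh (√(-κ) * l) / Real.sinh (√(-κ) * l) := by
      field_simp
    have hc : 0 < Real.cosh (√(-κ) * l) := Real.cosh_pos _
    rw [e1, abs_div, abs_mul, abs_of_pos hx, abs_of_pos hsx, abs_of_pos hc, div_le_iff₀ hsx]
    have h4 : √(-κ) * l ≤ Real.sinh (√(-κ) * l) := Real.self_le_sinh_iff.2 hx.le
    have h5 : Real.cosh (√(-κ) * l) ≤ Real.cosh (√(-κ) * L) := by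
      rw [Real.cosh_le_cosh, abs_of_pos hx, abs_of_pos (hx.trans_le hxL)]
      exact hxL
    calc √(-κ) * l * Real.cosh (√(-κ) * l) ≤ Real.sinh (√(-κ) * l) * Real.cosh (√(-κ) * L) := by
          gcongr
      _ = _ := mul_comm _ _

/-- `Mv` on `(A, l β)` -/
theorem Mv_eq {κ l A β : ℝ} (hl : l ≠ 0) :
    Mv κ l 1 A (l * β) = β ^ 2 + l * cs κ l / sn κ l * (A - β ^ 2) := by
  unfold Mv
  rw [if_neg hl, mul_one, mul_pow, mul_div_cancel_left₀ _ (pow_ne_zero 2 hl), div_one]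

theorem Mv_zero {κ A B : ℝ} : Mv κ 0 1 A B = A := by
  unfold Mv
  rw [if_pos rfl, div_one]

theorem Mv_bdd {κ L : ℝ} (hL : √κ * L < Real.pi) : ∃ K : ℝ, 0 ≤ K ∧
    ∀ l, 0 ≤ l → l ≤ L → ∀ A β : ℝ, (l ≠ 0 → β ^ 2 ≤ A) → 0 ≤ A →
      |Mv κ l 1 A (l * β)| ≤ K * A := by
  obtain ⟨K, hK0, hK⟩ := ctl_bdd hL
  refine ⟨1 + K, by linarith, fun l h1 h2 A β h3 hA => ?_⟩
  rcases h1.eq_or_lt with h0 | h0
  · rw [← h0, zero_mul, Mv_zero, abs_of_nonneg hA]
    nlinarith
  · rw [Mv_eq h0.ne']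
    have h4 := h3 h0.ne'
    have h5 := hK l h0 h2
    calc |β ^ 2 + l * cs κ l / sn κ l * (A - β ^ 2)|
        ≤ |β ^ 2| + |l * cs κ l / sn κ l * (A - β ^ 2)| := abs_add_le _ _
      _ ≤ A + K * A := by
        rw [abs_of_nonneg (sq_nonneg β), abs_mul, abs_of_nonneg (sub_nonneg.2 h4)]
        refine add_le_add h4 (mul_le_mul h5 (by nlinarith [sq_nonneg β]) (sub_nonneg.2 h4) hK0)
      _ = (1 + K) * A := by ring

theorem Mv_tendsto {κ l β A : ℝ} (hl : 0 < l) (hκ : √κ * l < Real.pi) {ln βn : ℕ → ℝ}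
    (h1 : Tendsto ln atTop (𝓝 l)) (h2 : Tendsto βn atTop (𝓝 β)) :
    Tendsto (fun n => Mv κ (ln n) 1 A (ln n * βn n)) atTop (𝓝 (Mv κ l 1 A (l * β))) := by
  rw [Mv_eq hl.ne']
  have h3 : ∀ᶠ n in atTop, ln n ≠ 0 := by
    filter_upwards [h1.eventually (lt_mem_nhds hl)] with n hn
    exact hn.ne'
  have h4 : Tendsto (fun n => (βn n) ^ 2 + ln n * cs κ (ln n) / sn κ (ln n) * (A - βn n ^ 2)) atTop
      (𝓝 (β ^ 2 + l * cs κ l / sn κ l * (A - β ^ 2))) := by
    have c1 : Tendsto (fun n => cs κ (ln n)) atTop (𝓝 (cs κ l)) :=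
      ((cs_cont κ).tendsto l).comp h1
    have c2 : Tendsto (fun n => sn κ (ln n)) atTop (𝓝 (sn κ l)) :=
      ((sn_cont κ).tendsto l).comp h1
    exact (h2.pow 2).add (((h1.mul c1).div c2 (sn_pos hl hκ).ne').mul
      (tendsto_const_nhds.sub (h2.pow 2)))
  refine h4.congr' ?_
  filter_upwards [h3] with n hn
  rw [Mv_eq hn]

theorem Mv_meas (κ : ℝ) : Measurable fun z : ℝ × ℝ × ℝ => Mv κ z.1 1 z.2.1 z.2.2 := by
  unfold Mv
  have hc := (cs_cont κ).measurable
  have hs := (sn_cont κ).measurable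
  refine Measurable.ite (measurable_fst (measurableSet_singleton 0)) (by fun_prop) ?_
  have m1 : Measurable fun z : ℝ × ℝ × ℝ => z.1 := measurable_fst
  have m2 : Measurable fun z : ℝ × ℝ × ℝ => z.2.1 := measurable_fst.comp measurable_snd
  have m3 : Measurable fun z : ℝ × ℝ × ℝ => z.2.2 := measurable_snd.comp measurable_snd
  exact (((m3.pow_const 2).div (m1.pow_const 2)).div_const 1).add
    (((m1.mul (hc.comp (m1.mul_const 1))).div (hs.comp (m1.mul_const 1))).mul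
      (m2.sub ((m3.pow_const 2).div (m1.pow_const 2))))

end Vale.Agent.P233.H825
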