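import Vale.Agent.P233.H825.Strassen
import Vale.Agent.P233.H227.ChDef
import Vale.Agent.P233.H368.TauCD
import Vale.Agent.P233.H761.Tau

/-!
P233, stage 3b: one step contraction plans towards a point from the Brunn-Minkowski inequality with
a point target (thin annuli and Strassen's theorem).
-/

set_option linter.all false

open MeasureTheory Metric Set Filter Topology
open scoped ENNReal NNReal

universe u

namespace H825.OS

open Vale.Agent.P233.H227.Ch Vale.Agent

variable {M : Type u} [MetricSpace M] [MeasurableSpace M]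

/-- the points at time `t` on the way from a point of `A` to `p` -/
def Zt (p : M) (t : ℝ) (A : Set M) : Set M :=
  {z | ∃ x ∈ A, dist x z = t * dist x p ∧ dist z p = (1 - t) * dist x p}

theorem mV_locFin [BorelSpace M] (m : Measure M) [IsLocallyFiniteMeasure m] (K : ℝ) (p : M) :
    IsLocallyFiniteMeasure (mV m K p) := by
  unfold mV
  refine IsLocallyFiniteMeasure.withDensity_ofReal ?_
  unfold VV
  fun_prop

/-- **From the set form to plans**: Strassen's theorem. -/
theorem os_of_bmv [ProperSpace M] [BorelSpace M] {m : Measure M} [IsLocallyFiniteMeasure m]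
    {n : ℕ} {K : ℝ} (h : BMV m n K) : OS m n K := by
  intro p t ht0 ht1 ν c R hν hνR
  have := mV_locFin m K p
  have hKc : IsCompact (closedBall p R) := isCompact_closedBall p R
  have hcp : mV m K p (closedBall p R) < ⊤ := hKc.measure_lt_top
  have hfin : IsFiniteMeasure ν := by
    constructor
    have h1 : ν univ ≤ ν (closedBall p R) + ν (closedBall p R)ᶜ := by
      have := measure_union_le (μ := ν) (closedBall p R) (closedBall p R)ᶜ
      rwa [union_compl_self] at this
    rw [hνR, add_zero] at h1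
    refine lt_of_le_of_lt (h1.trans (hν _)) ?_
    rw [Measure.smul_apply, ENNReal.smul_def, smul_eq_mul]
    exact ENNReal.mul_lt_top ENNReal.coe_lt_top hcp
  set l : Measure M := (c * Real.toNNReal (((1 - t) ^ n)⁻¹)) • mV m K p with hl
  have hlf : l (closedBall p R) ≠ ⊤ := by
    rw [hl, Measure.smul_apply, ENNReal.smul_def, smul_eq_mul]
    exact (ENNReal.mul_lt_top ENNReal.coe_lt_top hcp).ne
  have hRc : IsClosed {q : M × M | dist q.1 q.2 = t * dist q.1 p ∧
      dist q.2 p = (1 - t) * dist q.1 p} := by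
    refine IsClosed.inter ?_ ?_
    · exact isClosed_eq (by fun_prop) (by fun_prop)
    · exact isClosed_eq (by fun_prop) (by fun_prop)
  have h1t : 0 < 1 - t := by linarith
  obtain ⟨π, hπ, h1, h2, h3⟩ := H825.Str.strassen ν hKc hνR l hKc hlf _ hRc (by
    intro A hAK hA
    have e1 : ν A ≤ (c : ℝ≥0∞) * mV m K p A := by
      have := hν A
      rwa [Measure.smul_apply, ENNReal.smul_def, smul_eq_mul] at this
    have e2 := h p t ht0 ht1 A hA
    have e3 : mV m K p A ≤ ENNReal.ofReal (((1 - t) ^ n)⁻¹) *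
        mV m K p {z | ∃ x ∈ A, dist x z = t * dist x p ∧ dist z p = (1 - t) * dist x p} := by
      have e4 := mul_le_mul_right e2 (ENNReal.ofReal (((1 - t) ^ n)⁻¹))
      rw [← mul_assoc, ← ENNReal.ofReal_mul (by positivity), inv_mul_cancel₀ (by positivity),
        ENNReal.ofReal_one, one_mul] at e4
      exact e4
    have e5 : l {z | z ∈ closedBall p R ∧ ∃ x ∈ A, (x, z) ∈ {q : M × M |
        dist q.1 q.2 = t * dist q.1 p ∧ dist q.2 p = (1 - t) * dist q.1 p}} =
        (c : ℝ≥0∞) * (ENNReal.ofReal (((1 - t) ^ n)⁻¹) *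
        mV m K p {z | ∃ x ∈ A, dist x z = t * dist x p ∧ dist z p = (1 - t) * dist x p}) := by
      have e6 : {z | z ∈ closedBall p R ∧ ∃ x ∈ A, (x, z) ∈ {q : M × M |
          dist q.1 q.2 = t * dist q.1 p ∧ dist q.2 p = (1 - t) * dist q.1 p}} =
          {z | ∃ x ∈ A, dist x z = t * dist x p ∧ dist z p = (1 - t) * dist x p} := by
        ext z
        constructor
        · rintro ⟨-, x, hx, h1, h2⟩
          exact ⟨x, hx, h1, h2⟩
        · rintro ⟨x, hx, h1, h2⟩
          refine ⟨?_, x, hx, h1, h2⟩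
          have h3 : dist x p ≤ R := mem_closedBall.1 (hAK hx)
          rw [mem_closedBall, h2]
          have := dist_nonneg (x := x) (y := p)
          nlinarith
      rw [e6, hl, Measure.smul_apply, ENNReal.smul_def, smul_eq_mul, ENNReal.coe_mul, mul_assoc]
      rfl
    rw [e5]
    exact e1.trans (mul_le_mul_right e3 _))
  refine ⟨π, h1, ?_, h2.trans Measure.restrict_le_self⟩
  filter_upwards [h3] with z hz
  exact hz.1

/-! ### The coefficient -/

theorem Sf_eq_en (s : ℝ) : P233.H368.Tau.Sf s = P233.H761.Tau.en s := by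
  rcases lt_trichotomy s 0 with h | h | h
  · rw [P233.H368.Tau.Sf_neg_eq h, P233.H761.Tau.en_neg_eq h]
  · subst h
    rw [P233.H368.Tau.Sf_zero, P233.H761.Tau.en_zero]
  · rw [P233.H368.Tau.Sf_pos_eq h, P233.H761.Tau.en_pos_eq h]

theorem hf_ge {t s : ℝ} (ht0 : 0 < t) (ht1 : t ≤ 1) (h : s < Real.pi ^ 2) :
    (1 - t ^ 2) * s / 6 ≤ P233.H368.Tau.hf t s := by
  have h1 := P233.H761.Tau.sg_ge_exp ht0.le ht1 h
  have h2 : P233.H761.Tau.sg t s = P233.H368.Tau.sg t s := by
    rw [P233.H761.Tau.sg_eq ht0.le, P233.H368.Tau.sg, Sf_eq_en, Sf_eq_en]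
  rw [h2, P233.H368.Tau.sg_eq_exp ht0.le ht1 h] at h1
  exact Real.exp_le_exp.1 (le_of_mul_le_mul_left h1 ht0)

/-- the lower bound of the coefficient: exact Gaussian form -/
theorem tau_pow_ge {n : ℕ} (hn : 2 ≤ n) {K t θ : ℝ} (ht0 : 0 < t) (ht1 : t ≤ 1) (hθ : 0 ≤ θ) :
    ENNReal.ofReal (t ^ n * Real.exp ((1 - t ^ 2) * (K * θ ^ 2) / 6)) ≤
      P242.tauCoeff K n t θ ^ n := by
  have hn1 : (1 : ℝ) < n := by
    have : (2 : ℝ) ≤ n := by exact_mod_cast hn
    linarith
  have hn0 : (n : ℝ) ≠ 0 := by positivity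
  rcases lt_or_ge (K * θ ^ 2) ((n - 1) * Real.pi ^ 2) with h | h
  · rw [P233.H368.Tau.tau_eq hn1 hθ ht0.le ht1 h, ← ENNReal.ofReal_pow
      (P233.H368.Tau.tauR_nonneg ht0.le)]
    refine ENNReal.ofReal_le_ofReal ?_
    unfold P233.H368.Tau.tauR
    rw [mul_pow, ← Real.exp_nat_mul]
    refine mul_le_mul_of_nonneg_left (Real.exp_le_exp.2 ?_) (by positivity)
    have h1 := hf_ge ht0 ht1 (P233.H368.Tau.div_lt_pi hn1 h)
    have hn2 : 0 < (n : ℝ) - 1 := by linarith
    have e1 : (n : ℝ) * (((n : ℝ) - 1) / n * P233.H368.Tau.hf t (K * θ ^ 2 / (n - 1))) =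
        ((n : ℝ) - 1) * P233.H368.Tau.hf t (K * θ ^ 2 / (n - 1)) := by
      field_simp
    rw [e1]
    have h2 := mul_le_mul_of_nonneg_left h1 hn2.le
    have e2 : ((n : ℝ) - 1) * ((1 - t ^ 2) * (K * θ ^ 2 / (n - 1)) / 6) =
        (1 - t ^ 2) * (K * θ ^ 2) / 6 := by
      field_simp
    rw [e2] at h2
    exact h2
  · rw [P233.H368.Tau.tau_top hn1 ht0 h, ENNReal.top_pow (by omega)]
    exact le_top

/-! ### Annuli -/

theorem Zt_mono {p : M} {t : ℝ} {A B : Set M} (h : A ⊆ B) : Zt p t A ⊆ Zt p t B := by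
  rintro z ⟨x, hx, h1⟩
  exact ⟨x, h hx, h1⟩

theorem isCompact_Zt [ProperSpace M] {p : M} {t : ℝ} (ht1 : t < 1) {A : Set M}
    (hA : IsCompact A) : IsCompact (Zt p t A) := by
  obtain ⟨R, hR⟩ := hA.isBounded.subset_closedBall p
  have hRc : IsClosed {q : M × M | dist q.1 q.2 = t * dist q.1 p ∧
      dist q.2 p = (1 - t) * dist q.1 p} := by
    refine IsClosed.inter ?_ ?_
    · exact isClosed_eq (by fun_prop) (by fun_prop)
    · exact isClosed_eq (by fun_prop) (by fun_prop)
  have hC : IsCompact ((A ×ˢ closedBall p ((1 - t) * R)) ∩ {q : M × M |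
      dist q.1 q.2 = t * dist q.1 p ∧ dist q.2 p = (1 - t) * dist q.1 p}) :=
    (hA.prod (isCompact_closedBall p _)).inter_right hRc
  have e : Zt p t A = Prod.snd '' ((A ×ˢ closedBall p ((1 - t) * R)) ∩ {q : M × M |
      dist q.1 q.2 = t * dist q.1 p ∧ dist q.2 p = (1 - t) * dist q.1 p}) := by
    ext z
    constructor
    · rintro ⟨x, hx, h1, h2⟩
      refine ⟨(x, z), ⟨⟨hx, ?_⟩, h1, h2⟩, rfl⟩
      have h3 : dist x p ≤ R := mem_closedBall.1 (hR hx)
      show z ∈ closedBall p ((1 - t) * R)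
      rw [mem_closedBall, h2]
      exact mul_le_mul_of_nonneg_left h3 (by linarith)
    · rintro ⟨q, ⟨⟨hq1, -⟩, h1, h2⟩, rfl⟩
      exact ⟨q.1, hq1, h1, h2⟩
  rw [e]
  exact hC.image continuous_snd

/-- the Brunn-Minkowski inequality with a point target -/
def BM (m : Measure M) (n : ℕ) (K : ℝ) : Prop :=
  ∀ (p : M) (t : ℝ), 0 < t → t < 1 → ∀ A : Set M, IsCompact A → ∀ c : ℝ≥0∞,
    (∀ x ∈ A, c ≤ P242.tauCoeff K n (1 - t) (dist x p) ^ n) →
    c * m A ≤ m {z | ∃ x ∈ A, dist x z = t * dist x p ∧ dist z p = (1 - t) * dist x p}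

theorem annulus [ProperSpace M] [BorelSpace M] {m : Measure M} {n : ℕ} (hn : 2 ≤ n) {K : ℝ}
    (h : BM m n K) {p : M} {t : ℝ} (ht0 : 0 < t) (ht1 : t < 1) {A : Set M} (hA : IsCompact A)
    {a b : ℝ} (ha : 0 ≤ a) :
    ENNReal.ofReal ((1 - t) ^ n * Real.exp (-(|K| * (b ^ 2 - a ^ 2) / 3))) *
        mV m K p (A ∩ {x | dist x p ∈ Icc a b}) ≤
      mV m K p (Zt p t A ∩ {z | dist z p / (1 - t) ∈ Icc a b}) := by
  have h1t : 0 < 1 - t := by linarith
  set A' := A ∩ {x | dist x p ∈ Icc a b} with hA'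
  have hcl : IsClosed {x : M | dist x p ∈ Icc a b} :=
    isClosed_Icc.preimage (by fun_prop)
  have hAc : IsCompact A' := hA.inter_right hcl
  have hZc : IsCompact (Zt p t A') := isCompact_Zt ht1 hAc
  -- bounds of `K d²`
  have hd : ∀ d ∈ Icc a b, K * a ^ 2 - |K| * (b ^ 2 - a ^ 2) ≤ K * d ^ 2 ∧
      K * d ^ 2 ≤ K * a ^ 2 + |K| * (b ^ 2 - a ^ 2) := by
    intro d hd
    have h1 : 0 ≤ d ^ 2 - a ^ 2 := by nlinarith [hd.1]
    have h2 : d ^ 2 ≤ b ^ 2 := by nlinarith [hd.1, hd.2]
    have h3 : |K| * (d ^ 2 - a ^ 2) ≤ |K| * (b ^ 2 - a ^ 2) :=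
      mul_le_mul_of_nonneg_left (by linarith) (abs_nonneg K)
    have h4 : |K * (d ^ 2 - a ^ 2)| ≤ |K| * (b ^ 2 - a ^ 2) := by
      rw [abs_mul, abs_of_nonneg h1]
      exact h3
    have h5 := abs_le.1 h4
    constructor <;> nlinarith [h5.1, h5.2]
  set δ := |K| * (b ^ 2 - a ^ 2) with hδ
  set c : ℝ := (1 - t) ^ n * Real.exp ((1 - (1 - t) ^ 2) * (K * a ^ 2 - δ) / 6) with hc
  have h2t : 0 ≤ 1 - (1 - t) ^ 2 := by nlinarith
  have hBM := h p t ht0 ht1 A' hAc (ENNReal.ofReal c) (by
    intro x hx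
    refine le_trans (ENNReal.ofReal_le_ofReal ?_)
      (tau_pow_ge hn h1t (by linarith) dist_nonneg)
    rw [hc]
    refine mul_le_mul_of_nonneg_left (Real.exp_le_exp.2 ?_) (by positivity)
    have := (hd _ hx.2).1
    have := mul_le_mul_of_nonneg_left this h2t
    linarith)
  have hup : mV m K p A' ≤ ENNReal.ofReal (Real.exp ((K * a ^ 2 + δ) / 6)) * m A' := by
    unfold mV
    rw [withDensity_apply _ hAc.measurableSet]
    calc ∫⁻ x in A', ENNReal.ofReal (VV K p x) ∂m
        ≤ ∫⁻ x in A', ENNReal.ofReal (Real.exp ((K * a ^ 2 + δ) / 6)) ∂m := by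
          refine setLIntegral_mono' hAc.measurableSet fun x hx => ENNReal.ofReal_le_ofReal ?_
          unfold VV
          refine Real.exp_le_exp.2 ?_
          have := (hd _ hx.2).2
          linarith
      _ = _ := by rw [setLIntegral_const]
  have hlow : ENNReal.ofReal (Real.exp ((1 - t) ^ 2 * (K * a ^ 2 - δ) / 6)) * m (Zt p t A') ≤
      mV m K p (Zt p t A') := by
    unfold mV
    rw [withDensity_apply _ hZc.measurableSet]
    calc ENNReal.ofReal (Real.exp ((1 - t) ^ 2 * (K * a ^ 2 - δ) / 6)) * m (Zt p t A')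
        = ∫⁻ x in Zt p t A', ENNReal.ofReal (Real.exp ((1 - t) ^ 2 * (K * a ^ 2 - δ) / 6)) ∂m := by
          rw [setLIntegral_const]
      _ ≤ _ := by
          refine setLIntegral_mono' hZc.measurableSet fun z hz => ENNReal.ofReal_le_ofReal ?_
          obtain ⟨x, hx, h1, h2⟩ := hz
          unfold VV
          refine Real.exp_le_exp.2 ?_
          rw [h2]
          have := (hd _ hx.2).1
          have := mul_le_mul_of_nonneg_left this (sq_nonneg (1 - t))
          nlinarith
  have hsub : Zt p t A' ⊆ Zt p t A ∩ {z | dist z p / (1 - t) ∈ Icc a b} := by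
    rintro z ⟨x, hx, h1, h2⟩
    refine ⟨⟨x, hx.1, h1, h2⟩, ?_⟩
    show dist z p / (1 - t) ∈ Icc a b
    rw [h2, mul_div_cancel_left₀ _ h1t.ne']
    exact hx.2
  calc ENNReal.ofReal ((1 - t) ^ n * Real.exp (-(δ / 3))) * mV m K p A'
      ≤ ENNReal.ofReal ((1 - t) ^ n * Real.exp (-(δ / 3))) *
        (ENNReal.ofReal (Real.exp ((K * a ^ 2 + δ) / 6)) * m A') := mul_le_mul_right hup _
    _ = ENNReal.ofReal (Real.exp ((1 - t) ^ 2 * (K * a ^ 2 - δ) / 6)) *
        (ENNReal.ofReal c * m A') := by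
        rw [← mul_assoc, ← mul_assoc, ← ENNReal.ofReal_mul (by positivity),
          ← ENNReal.ofReal_mul (by positivity)]
        congr 2
        rw [hc, mul_assoc, ← Real.exp_add, mul_left_comm, ← Real.exp_add]
        congr 2
        ring
    _ ≤ ENNReal.ofReal (Real.exp ((1 - t) ^ 2 * (K * a ^ 2 - δ) / 6)) * m (Zt p t A') :=
        mul_le_mul_right hBM _
    _ ≤ mV m K p (Zt p t A') := hlow
    _ ≤ _ := measure_mono hsub

/-- from closed to half open intervals -/
theorem half_open {σ τ : Measure ℝ} {c : ℝ≥0∞} {a b : ℝ} (hab : a < b)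
    (h : ∀ b' < b, a < b' → c * τ (Icc a b') ≤ σ (Icc a b')) :
    c * τ (Ico a b) ≤ σ (Ico a b) := by
  have e : Ico a b = ⋃ k : ℕ, Icc a (b - (b - a) / (k + 2)) := by
    ext x
    simp only [mem_Ico, mem_iUnion, mem_Icc]
    constructor
    · rintro ⟨h1, h2⟩
      obtain ⟨k, hk⟩ := exists_nat_gt ((b - a) / (b - x))
      refine ⟨k, h1, ?_⟩
      have h3 : 0 < b - x := by linarith
      rw [div_lt_iff₀ h3] at hk
      have h4 : (b - a) / (k + 2) ≤ b - x := by
        rw [div_le_iff₀ (by positivity)]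
        nlinarith
      linarith
    · rintro ⟨k, h1, h2⟩
      refine ⟨h1, lt_of_le_of_lt h2 ?_⟩
      have : 0 < (b - a) / (k + 2) := div_pos (by linarith) (by positivity)
      linarith
  have hmono : Monotone fun k : ℕ => Icc a (b - (b - a) / ((k : ℝ) + 2)) := by
    intro i j hij
    refine Icc_subset_Icc_right ?_
    have : (b - a) / ((j : ℝ) + 2) ≤ (b - a) / ((i : ℝ) + 2) := by
      refine div_le_div_of_nonneg_left (by linarith) (by positivity) ?_
      have : (i : ℝ) ≤ j := by exact_mod_cast hij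
      linarith
    linarith
  rw [e, hmono.measure_iUnion, hmono.measure_iUnion, ENNReal.mul_iSup]
  refine iSup_mono fun k => h _ ?_ ?_
  · have : 0 < (b - a) / ((k : ℝ) + 2) := div_pos (by linarith) (by positivity)
    linarith
  · have h5 : (b - a) / ((k : ℝ) + 2) < b - a := by
      refine div_lt_self (by linarith) ?_
      have : (0 : ℝ) ≤ k := Nat.cast_nonneg k
      linarith
    linarith

/-- **The set form.** -/
theorem bmv_of_BM [ProperSpace M] [BorelSpace M] {m : Measure M} [IsLocallyFiniteMeasure m]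
    {n : ℕ} (hn : 2 ≤ n) {K : ℝ} (h : BM m n K) : BMV m n K := by
  intro p t ht0 ht1 A hA
  show ENNReal.ofReal ((1 - t) ^ n) * mV m K p A ≤ mV m K p (Zt p t A)
  have := mV_locFin m K p
  have h1t : 0 < 1 - t := by linarith
  have hZc : IsCompact (Zt p t A) := isCompact_Zt ht1 hA
  set σ : Measure ℝ := ((mV m K p).restrict (Zt p t A)).map (fun z => dist z p / (1 - t)) with hσ
  set τ : Measure ℝ := ((mV m K p).restrict A).map (fun x => dist x p) with hτ
  have hmf : Measurable fun z : M => dist z p / (1 - t) := by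
    have : Continuous fun z : M => dist z p / (1 - t) := by fun_prop
    exact this.measurable
  have hmg : Measurable fun x : M => dist x p := by
    have : Continuous fun x : M => dist x p := by fun_prop
    exact this.measurable
  have hσa : ∀ S : Set ℝ, MeasurableSet S →
      σ S = mV m K p (Zt p t A ∩ {z | dist z p / (1 - t) ∈ S}) := by
    intro S hS
    rw [hσ, Measure.map_apply hmf hS, Measure.restrict_apply (hmf hS), inter_comm]
    rfl
  have hτa : ∀ S : Set ℝ, MeasurableSet S →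
      τ S = mV m K p (A ∩ {x | dist x p ∈ S}) := by
    intro S hS
    rw [hτ, Measure.map_apply hmg hS, Measure.restrict_apply (hmg hS), inter_comm]
    rfl
  obtain ⟨R, hR0, hR⟩ : ∃ R : ℝ, 0 < R ∧ A ⊆ ball p R := by
    obtain ⟨R, hR⟩ := hA.isBounded.subset_ball p
    exact ⟨max R 1, by positivity, hR.trans (ball_subset_ball (le_max_left _ _))⟩
  have hτR : τ (Ico 0 R) = mV m K p A := by
    rw [hτa _ measurableSet_Ico]
    congr 1
    refine inter_eq_left.2 fun x hx => ?_
    exact ⟨dist_nonneg, mem_ball.1 (hR hx)⟩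
  -- closed intervals
  have hcl : ∀ a b : ℝ, 0 ≤ a →
      ENNReal.ofReal ((1 - t) ^ n * Real.exp (-(|K| * (b ^ 2 - a ^ 2) / 3))) * τ (Icc a b) ≤
        σ (Icc a b) := by
    intro a b ha
    rw [hσa _ measurableSet_Icc, hτa _ measurableSet_Icc]
    exact annulus hn h ht0 ht1 hA ha
  -- half open intervals of a partition
  have hho : ∀ a b e : ℝ, 0 ≤ a → a < b → |K| * (b ^ 2 - a ^ 2) / 3 ≤ e →
      ENNReal.ofReal ((1 - t) ^ n * Real.exp (-e)) * τ (Ico a b) ≤ σ (Ico a b) := by
    intro a b e ha hab he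
    refine half_open hab fun b' hb' hab' => le_trans (mul_le_mul_left ?_ _) (hcl a b' ha)
    refine ENNReal.ofReal_le_ofReal (mul_le_mul_of_nonneg_left (Real.exp_le_exp.2 ?_)
      (by positivity))
    have h1 : |K| * (b' ^ 2 - a ^ 2) ≤ |K| * (b ^ 2 - a ^ 2) :=
      mul_le_mul_of_nonneg_left (by nlinarith) (abs_nonneg K)
    linarith
  have hN : ∀ N : ℕ, ENNReal.ofReal ((1 - t) ^ n * Real.exp (-(|K| * R ^ 2 / (N + 1)))) *
      mV m K p A ≤ mV m K p (Zt p t A) := by
    intro N
    set e : ℝ := |K| * R ^ 2 / (N + 1) with he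
    have hstep : ∀ k : ℕ, k ≤ N + 1 → ENNReal.ofReal ((1 - t) ^ n * Real.exp (-e)) *
        τ (Ico 0 (R * k / (N + 1))) ≤ σ (Ico 0 (R * k / (N + 1))) := by
      intro k
      induction k with
      | zero =>
        intro _
        simp
      | succ k ih =>
        intro hk
        have ih' := ih (by omega)
        have hN0 : (0 : ℝ) < N + 1 := by positivity
        have hlt : R * k / (N + 1) < R * ((k + 1 : ℕ) : ℝ) / (N + 1) := by
          push_cast
          refine div_lt_div_of_pos_right ?_ hN0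
          nlinarith
        have h0 : 0 ≤ R * k / (N + 1) := by positivity
        have e1 : Ico 0 (R * ((k + 1 : ℕ) : ℝ) / (N + 1)) =
            Ico 0 (R * k / (N + 1)) ∪ Ico (R * k / (N + 1)) (R * ((k + 1 : ℕ) : ℝ) / (N + 1)) :=
          (Ico_union_Ico_eq_Ico h0 hlt.le).symm
        have hdis : Disjoint (Ico 0 (R * k / (N + 1)))
            (Ico (R * k / (N + 1)) (R * ((k + 1 : ℕ) : ℝ) / (N + 1))) := by
          rw [Set.disjoint_left]
          intro x hx hx'
          exact absurd hx'.1 (not_le.2 hx.2)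
        rw [e1, measure_union hdis measurableSet_Ico, measure_union hdis measurableSet_Ico, mul_add]
        refine add_le_add ih' (hho _ _ _ h0 hlt ?_)
        rw [he]
        have hkN : (k : ℝ) + 1 ≤ N + 1 := by
          have : ((k + 1 : ℕ) : ℝ) ≤ ((N + 1 : ℕ) : ℝ) := by exact_mod_cast hk
          push_cast at this
          exact this
        have e2 : (R * ((k + 1 : ℕ) : ℝ) / (N + 1)) ^ 2 - (R * k / (N + 1)) ^ 2 =
            R ^ 2 * (2 * k + 1) / (N + 1) ^ 2 := by
          push_cast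
          field_simp
          ring
        rw [e2]
        have e3 : R ^ 2 * (2 * k + 1) / ((N : ℝ) + 1) ^ 2 ≤ 3 * (R ^ 2 / (N + 1)) := by
          rw [div_le_iff₀ (by positivity)]
          have e4 : 3 * (R ^ 2 / ((N : ℝ) + 1)) * ((N : ℝ) + 1) ^ 2 = 3 * R ^ 2 * (N + 1) := by
            field_simp
          rw [e4]
          nlinarith [sq_nonneg R]
        have h6 := mul_le_mul_of_nonneg_left e3 (abs_nonneg K)
        have e5 : |K| * (3 * (R ^ 2 / ((N : ℝ) + 1))) = 3 * (|K| * R ^ 2 / (N + 1)) := by ring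
        rw [e5] at h6
        linarith
    have h1 := hstep (N + 1) le_rfl
    have e6 : R * ((N + 1 : ℕ) : ℝ) / (N + 1) = R := by
      push_cast
      field_simp
    rw [e6, hτR] at h1
    refine h1.trans ?_
    rw [hσa _ measurableSet_Ico]
    exact measure_mono inter_subset_left
  -- the limit
  have hlim : Tendsto (fun N : ℕ => ENNReal.ofReal ((1 - t) ^ n *
      Real.exp (-(|K| * R ^ 2 / (N + 1)))) * mV m K p A) atTop
      (𝓝 (ENNReal.ofReal ((1 - t) ^ n) * mV m K p A)) := by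
    refine ENNReal.Tendsto.mul_const ?_ (Or.inr hA.measure_lt_top.ne)
    refine ENNReal.tendsto_ofReal ?_
    have h1 : Tendsto (fun N : ℕ => |K| * R ^ 2 / ((N : ℝ) + 1)) atTop (𝓝 0) := by
      have := (tendsto_one_div_add_atTop_nhds_zero_nat (𝕜 := ℝ)).const_mul (|K| * R ^ 2)
      rw [mul_zero] at this
      refine this.congr fun N => ?_
      ring
    have h2 := (Real.continuous_exp.tendsto _).comp h1.neg
    have h3 := h2.const_mul ((1 - t) ^ n)
    simpa using h3
  exact le_of_tendsto' hlim hN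

end H825.OS
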