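import Vale.Agent.P233.Bd3.B6
import Mathlib.MeasureTheory.Covering.DensityTheorem
import Mathlib.Analysis.Calculus.Rademacher
import Mathlib.Geometry.Euclidean.Volume.Measure

/-! P233, RCDA, blocks G10 and G11 (helper825), part 1: density points, strong rectifiability,
pointwise comparison of the local Lipschitz constant with the derivative in a chart. -/

set_option linter.all false

open MeasureTheory Filter Topology Set Metric
open scoped ENNReal NNReal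

namespace Vale.Agent.P233.RA

/-! ### density points -/

/-- every point near `x` is `o(dist)`-close to `T` -/
def DensePt {X : Type*} [PseudoMetricSpace X] (T : Set X) (x : X) : Prop :=
  ∀ ε > 0, ∀ᶠ y in 𝓝 x, ∃ y' ∈ T, dist y y' ≤ ε * dist x y

section density

variable {X : Type*} [MetricSpace X] [MeasurableSpace X] (μ : Measure X)
  [IsUnifLocDoublingMeasure μ] [SecondCountableTopology X] [BorelSpace X]
  [IsLocallyFiniteMeasure μ]

theorem ae_densePt (T : Set X) : μ {x | x ∈ T ∧ ¬ DensePt T x} = 0 := by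
  have h1 : ∀ᵐ x ∂μ.restrict T, ∀ k : ℕ, ∀ (w : X → X) (δ : X → ℝ) (_ : Tendsto δ (𝓝[≠] x) (𝓝[>] 0))
      (_ : ∀ᶠ j in 𝓝[≠] x, x ∈ closedBall (w j) (((k : ℝ) + 1) * δ j)),
      Tendsto (fun j => μ (T ∩ closedBall (w j) (δ j)) / μ (closedBall (w j) (δ j))) (𝓝[≠] x)
        (𝓝 1) := by
    rw [ae_all_iff]
    intro k
    filter_upwards [IsUnifLocDoublingMeasure.ae_tendsto_measure_inter_div μ T ((k : ℝ) + 1)]
      with x hx w δ h1 h2
    exact hx w δ h1 h2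
  have h2 : (μ.restrict T) {x | ¬ (∀ k : ℕ, ∀ (w : X → X) (δ : X → ℝ)
      (_ : Tendsto δ (𝓝[≠] x) (𝓝[>] 0))
      (_ : ∀ᶠ j in 𝓝[≠] x, x ∈ closedBall (w j) (((k : ℝ) + 1) * δ j)),
      Tendsto (fun j => μ (T ∩ closedBall (w j) (δ j)) / μ (closedBall (w j) (δ j))) (𝓝[≠] x)
        (𝓝 1))} = 0 := h1
  have h3 := Measure.le_restrict_apply (μ := μ) T {x | ¬ (∀ k : ℕ, ∀ (w : X → X) (δ : X → ℝ)
      (_ : Tendsto δ (𝓝[≠] x) (𝓝[>] 0))
      (_ : ∀ᶠ j in 𝓝[≠] x, x ∈ closedBall (w j) (((k : ℝ) + 1) * δ j)),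
      Tendsto (fun j => μ (T ∩ closedBall (w j) (δ j)) / μ (closedBall (w j) (δ j))) (𝓝[≠] x)
        (𝓝 1))}
  rw [h2] at h3
  refine measure_mono_null ?_ (le_antisymm h3 zero_le)
  rintro x ⟨hxT, hx⟩
  refine ⟨?_, hxT⟩
  intro hgood
  apply hx
  intro ε hε
  obtain ⟨k, hk⟩ := exists_nat_gt (1 / ε)
  have hk1 : (0 : ℝ) < (k : ℝ) + 1 := by positivity
  have hkε : 1 / ((k : ℝ) + 1) ≤ ε := by
    rw [div_le_iff₀ hk1]
    rw [div_lt_iff₀ hε] at hk
    nlinarith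
  have h4 := hgood k id (fun y => dist x y / ((k : ℝ) + 1)) ?_ ?_
  · have h5 : ∀ᶠ y in 𝓝[≠] x, (0 : ℝ≥0∞) < μ (T ∩ closedBall (id y) (dist x y / ((k : ℝ) + 1))) /
        μ (closedBall (id y) (dist x y / ((k : ℝ) + 1))) :=
      h4.eventually (lt_mem_nhds (by norm_num))
    rw [eventually_nhdsWithin_iff] at h5
    filter_upwards [h5] with y hy
    by_cases hyx : y = x
    · subst hyx
      exact ⟨y, hxT, by simp⟩
    have h6 := hy hyx
    have h7 : μ (T ∩ closedBall (id y) (dist x y / ((k : ℝ) + 1))) ≠ 0 := by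
      intro h0
      rw [h0] at h6
      simp at h6
    obtain ⟨y', hy'⟩ := nonempty_of_measure_ne_zero h7
    refine ⟨y', hy'.1, ?_⟩
    have h8 := hy'.2
    rw [mem_closedBall, id_eq, dist_comm] at h8
    refine h8.trans ?_
    rw [div_eq_mul_one_div, mul_comm]
    exact mul_le_mul_of_nonneg_right hkε dist_nonneg
  · rw [tendsto_nhdsWithin_iff]
    constructor
    · have : Tendsto (fun y => dist x y / ((k : ℝ) + 1)) (𝓝 x) (𝓝 (dist x x / ((k : ℝ) + 1))) :=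
        (((continuous_const.dist continuous_id).div_const _).tendsto x)
      rw [dist_self, zero_div] at this
      exact this.mono_left nhdsWithin_le_nhds
    · filter_upwards [self_mem_nhdsWithin] with y hy
      have : 0 < dist x y := dist_pos.2 (Ne.symm hy)
      exact div_pos this hk1
  · filter_upwards with y
    rw [mem_closedBall, id_eq]
    have : ((k : ℝ) + 1) * (dist x y / ((k : ℝ) + 1)) = dist x y := by field_simp
    rw [this]

/-- measure density at the centre -/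
theorem ae_density_centre (T : Set X) : μ {x | x ∈ T ∧ ¬ Tendsto (fun r => μ (T ∩ closedBall x r) /
    μ (closedBall x r)) (𝓝[>] 0) (𝓝 1)} = 0 := by
  have h1 : ∀ᵐ x ∂μ.restrict T, Tendsto (fun r => μ (T ∩ closedBall x r) /
    μ (closedBall x r)) (𝓝[>] 0) (𝓝 1) := by
    filter_upwards [IsUnifLocDoublingMeasure.ae_tendsto_measure_inter_div μ T 1] with x hx
    refine hx (fun _ : ℝ => x) (fun r => r) tendsto_id ?_
    filter_upwards [self_mem_nhdsWithin] with r hr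
    rw [mem_closedBall, dist_self, one_mul]
    exact le_of_lt hr
  have h2 : (μ.restrict T) {x | ¬ Tendsto (fun r => μ (T ∩ closedBall x r) /
    μ (closedBall x r)) (𝓝[>] 0) (𝓝 1)} = 0 := h1
  have h3 := Measure.le_restrict_apply (μ := μ) T {x | ¬ Tendsto (fun r => μ (T ∩ closedBall x r) /
    μ (closedBall x r)) (𝓝[>] 0) (𝓝 1)}
  rw [h2] at h3
  refine measure_mono_null ?_ (le_antisymm h3 zero_le)
  rintro x ⟨hxT, hx⟩
  exact ⟨hx, hxT⟩

end density

/-! ### one chart: comparison of the local Lipschitz constant with the derivative -/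

section chart

variable {M : Type*} [MetricSpace M]
variable {E : Type*} [NormedAddCommGroup E] [NormedSpace ℝ E]

/-- `g` is `lam`-bi-Lipschitz on `S` -/
def BiL (lam : ℝ) (S : Set E) (g : E → M) : Prop :=
  ∀ v ∈ S, ∀ w ∈ S, dist (g v) (g w) ≤ lam * dist v w ∧ dist v w ≤ lam * dist (g v) (g w)

theorem lipBd_upper {lam : ℝ} (hlam : 1 ≤ lam) {S : Set E} {g : E → M} (hg : BiL lam S g)
    {u : E} (hu : u ∈ S) (hT : DensePt (g '' S) (g u)) {F : M → ℝ} {L : ℝ≥0}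
    (hF : LipschitzWith L F) {Ft : E → ℝ} (hFt : ∀ v ∈ S, Ft v = F (g v)) {D : E →L[ℝ] ℝ}
    (hD : HasFDerivAt Ft D u) : Met.LipBd F (g u) (lam * ‖D‖) := by
  intro c' hc'
  have hlam0 : 0 < lam := by linarith
  have hev : ∀ᶠ ε in 𝓝[>] (0 : ℝ), (‖D‖ + ε) * lam * (1 + ε) + L * ε < c' := by
    have hc : Continuous fun ε : ℝ => (‖D‖ + ε) * lam * (1 + ε) + L * ε := by fun_prop
    have h1 : Tendsto (fun ε : ℝ => (‖D‖ + ε) * lam * (1 + ε) + L * ε) (𝓝[>] 0)
        (𝓝 ((‖D‖ + 0) * lam * (1 + 0) + L * 0)) := (hc.tendsto 0).mono_left nhdsWithin_le_nhds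
    refine h1.eventually (gt_mem_nhds ?_)
    simpa [mul_comm] using hc'
  obtain ⟨ε, hε, hε0⟩ := (hev.and self_mem_nhdsWithin).exists
  have hε0 : (0 : ℝ) < ε := hε0
  have h1 : ∀ᶠ v in 𝓝 u, ‖Ft v - Ft u - D (v - u)‖ ≤ ε * ‖v - u‖ :=
    (hasFDerivAt_iff_isLittleO.1 hD).def hε0
  obtain ⟨δ, hδ, h1⟩ := Metric.eventually_nhds_iff.1 h1
  have h2 : ∀ᶠ y in 𝓝 (g u), lam * ((1 + ε) * dist (g u) y) < δ := by
    have hc : Continuous fun y => lam * ((1 + ε) * dist (g u) y) := by fun_prop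
    have := hc.tendsto (g u)
    rw [dist_self, mul_zero, mul_zero] at this
    exact this.eventually (gt_mem_nhds hδ)
  filter_upwards [hT ε hε0, h2] with y hy hy2
  obtain ⟨y', ⟨v, hv, rfl⟩, hyv⟩ := hy
  have e1 : dist (g v) (g u) ≤ (1 + ε) * dist (g u) y := by
    have := dist_triangle (g v) y (g u)
    rw [dist_comm (g v) y, dist_comm y (g u)] at this
    linarith
  have e2 : dist v u ≤ lam * ((1 + ε) * dist (g u) y) :=
    ((hg v hv u hu).2).trans (mul_le_mul_of_nonneg_left e1 hlam0.le)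
  have e3 := h1 (lt_of_le_of_lt e2 hy2)
  rw [Real.norm_eq_abs, hFt v hv, hFt u hu, ← dist_eq_norm] at e3
  have e4 : |D (v - u)| ≤ ‖D‖ * dist v u := by
    have := D.le_opNorm (v - u)
    rwa [Real.norm_eq_abs, ← dist_eq_norm] at this
  have e5 : |F (g v) - F (g u)| ≤ (‖D‖ + ε) * dist v u := by
    have h := abs_sub_abs_le_abs_sub (F (g v) - F (g u)) (D (v - u))
    nlinarith [h, e3, e4]
  have e6 : |F y - F (g v)| ≤ L * (ε * dist (g u) y) := by
    have := hF.dist_le_mul y (g v)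
    rw [Real.dist_eq] at this
    exact this.trans (mul_le_mul_of_nonneg_left hyv L.2)
  have e7 : |F y - F (g u)| ≤ |F y - F (g v)| + |F (g v) - F (g u)| := by
    have := abs_add_le (F y - F (g v)) (F (g v) - F (g u))
    simpa using this
  have e8 : (‖D‖ + ε) * dist v u ≤ (‖D‖ + ε) * (lam * ((1 + ε) * dist (g u) y)) :=
    mul_le_mul_of_nonneg_left e2 (by positivity)
  have e9 : ((‖D‖ + ε) * lam * (1 + ε) + L * ε) * dist (g u) y ≤ c' * dist (g u) y :=
    mul_le_mul_of_nonneg_right hε.le dist_nonneg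
  rw [dist_comm y (g u)]
  nlinarith [e5, e6, e7, e8, e9]

theorem norm_le_of_lipBd {lam : ℝ} (hlam : 1 ≤ lam) {S : Set E} {g : E → M} (hg : BiL lam S g)
    {u : E} (hu : u ∈ S) (hS : DensePt S u) {F : M → ℝ} {Ft : E → ℝ}
    (hFt : ∀ v ∈ S, Ft v = F (g v)) {D : E →L[ℝ] ℝ}
    (hD : HasFDerivAt Ft D u) {a : ℝ} (ha : 0 ≤ a) (hF : Met.LipBd F (g u) a) :
    ‖D‖ ≤ lam * a := by
  have hlam0 : 0 < lam := by linarith
  -- continuity of `g` at `u` along `S`
  have key : ∀ c' > a, ∀ ε > 0, ∀ e : E,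
      |D e| ≤ ((c' * lam + ε) * (1 + ε) + ‖D‖ * ε) * ‖e‖ := by
    intro c' hc' ε hε e
    by_cases he : e = 0
    · subst he; simp
    have he' : 0 < ‖e‖ := norm_pos_iff.2 he
    have hc0 : 0 < c' := lt_of_le_of_lt ha hc'
    obtain ⟨δ1, hδ1, h1⟩ := Metric.eventually_nhds_iff.1 ((hasFDerivAt_iff_isLittleO.1 hD).def hε)
    obtain ⟨δ2, hδ2, h2⟩ := Metric.eventually_nhds_iff.1 (hF c' hc')
    obtain ⟨δ3, hδ3, h3⟩ := Metric.eventually_nhds_iff.1 (hS ε hε)
    have hex : ∀ᶠ t in 𝓝[>] (0 : ℝ), t * ‖e‖ < δ3 ∧ (1 + ε) * (t * ‖e‖) < δ1 ∧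
        lam * ((1 + ε) * (t * ‖e‖)) < δ2 := by
      have c1 : Tendsto (fun t : ℝ => t * ‖e‖) (𝓝[>] 0) (𝓝 (0 * ‖e‖)) :=
        (((by fun_prop : Continuous fun t : ℝ => t * ‖e‖)).tendsto 0).mono_left nhdsWithin_le_nhds
      have c2 : Tendsto (fun t : ℝ => (1 + ε) * (t * ‖e‖)) (𝓝[>] 0) (𝓝 ((1 + ε) * (0 * ‖e‖))) :=
        (((by fun_prop : Continuous fun t : ℝ => (1 + ε) * (t * ‖e‖))).tendsto 0).mono_left
          nhdsWithin_le_nhds
      have c3 : Tendsto (fun t : ℝ => lam * ((1 + ε) * (t * ‖e‖))) (𝓝[>] 0)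
          (𝓝 (lam * ((1 + ε) * (0 * ‖e‖)))) :=
        (((by fun_prop : Continuous fun t : ℝ => lam * ((1 + ε) * (t * ‖e‖)))).tendsto 0).mono_left
          nhdsWithin_le_nhds
      simp only [zero_mul, mul_zero] at c1 c2 c3
      exact (c1.eventually (gt_mem_nhds hδ3)).and
        ((c2.eventually (gt_mem_nhds hδ1)).and (c3.eventually (gt_mem_nhds hδ2)))
    obtain ⟨t, ⟨ht3, ht1, ht2⟩, ht⟩ := (hex.and self_mem_nhdsWithin).exists
    have ht : (0 : ℝ) < t := ht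
    have hd : dist (u + t • e) u = t * ‖e‖ := by
      rw [dist_eq_norm, add_sub_cancel_left, norm_smul, Real.norm_eq_abs, abs_of_pos ht]
    obtain ⟨v, hv, hvd⟩ := h3 (y := u + t • e) (by rw [hd]; exact ht3)
    rw [dist_comm u, hd] at hvd
    have e1 : dist v u ≤ (1 + ε) * (t * ‖e‖) := by
      have := dist_triangle v (u + t • e) u
      rw [dist_comm v (u + t • e), hd] at this
      linarith
    have e2 := h1 (lt_of_le_of_lt e1 ht1)
    rw [Real.norm_eq_abs, hFt v hv, hFt u hu, ← dist_eq_norm] at e2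
    have e3 : dist (g v) (g u) ≤ lam * ((1 + ε) * (t * ‖e‖)) :=
      ((hg v hv u hu).1).trans (mul_le_mul_of_nonneg_left e1 hlam0.le)
    have e4 := h2 (lt_of_le_of_lt e3 ht2)
    have e5 : c' * dist (g v) (g u) ≤ c' * (lam * dist v u) :=
      mul_le_mul_of_nonneg_left (hg v hv u hu).1 hc0.le
    have e6 : |D (v - u)| ≤ (c' * lam + ε) * dist v u := by
      have h := abs_sub_abs_le_abs_sub (D (v - u)) (F (g v) - F (g u))
      rw [abs_sub_comm (D (v - u)) (F (g v) - F (g u))] at h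
      nlinarith [h, e2, e4, e5]
    have e7 : |D (t • e) - D (v - u)| ≤ ‖D‖ * (ε * (t * ‖e‖)) := by
      have h := D.le_opNorm (u + t • e - v)
      rw [← map_sub]
      have : t • e - (v - u) = u + t • e - v := by abel
      rw [this]
      rw [Real.norm_eq_abs, ← dist_eq_norm] at h
      exact h.trans (mul_le_mul_of_nonneg_left hvd (norm_nonneg _))
    have e8 : |D (t • e)| ≤ (c' * lam + ε) * ((1 + ε) * (t * ‖e‖)) + ‖D‖ * (ε * (t * ‖e‖)) := by
      have h := abs_sub_abs_le_abs_sub (D (t • e)) (D (v - u))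
      have h' : (c' * lam + ε) * dist v u ≤ (c' * lam + ε) * ((1 + ε) * (t * ‖e‖)) :=
        mul_le_mul_of_nonneg_left e1 (by positivity)
      linarith [h, e6, e7, h']
    rw [map_smul, smul_eq_mul, abs_mul, abs_of_pos ht] at e8
    have : t * |D e| ≤ t * (((c' * lam + ε) * (1 + ε) + ‖D‖ * ε) * ‖e‖) := by linarith
    exact le_of_mul_le_mul_left this ht
  have key2 : ∀ c' > a, ∀ e : E, |D e| ≤ c' * lam * ‖e‖ := by
    intro c' hc' e
    have hc : Continuous fun ε : ℝ => ((c' * lam + ε) * (1 + ε) + ‖D‖ * ε) * ‖e‖ := by fun_prop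
    have h1 : Tendsto (fun ε : ℝ => ((c' * lam + ε) * (1 + ε) + ‖D‖ * ε) * ‖e‖) (𝓝[>] 0)
        (𝓝 (((c' * lam + 0) * (1 + 0) + ‖D‖ * 0) * ‖e‖)) :=
      (hc.tendsto 0).mono_left nhdsWithin_le_nhds
    simp only [add_zero, mul_one, mul_zero] at h1
    refine ge_of_tendsto h1 ?_
    filter_upwards [self_mem_nhdsWithin] with ε hε using key c' hc' ε hε e
  have key3 : ∀ c' > a, ‖D‖ ≤ lam * c' := by
    intro c' hc'
    have hc0 : 0 < c' := lt_of_le_of_lt ha hc'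
    refine D.opNorm_le_bound (by positivity) fun e => ?_
    have := key2 c' hc' e
    rw [Real.norm_eq_abs]
    linarith [this, mul_comm c' lam]
  have hc : Continuous fun c' : ℝ => lam * c' := by fun_prop
  have h1 : Tendsto (fun c' : ℝ => lam * c') (𝓝[>] a) (𝓝 (lam * a)) :=
    (hc.tendsto a).mono_left nhdsWithin_le_nhds
  refine ge_of_tendsto h1 ?_
  filter_upwards [self_mem_nhdsWithin] with c' hc' using key3 c' hc'

end chart

section quad

variable {M : Type*} [MetricSpace M]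
variable {E : Type*} [NormedAddCommGroup E] [InnerProductSpace ℝ E] [CompleteSpace E]

theorem dual_parallelogram (x y : E →L[ℝ] ℝ) :
    ‖x + y‖ ^ 2 + ‖x - y‖ ^ 2 = 2 * ‖x‖ ^ 2 + 2 * ‖y‖ ^ 2 := by
  have h := parallelogram_law_with_norm ℝ ((InnerProductSpace.toDual ℝ E).symm x)
    ((InnerProductSpace.toDual ℝ E).symm y)
  rw [← map_add, ← map_sub] at h
  simp only [LinearIsometryEquiv.norm_map] at h
  nlinarith [h]

theorem quad_point {lam : ℝ} (hlam : 1 ≤ lam) {S : Set E} {g : E → M} (hg : BiL lam S g)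
    {u : E} (hu : u ∈ S) (hS : DensePt S u) (hT : DensePt (g '' S) (g u)) {F G : M → ℝ}
    (hF : Met.IsLip F) (hG : Met.IsLip G) {Ft Gt : E → ℝ} (hFt : ∀ v ∈ S, Ft v = F (g v))
    (hGt : ∀ v ∈ S, Gt v = G (g v)) (hD1 : DifferentiableAt ℝ Ft u)
    (hD2 : DifferentiableAt ℝ Gt u) {a b : ℝ} (ha : 0 ≤ a) (hb : 0 ≤ b)
    (hFa : Met.LipBd F (g u) a) (hGb : Met.LipBd G (g u) b) :
    ∃ p q : ℝ, 0 ≤ p ∧ 0 ≤ q ∧ Met.LipBd (F + G) (g u) p ∧ Met.LipBd (F - G) (g u) q ∧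
      p ^ 2 + q ^ 2 ≤ lam ^ 4 * (2 * a ^ 2 + 2 * b ^ 2) := by
  obtain ⟨D1, hD1⟩ := hD1
  obtain ⟨D2, hD2⟩ := hD2
  obtain ⟨K1, hF⟩ := hF
  obtain ⟨K2, hG⟩ := hG
  have hlam0 : 0 < lam := by linarith
  have n1 := norm_le_of_lipBd hlam hg hu hS hFt hD1 ha hFa
  have n2 := norm_le_of_lipBd hlam hg hu hS hGt hD2 hb hGb
  refine ⟨lam * ‖D1 + D2‖, lam * ‖D1 - D2‖, by positivity, by positivity, ?_, ?_, ?_⟩
  · exact lipBd_upper hlam hg hu hT (hF.add hG) (Ft := Ft + Gt)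
      (fun v hv => by simp [hFt v hv, hGt v hv]) (hD1.add hD2)
  · exact lipBd_upper hlam hg hu hT (hF.sub hG) (Ft := Ft - Gt)
      (fun v hv => by simp [hFt v hv, hGt v hv]) (hD1.sub hD2)
  · have h := dual_parallelogram D1 D2
    have m1 : ‖D1‖ ^ 2 ≤ (lam * a) ^ 2 := pow_le_pow_left₀ (norm_nonneg _) n1 2
    have m2 : ‖D2‖ ^ 2 ≤ (lam * b) ^ 2 := pow_le_pow_left₀ (norm_nonneg _) n2 2
    calc (lam * ‖D1 + D2‖) ^ 2 + (lam * ‖D1 - D2‖) ^ 2
        = lam ^ 2 * (‖D1 + D2‖ ^ 2 + ‖D1 - D2‖ ^ 2) := by ring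
      _ = lam ^ 2 * (2 * ‖D1‖ ^ 2 + 2 * ‖D2‖ ^ 2) := by rw [h]
      _ ≤ lam ^ 2 * (2 * (lam * a) ^ 2 + 2 * (lam * b) ^ 2) := by
          apply mul_le_mul_of_nonneg_left _ (by positivity)
          linarith
      _ = lam ^ 4 * (2 * a ^ 2 + 2 * b ^ 2) := by ring

end quad

end Vale.Agent.P233.RA
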